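import Mathlib

/-!
# Row 78 (S0104, S0105): abstract creation operators

`Sys A`: left creations `l j`, right creations `r j` and the vacuum projection `P` of a full Fock
space, as elements of a star ring.  `Two A`: two commuting systems `(l, r, P)`, `(λ, ρ, P')`.
For a small self-adjoint parameter `t` (commuting with everything) `cc t + i ss t` is the Cayley
transform of `t`, `D.X t j` is a deformation of the semicircular element `D.σ j`, similar to it
through `D.V n t`, and commuting with `D.d i`.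
-/

set_option autoImplicit false
set_option linter.unusedSectionVars false

namespace Crest.Agent.R78F

noncomputable section

/-- Left and right creation operators and the vacuum projection. -/
structure Sys (A : Type*) [Ring A] [StarRing A] where
  l : ℕ → A
  r : ℕ → A
  P : A
  ll : ∀ i j, star (l i) * l j = if i = j then 1 else 0
  rr : ∀ i j, star (r i) * r j = if i = j then 1 else 0
  lr : ∀ i j, l j * r i = r i * l j
  rl : ∀ i j, star (r i) * l j = l j * star (r i) + if i = j then P else 0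
  Pl : ∀ j, P * l j = 0
  Pr : ∀ j, P * r j = 0
  Prl : ∀ j, P * star (r j) = P * star (l j)
  Pstar : star P = P
  PP : P * P = P

theorem commute_ringInverse {R : Type*} [MonoidWithZero R] {a b : R} (h : Commute a b) :
    Commute a (Ring.inverse b) := by
  by_cases hb : IsUnit b
  · obtain ⟨u, rfl⟩ := hb
    rw [Ring.inverse_unit]
    exact h.units_inv_right
  · rw [Ring.inverse_non_unit _ hb]; exact Commute.zero_right _

variable {A B : Type*} [CStarAlgebra A] [CStarAlgebra B]

namespace Sys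

/-- The left semicircular elements. -/
def σ (S : Sys A) (j : ℕ) : A := S.l j + star (S.l j)

/-- The right semicircular elements. -/
def d (S : Sys A) (j : ℕ) : A := S.r j + star (S.r j)

/-- `a` commutes with all the generators of `S`. -/
structure Cm (S : Sys A) (a : A) : Prop where
  l : ∀ j, Commute a (S.l j)
  ls : ∀ j, Commute a (star (S.l j))
  r : ∀ j, Commute a (S.r j)
  rs : ∀ j, Commute a (star (S.r j))
  P : Commute a S.P

/-- The generators of `S` commute with those of `S'`. -/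
structure Ind (S S' : Sys A) : Prop where
  l : ∀ j, S'.Cm (S.l j)
  r : ∀ j, S'.Cm (S.r j)
  P : S'.Cm S.P

/-- The image of a system under a unital star homomorphism. -/
def map (S : Sys A) (φ : A →⋆ₐ[ℂ] B) : Sys B where
  l j := φ (S.l j)
  r j := φ (S.r j)
  P := φ S.P
  ll i j := by rw [← map_star, ← map_mul, S.ll]; split_ifs <;> simp
  rr i j := by rw [← map_star, ← map_mul, S.rr]; split_ifs <;> simp
  lr i j := by rw [← map_mul, S.lr, map_mul]
  rl i j := by
    rw [← map_star, ← map_mul, S.rl, map_add, map_mul]; split_ifs <;> simp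
  Pl j := by rw [← map_mul, S.Pl, map_zero]
  Pr j := by rw [← map_mul, S.Pr, map_zero]
  Prl j := by rw [← map_star, ← map_star, ← map_mul, S.Prl, map_mul]
  Pstar := by rw [← map_star, S.Pstar]
  PP := by rw [← map_mul, S.PP]

variable {S S' : Sys A} {a b : A}

theorem star_σ (S : Sys A) (j : ℕ) : star (S.σ j) = S.σ j := by simp [σ, add_comm]

theorem star_d (S : Sys A) (j : ℕ) : star (S.d j) = S.d j := by simp [d, add_comm]

theorem Cm.σ (h : S.Cm a) (j : ℕ) : Commute a (S.σ j) := (h.l j).add_right (h.ls j)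

theorem Cm.d (h : S.Cm a) (j : ℕ) : Commute a (S.d j) := (h.r j).add_right (h.rs j)

theorem Cm.star (h : S.Cm a) : S.Cm (star a) where
  l j := by simpa using (h.ls j).star_star
  ls j := (h.l j).star_star
  r j := by simpa using (h.rs j).star_star
  rs j := (h.r j).star_star
  P := by simpa [S.Pstar] using h.P.star_star

theorem Cm.mul (ha : S.Cm a) (hb : S.Cm b) : S.Cm (a * b) :=
  ⟨fun j => (ha.l j).mul_left (hb.l j), fun j => (ha.ls j).mul_left (hb.ls j),
    fun j => (ha.r j).mul_left (hb.r j), fun j => (ha.rs j).mul_left (hb.rs j),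
    ha.P.mul_left hb.P⟩

theorem Cm.add (ha : S.Cm a) (hb : S.Cm b) : S.Cm (a + b) :=
  ⟨fun j => (ha.l j).add_left (hb.l j), fun j => (ha.ls j).add_left (hb.ls j),
    fun j => (ha.r j).add_left (hb.r j), fun j => (ha.rs j).add_left (hb.rs j),
    ha.P.add_left hb.P⟩

theorem Cm.sub (ha : S.Cm a) (hb : S.Cm b) : S.Cm (a - b) :=
  ⟨fun j => (ha.l j).sub_left (hb.l j), fun j => (ha.ls j).sub_left (hb.ls j),
    fun j => (ha.r j).sub_left (hb.r j), fun j => (ha.rs j).sub_left (hb.rs j),
    ha.P.sub_left hb.P⟩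

theorem Cm.smul (c : ℂ) (ha : S.Cm a) : S.Cm (c • a) :=
  ⟨fun j => (ha.l j).smul_left c, fun j => (ha.ls j).smul_left c,
    fun j => (ha.r j).smul_left c, fun j => (ha.rs j).smul_left c, ha.P.smul_left c⟩

theorem Cm.one (S : Sys A) : S.Cm 1 :=
  ⟨fun _ => .one_left _, fun _ => .one_left _, fun _ => .one_left _, fun _ => .one_left _,
    .one_left _⟩

theorem Cm.two (S : Sys A) : S.Cm 2 := by
  rw [← one_add_one_eq_two]; exact (Cm.one S).add (Cm.one S)

theorem Cm.inverse (ha : S.Cm a) : S.Cm (Ring.inverse a) :=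
  ⟨fun j => (commute_ringInverse (ha.l j).symm).symm,
    fun j => (commute_ringInverse (ha.ls j).symm).symm,
    fun j => (commute_ringInverse (ha.r j).symm).symm,
    fun j => (commute_ringInverse (ha.rs j).symm).symm, (commute_ringInverse ha.P.symm).symm⟩

theorem Cm.map (ha : S.Cm a) (φ : A →⋆ₐ[ℂ] B) : (S.map φ).Cm (φ a) where
  l j := (ha.l j).map φ
  ls j := by have := (ha.ls j).map φ; rwa [map_star] at this
  r j := (ha.r j).map φ
  rs j := by have := (ha.rs j).map φ; rwa [map_star] at this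
  P := ha.P.map φ

theorem Ind.symm (h : S.Ind S') : S'.Ind S where
  l j := ⟨fun i => ((h.l i).l j).symm, fun i => ((h.l i).star.l j).symm,
    fun i => ((h.r i).l j).symm, fun i => ((h.r i).star.l j).symm, (h.P.l j).symm⟩
  r j := ⟨fun i => ((h.l i).r j).symm, fun i => ((h.l i).star.r j).symm,
    fun i => ((h.r i).r j).symm, fun i => ((h.r i).star.r j).symm, (h.P.r j).symm⟩
  P := ⟨fun i => (h.l i).P.symm, fun i => (h.l i).star.P.symm,
    fun i => (h.r i).P.symm, fun i => (h.r i).star.P.symm, h.P.P.symm⟩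

theorem Ind.map (h : S.Ind S') (φ : A →⋆ₐ[ℂ] B) : (S.map φ).Ind (S'.map φ) :=
  ⟨fun j => (h.l j).map φ, fun j => (h.r j).map φ, h.P.map φ⟩

theorem Ind.σ (h : S.Ind S') (j : ℕ) : S'.Cm (S.σ j) := (h.l j).add (h.l j).star

theorem Ind.d (h : S.Ind S') (j : ℕ) : S'.Cm (S.d j) := (h.r j).add (h.r j).star

end Sys

/-- Two commuting systems `(l, r, P) = S` and `(λ, ρ, P') = S'`. -/
structure Two (A : Type*) [CStarAlgebra A] where
  S : Sys A
  S' : Sys A
  ind : S.Ind S'

/-- `(1 + t²)⁻¹`. -/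
def hh (t : A) : A := Ring.inverse (1 + t * t)

/-- `2t / (1 + t²)`. -/
def ss (t : A) : A := 2 * (t * hh t)

/-- `(1 - t²) / (1 + t²)`. -/
def cc (t : A) : A := 2 * hh t - 1

/-- A small self-adjoint parameter. -/
structure Sm (t : A) : Prop where
  sa : star t = t
  le : ‖t‖ ≤ 1 / 20

/-- The defect of `J` to intertwine `a` and `a'`. -/
def dev (J a' a : A) : ℝ := ‖a' * J - J * a‖

theorem commute_hh {a t : A} (h : Commute a t) : Commute a (hh t) :=
  commute_ringInverse ((Commute.one_right a).add_right (h.mul_right h))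

theorem commute_two (a : A) : Commute a 2 := by
  rw [← one_add_one_eq_two]; exact (Commute.one_right a).add_right (Commute.one_right a)

theorem commute_ss {a t : A} (h : Commute a t) : Commute a (ss t) :=
  (commute_two a).mul_right (h.mul_right (commute_hh h))

theorem commute_cc {a t : A} (h : Commute a t) : Commute a (cc t) :=
  ((commute_two a).mul_right (commute_hh h)).sub_right (Commute.one_right a)

theorem Sys.Cm.hh {S : Sys A} {t : A} (h : S.Cm t) : S.Cm (hh t) :=
  ((Sys.Cm.one S).add (h.mul h)).inverse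

theorem Sys.Cm.ss {S : Sys A} {t : A} (h : S.Cm t) : S.Cm (ss t) :=
  (Sys.Cm.two S).mul (h.mul h.hh)

theorem Sys.Cm.cc {S : Sys A} {t : A} (h : S.Cm t) : S.Cm (cc t) :=
  ((Sys.Cm.two S).mul h.hh).sub (Sys.Cm.one S)

namespace Two

/-- `a` commutes with all the generators of both systems. -/
structure Cm (D : Two A) (a : A) : Prop where
  fst : D.S.Cm a
  snd : D.S'.Cm a

/-- All generators of `D` commute with all generators of `D'`. -/
structure Ind (D D' : Two A) : Prop where
  h11 : D.S.Ind D'.S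
  h12 : D.S.Ind D'.S'
  h21 : D.S'.Ind D'.S
  h22 : D.S'.Ind D'.S'

/-- The image under a unital star homomorphism. -/
def map (D : Two A) (φ : A →⋆ₐ[ℂ] B) : Two B := ⟨D.S.map φ, D.S'.map φ, D.ind.map φ⟩

variable (D : Two A)

/-- `σ j = l j + (l j)⋆`. -/
def σ (j : ℕ) : A := D.S.σ j

/-- `d j = ρ j + (ρ j)⋆`. -/
def d (j : ℕ) : A := D.S'.d j

/-- `E = P P'`. -/
def E : A := D.S.P * D.S'.P

/-- `μ j = P λ_j`. -/
def μ (j : ℕ) : A := D.S.P * D.S'.l j

/-- `T = ∑_{i<n} r_i λ_i⋆`. -/
def T (n : ℕ) : A := ∑ i ∈ Finset.range n, D.S.r i * star (D.S'.l i)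

/-- The deformed creation operators. -/
def L (t : A) (j : ℕ) : A :=
  D.S.l j * (1 - D.S.P) + cc t * (D.S.l j * D.S.P) + ss t * D.μ j

/-- The deformed semicircular elements. -/
def X (t : A) (j : ℕ) : A := D.L t j + star (D.L t j)

/-- `B = (1 - s T⋆)⁻¹`. -/
def Bo (n : ℕ) (t : A) : A := Ring.inverse (1 - ss t * star (D.T n))

/-- `C = c (1 - P) + P`. -/
def Co (t : A) : A := cc t + (1 - cc t) * D.S.P

/-- The similarity `V = -s T + c C B`. -/
def V (n : ℕ) (t : A) : A := -(ss t * D.T n) + cc t * (D.Co t * D.Bo n t)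

/-- The inverse of `V`. -/
def Vi (n : ℕ) (t : A) : A := Ring.inverse (D.V n t)

variable {D} {D' : Two A} {a b : A}

theorem Cm.star (h : D.Cm a) : D.Cm (star a) := ⟨h.1.star, h.2.star⟩
theorem Cm.mul (ha : D.Cm a) (hb : D.Cm b) : D.Cm (a * b) := ⟨ha.1.mul hb.1, ha.2.mul hb.2⟩
theorem Cm.add (ha : D.Cm a) (hb : D.Cm b) : D.Cm (a + b) := ⟨ha.1.add hb.1, ha.2.add hb.2⟩
theorem Cm.sub (ha : D.Cm a) (hb : D.Cm b) : D.Cm (a - b) := ⟨ha.1.sub hb.1, ha.2.sub hb.2⟩
theorem Cm.smul (c : ℂ) (ha : D.Cm a) : D.Cm (c • a) := ⟨ha.1.smul c, ha.2.smul c⟩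
theorem Cm.one (D : Two A) : D.Cm 1 := ⟨.one _, .one _⟩
theorem Cm.map (ha : D.Cm a) (φ : A →⋆ₐ[ℂ] B) : (D.map φ).Cm (φ a) := ⟨ha.1.map φ, ha.2.map φ⟩
theorem Cm.σ (h : D.Cm a) (j : ℕ) : Commute a (D.σ j) := h.1.σ j
theorem Cm.d (h : D.Cm a) (j : ℕ) : Commute a (D.d j) := h.2.d j
theorem Cm.E (h : D.Cm a) : Commute a D.E := h.1.P.mul_right h.2.P
theorem Cm.μ (h : D.Cm a) (j : ℕ) : Commute a (D.μ j) := h.1.P.mul_right (h.2.l j)

theorem Cm.T (h : D.Cm a) (n : ℕ) : Commute a (D.T n) :=
  Commute.sum_right _ _ _ fun i _ => (h.1.r i).mul_right (h.2.ls i)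

theorem Cm.star_T (h : D.Cm a) (n : ℕ) : Commute a (Star.star (D.T n)) := by
  simpa using (h.star.T n).star_star

theorem Ind.symm (h : D.Ind D') : D'.Ind D := ⟨h.h11.symm, h.h21.symm, h.h12.symm, h.h22.symm⟩
theorem Ind.σ (h : D.Ind D') (j : ℕ) : D'.Cm (D.σ j) := ⟨h.h11.σ j, h.h12.σ j⟩
theorem Ind.d (h : D.Ind D') (j : ℕ) : D'.Cm (D.d j) := ⟨h.h21.d j, h.h22.d j⟩
theorem Ind.E (h : D.Ind D') : D'.Cm D.E := ⟨h.h11.P.mul h.h21.P, h.h12.P.mul h.h22.P⟩

theorem star_σ (D : Two A) (j : ℕ) : star (D.σ j) = D.σ j := D.S.star_σ j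
theorem star_d (D : Two A) (j : ℕ) : star (D.d j) = D.d j := D.S'.star_d j
theorem star_X (D : Two A) (t : A) (j : ℕ) : star (D.X t j) = D.X t j := by simp [X, add_comm]

theorem star_E (D : Two A) : star D.E = D.E := by
  rw [E, star_mul, D.S.Pstar, D.S'.Pstar, D.ind.P.P.eq]

theorem E_mul_E (D : Two A) : D.E * D.E = D.E := by
  rw [E, mul_assoc, ← mul_assoc D.S'.P, ← D.ind.P.P.eq, mul_assoc, D.S'.PP, ← mul_assoc, D.S.PP]

theorem commute_σ_d (D : Two A) (j i : ℕ) : Commute (D.σ j) (D.d i) := (D.ind.σ j).d i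

theorem Cm.L {t : A} (h : D.Cm a) (ht : Commute a t) (j : ℕ) : Commute a (D.L t j) :=
  (((h.1.l j).mul_right ((Commute.one_right a).sub_right h.1.P)).add_right
    ((commute_cc ht).mul_right ((h.1.l j).mul_right h.1.P))).add_right
    ((commute_ss ht).mul_right (h.μ j))

/-- An element commuting with the generators and with the (self-adjoint) parameter commutes with
the deformed semicirculars. -/
theorem Cm.X {t : A} (h : D.Cm a) (hs : Star.star t = t) (ht : Commute a t) (j : ℕ) :
    Commute a (D.X t j) := by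
  refine (h.L ht j).add_right ?_
  have h1 : Commute (Star.star a) t := by simpa [hs] using ht.star_star
  simpa using (h.star.L h1 j).star_star

theorem Cm.V {t : A} (h : D.Cm a) (ht : Commute a t) (n : ℕ) : Commute a (D.V n t) := by
  have hB : Commute a (D.Bo n t) :=
    commute_ringInverse ((Commute.one_right a).sub_right ((commute_ss ht).mul_right (h.star_T n)))
  have hC : Commute a (D.Co t) :=
    (commute_cc ht).add_right (((Commute.one_right a).sub_right (commute_cc ht)).mul_right h.1.P)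
  exact ((commute_ss ht).mul_right (h.T n)).neg_right.add_right
    ((commute_cc ht).mul_right (hC.mul_right hB))

theorem Cm.Vi {t : A} (h : D.Cm a) (ht : Commute a t) (n : ℕ) : Commute a (D.Vi n t) :=
  commute_ringInverse (h.V ht n)

theorem Ind.X (h : D.Ind D') {t : A} (ht : D'.Cm t) (j : ℕ) :
    D'.Cm (D.X t j) := by
  have key : ∀ S' : Sys A, D.S.Ind S' → D.S'.Ind S' → S'.Cm t → S'.Cm (D.X t j) := by
    intro S' h1 h2 ht
    have hL : S'.Cm (D.L t j) :=
      (((h1.l j).mul ((Sys.Cm.one S').sub h1.P)).add (ht.cc.mul ((h1.l j).mul h1.P))).add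
        (ht.ss.mul (h1.P.mul (h2.l j)))
    exact hL.add hL.star
  exact ⟨key _ h.h11 h.h21 ht.1, key _ h.h12 h.h22 ht.2⟩

end Two

end

end Crest.Agent.R78F
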