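import Crest.Agent.R78F.Lp
import Crest.Agent.R78F.Sys

/-!
# Row 78 (S0104, S0105): row estimates in a C⋆-algebra
-/

set_option autoImplicit false
set_option linter.unusedSectionVars false

open Finset

namespace Crest.Agent.R78F

noncomputable section

variable {A B : Type*} [CStarAlgebra A] [CStarAlgebra B]

theorem norm_one_le' : ‖(1 : A)‖ ≤ 1 := by
  exact (IsStarProjection.one A).norm_le

/-- A self-adjoint idempotent has norm at most one. -/
theorem norm_le_one_of_proj {p : A} (h1 : star p = p) (h2 : p * p = p) : ‖p‖ ≤ 1 := by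
  exact IsStarProjection.norm_le p ⟨h2, h1⟩

theorem norm_one_sub_le_one_of_proj {p : A} (h1 : star p = p) (h2 : p * p = p) : ‖1 - p‖ ≤ 1 := by
  exact IsStarProjection.norm_le _ (IsStarProjection.one_sub ⟨h2, h1⟩)

/-- An isometry has norm at most one. -/
theorem norm_le_one_of_isom {v : A} (h : star v * v = 1) : ‖v‖ ≤ 1 := by
  have h1 : ‖v‖ * ‖v‖ ≤ 1 := by
    rw [← CStarRing.norm_star_mul_self, h]
    exact norm_one_le'
  nlinarith [norm_nonneg v]

/-- Cauchy–Schwarz in the Hilbert module `A^n` (use `CStarAlgebra.spectralOrder`,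
`CStarModule.norm_inner_le` for `C⋆ᵐᵒᵈ(A, Π i, A)`, or a direct proof). -/
theorem norm_sum_mul_le {ι : Type*} (s : Finset ι) (a b : ι → A) :
    ‖∑ i ∈ s, a i * b i‖ ≤
      √‖∑ i ∈ s, a i * star (a i)‖ * √‖∑ i ∈ s, star (b i) * b i‖ := by
  let _ := CStarAlgebra.spectralOrder A
  have _ := CStarAlgebra.spectralOrderedRing A
  have h := CStarModule.norm_inner_le (A := A) (WithCStarModule A (s → A))
    (x := (WithCStarModule.equiv A (s → A)).symm fun i => star (b i))
    (y := (WithCStarModule.equiv A (s → A)).symm fun i => a i)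
  rw [WithCStarModule.pi_inner, WithCStarModule.pi_norm, WithCStarModule.pi_norm] at h
  simp only [WithCStarModule.equiv_symm_pi_apply, WithCStarModule.inner_def, star_star] at h
  rw [Finset.sum_coe_sort s fun i => a i * b i, Finset.sum_coe_sort s fun i => star (b i) * b i,
    Finset.sum_coe_sort s fun i => a i * star (a i), mul_comm] at h
  exact h

/-- `(r j)_{j<n}` is a row contraction. -/
def Row (n : ℕ) (r : ℕ → A) : Prop := ‖∑ j ∈ range n, r j * star (r j)‖ ≤ 1

/-- Isometries with orthogonal ranges form a row contraction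
(the sum is a self-adjoint idempotent). -/
theorem row_of_orth {n : ℕ} {r : ℕ → A}
    (h : ∀ i j, star (r i) * r j = if i = j then 1 else 0) : Row n r := by
  refine norm_le_one_of_proj ?_ ?_
  · simp only [star_sum, star_mul, star_star]
  · rw [Finset.sum_mul_sum]
    refine Finset.sum_congr rfl fun i hi => ?_
    rw [Finset.sum_eq_single_of_mem i hi]
    · rw [mul_assoc, ← mul_assoc (star (r i)), h, if_pos rfl, one_mul]
    · intro j _ hj
      rw [mul_assoc, ← mul_assoc (star (r i)), h, if_neg hj.symm, zero_mul, mul_zero]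

theorem Row.map {n : ℕ} {r : ℕ → A} (h : Row n r) (φ : A →⋆ₐ[ℂ] B) :
    Row n (fun j => φ (r j)) := by
  have e : ∑ j ∈ range n, φ (r j) * star (φ (r j)) = φ (∑ j ∈ range n, r j * star (r j)) := by
    simp only [map_sum, map_mul, map_star]
  unfold Row
  rw [e]
  exact (NonUnitalStarAlgHom.norm_apply_le φ _).trans h

theorem Row.norm_sum_le {n : ℕ} {r : ℕ → A} (h : Row n r) {v : ℕ → A} {M : ℝ} (hM : 0 ≤ M)
    (hv : ∀ j < n, ‖v j‖ ≤ M) : ‖∑ j ∈ range n, r j * v j‖ ≤ M * √n := by
  refine (norm_sum_mul_le _ _ _).trans ?_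
  have h1 : √‖∑ j ∈ range n, r j * star (r j)‖ ≤ 1 := Real.sqrt_le_one.2 h
  have h2 : ‖∑ j ∈ range n, star (v j) * v j‖ ≤ M ^ 2 * n := by
    refine (_root_.norm_sum_le _ _).trans ?_
    refine (Finset.sum_le_card_nsmul _ _ (M ^ 2) fun j hj => ?_).trans_eq ?_
    · rw [CStarRing.norm_star_mul_self, ← sq]
      exact pow_le_pow_left₀ (norm_nonneg _) (hv j (Finset.mem_range.1 hj)) 2
    · rw [Finset.card_range, nsmul_eq_mul, mul_comm]
  have h3 := Real.sqrt_le_sqrt h2
  rw [Real.sqrt_mul (sq_nonneg M), Real.sqrt_sq hM] at h3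
  exact (mul_le_of_le_one_left (Real.sqrt_nonneg _) h1).trans h3

/-- The adjoint version. -/
theorem Row.norm_sum_star_le {n : ℕ} {r : ℕ → A} (h : Row n r) {v : ℕ → A} {M : ℝ} (hM : 0 ≤ M)
    (hv : ∀ j < n, ‖v j‖ ≤ M) : ‖∑ j ∈ range n, v j * star (r j)‖ ≤ M * √n := by
  rw [← norm_star, star_sum]
  simp only [star_mul, star_star]
  exact h.norm_sum_le hM fun j hj => by rw [norm_star]; exact hv j hj

theorem Row.norm_mid_le {n : ℕ} {r : ℕ → A} (h : Row n r) {p : A} (hp : ‖p‖ ≤ 1) :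
    ‖∑ j ∈ range n, r j * p * star (r j)‖ ≤ 1 := by
  let _ := CStarAlgebra.spectralOrder A
  have _ := CStarAlgebra.spectralOrderedRing A
  simp only [mul_assoc]
  refine (norm_sum_mul_le _ _ _).trans (mul_le_one₀ (Real.sqrt_le_one.2 h) (Real.sqrt_nonneg _)
    (Real.sqrt_le_one.2 (le_trans ?_ h)))
  refine CStarAlgebra.norm_le_norm_of_nonneg_of_le
    (Finset.sum_nonneg fun j _ => star_mul_self_nonneg _) (Finset.sum_le_sum fun j _ => ?_)
  have h1 : r j * (star p * p) * star (r j) ≤ ‖star p * p‖ • (r j * star (r j)) :=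
    CStarAlgebra.star_right_conjugate_le_norm_smul (IsSelfAdjoint.star_mul_self p)
  have h2 : ‖star p * p‖ ≤ 1 := by
    rw [CStarRing.norm_star_mul_self]
    exact mul_le_one₀ hp (norm_nonneg _) hp
  have h3 := smul_le_smul_of_nonneg_right h2 (mul_star_self_nonneg (r j))
  rw [one_smul] at h3
  refine le_of_eq_of_le ?_ (h1.trans h3)
  simp only [star_mul, star_star, mul_assoc]

/-- Compressions of a row contraction.  With `p = β β⋆`, `S = ‖∑ r j p (r j)⋆‖` satisfies
`S ≤ √‖∑ r j (r j)⋆‖ √‖∑ r j p p (r j)⋆‖`; or argue with vectors. -/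
theorem Row.compress {H H' : Type*} [NormedAddCommGroup H] [InnerProductSpace ℂ H]
    [CompleteSpace H] [NormedAddCommGroup H'] [InnerProductSpace ℂ H'] [CompleteSpace H']
    {n : ℕ} {r : ℕ → Op H} (h : Row n r) (α : H →L[ℂ] H') (β : H' →L[ℂ] H)
    (hα : ‖α‖ ≤ 1) (hβ : ‖β‖ ≤ 1) : Row n (fun j => (α ∘L r j ∘L β : Op H')) := by
  have e : ∑ j ∈ range n, (α ∘L r j ∘L β : Op H') * star (α ∘L r j ∘L β : Op H') =
      α ∘L (∑ j ∈ range n, r j * (β ∘L ContinuousLinearMap.adjoint β : Op H) * star (r j)) ∘L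
        ContinuousLinearMap.adjoint α := by
    refine ContinuousLinearMap.ext fun v => ?_
    simp only [ContinuousLinearMap.star_eq_adjoint, ContinuousLinearMap.adjoint_comp,
      _root_.sum_apply, mul_apply_eq_comp, ContinuousLinearMap.comp_apply, map_sum]
  unfold Row
  rw [e]
  have h1 : ‖(β ∘L ContinuousLinearMap.adjoint β : Op H)‖ ≤ 1 := by
    refine (ContinuousLinearMap.opNorm_comp_le _ _).trans ?_
    rw [LinearIsometryEquiv.norm_map]
    exact mul_le_one₀ hβ (norm_nonneg _) hβ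
  refine (ContinuousLinearMap.opNorm_comp_le _ _).trans (mul_le_one₀ hα (norm_nonneg _) ?_)
  refine (ContinuousLinearMap.opNorm_comp_le _ _).trans
    (mul_le_one₀ (h.norm_mid_le h1) (norm_nonneg _) ?_)
  rw [LinearIsometryEquiv.norm_map]
  exact hα

/-- `∑ (L j + (L j)⋆) d j = n e + O(√n)`: write `(L j)⋆ d j = d j (L j)⋆ + e`. -/
theorem norm_sum_sub_le {n : ℕ} {L d : ℕ → A} {e : A} (hL : Row n L)
    (hd : ∀ j < n, ‖d j‖ ≤ 2) (he : ∀ j < n, star (L j) * d j = d j * star (L j) + e) :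
    ‖∑ j ∈ range n, (L j + star (L j)) * d j - (n : ℂ) • e‖ ≤ 4 * √n := by
  have e1 : ∑ j ∈ range n, (L j + star (L j)) * d j - (n : ℂ) • e =
      ∑ j ∈ range n, L j * d j + ∑ j ∈ range n, d j * star (L j) := by
    rw [Finset.sum_congr rfl fun j hj => by rw [add_mul, he j (Finset.mem_range.1 hj)],
      Finset.sum_add_distrib, Finset.sum_add_distrib, Finset.sum_const, Finset.card_range,
      Nat.cast_smul_eq_nsmul]
    abel
  rw [e1]
  have h1 := hL.norm_sum_le (by norm_num) hd
  have h2 := hL.norm_sum_star_le (by norm_num) hd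
  exact (norm_add_le _ _).trans (by linarith)

namespace Sys

variable (S : Sys A)

theorem norm_l_le (j : ℕ) : ‖S.l j‖ ≤ 1 := norm_le_one_of_isom (by simp [S.ll])

theorem norm_r_le (j : ℕ) : ‖S.r j‖ ≤ 1 := norm_le_one_of_isom (by simp [S.rr])

theorem norm_P_le : ‖S.P‖ ≤ 1 := norm_le_one_of_proj S.Pstar S.PP

theorem norm_σ_le (j : ℕ) : ‖S.σ j‖ ≤ 2 := by
  refine (norm_add_le _ _).trans ?_
  rw [norm_star]
  linarith [S.norm_l_le j]

theorem norm_d_le (j : ℕ) : ‖S.d j‖ ≤ 2 := by
  refine (norm_add_le _ _).trans ?_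
  rw [norm_star]
  linarith [S.norm_r_le j]

/-- `(l j)⋆ r i = r i (l j)⋆ + δ P`. -/
theorem lr_star (i j : ℕ) :
    star (S.l j) * S.r i = S.r i * star (S.l j) + if i = j then S.P else 0 := by
  have := congrArg star (S.rl i j)
  simp only [star_mul, star_star, star_add] at this
  rw [this]
  split_ifs
  · rw [S.Pstar]
  · rw [star_zero]

theorem commute_σ_d (j i : ℕ) : Commute (S.σ j) (S.d i) := by
  have h1 := congrArg star (S.lr i j)
  simp only [star_mul] at h1
  change (S.l j + star (S.l j)) * (S.r i + star (S.r i)) =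
    (S.r i + star (S.r i)) * (S.l j + star (S.l j))
  simp only [add_mul, mul_add, S.lr i j, S.lr_star i j, S.rl i j, h1]
  abel

/-- The vacuum projection is a limit of averages of `σ j * d j`. -/
theorem norm_sum_σ_d (n : ℕ) :
    ‖∑ j ∈ range n, S.σ j * S.d j - (n : ℂ) • S.P‖ ≤ 4 * √n := by
  refine norm_sum_sub_le (row_of_orth S.ll) (fun j _ => S.norm_d_le j) fun j _ => ?_
  have h1 := congrArg star (S.lr j j)
  simp only [star_mul] at h1
  simp only [d, add_mul, mul_add, S.lr_star j j, h1, if_true]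
  abel

/-- What commutes with all `σ j` and `d j` commutes with the vacuum projection. -/
theorem commute_P {y : A} (h1 : ∀ j, Commute y (S.σ j)) (h2 : ∀ j, Commute y (S.d j)) :
    Commute y S.P := by
  have key : ∀ n : ℕ, (n : ℝ) * ‖y * S.P - S.P * y‖ ≤ 8 * ‖y‖ * √n := by
    intro n
    have hc : Commute y (∑ j ∈ range n, S.σ j * S.d j) :=
      Commute.sum_right _ _ _ fun j _ => (h1 j).mul_right (h2 j)
    have e : (n : ℂ) • (y * S.P - S.P * y) =
        (∑ j ∈ range n, S.σ j * S.d j - (n : ℂ) • S.P) * y -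
          y * (∑ j ∈ range n, S.σ j * S.d j - (n : ℂ) • S.P) := by
      rw [sub_mul, mul_sub, hc.eq, smul_mul_assoc, mul_smul_comm, smul_sub]
      abel
    have h3 := congrArg norm e
    rw [norm_smul, Complex.norm_natCast] at h3
    have h4 := S.norm_sum_σ_d n
    have h5 := (norm_mul_le _ y).trans (mul_le_mul_of_nonneg_right h4 (norm_nonneg y))
    have h6 := (norm_mul_le y _).trans (mul_le_mul_of_nonneg_left h4 (norm_nonneg y))
    rw [h3]
    exact (norm_sub_le _ _).trans (by linarith)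
  by_contra hne
  have hp : 0 < ‖y * S.P - S.P * y‖ := norm_pos_iff.2 (sub_ne_zero.2 hne)
  obtain ⟨m, hm⟩ := exists_nat_gt (8 * ‖y‖ / ‖y * S.P - S.P * y‖)
  have hm0 : (0 : ℝ) < m := lt_of_le_of_lt (by positivity) hm
  have h3 := key (m * m)
  rw [Nat.cast_mul, Real.sqrt_mul_self hm0.le] at h3
  rw [div_lt_iff₀ hp] at hm
  nlinarith

end Sys

end

end Crest.Agent.R78F
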