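import Crest.Agent.R78F.Fock
import Crest.Agent.R78F.Row

/-!
# Row 78 (S0105): matrix units and the centre
-/

set_option autoImplicit false
set_option linter.unusedSectionVars false

namespace Crest.Agent.R78F

noncomputable section

theorem centre_sg_smul {ι : Type*} [DecidableEq ι] (w : ι) (x : ℂ) :
    (sg w x : L2 ι ℂ) = x • sg w 1 := by
  rw [← map_smul, smul_eq_mul, mul_one]

/-- `e_{ww} b e_{w'w'}` is a multiple of `e_{ww'}` (scalar coefficients). -/
theorem eu_mul_mul_eu {ι : Type*} [DecidableEq ι] (b : Op (L2 ι ℂ)) (w w' : ι) :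
    eu w w * b * eu w' w' = ev w (b (sg w' 1)) • (eu w w' : Op (L2 ι ℂ)) := by
  refine ContinuousLinearMap.ext fun ξ => ?_
  change sg w (ev w (b (sg w' (ev w' ξ)))) = ev w (b (sg w' 1)) • (sg w (ev w' ξ) : L2 ι ℂ)
  rw [centre_sg_smul w' (ev w' ξ), map_smul, map_smul, ← map_smul (sg w) (ev w (b (sg w' 1))),
    smul_eq_mul, smul_eq_mul, mul_comm]

/-- In a nondegenerate representation of `B(ℓ²(ι))`, what commutes with the matrix units commutes
with everything: `Π(e_ww) (v Π(b) - Π(b) v) Π(e_w'w') = 0`, and `g Π(e_w'w') = 0` for all `w'`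
gives `g = 0` by taking adjoints. -/
theorem commute_of_commute_eu {ι H : Type*} [DecidableEq ι] [NormedAddCommGroup H]
    [InnerProductSpace ℂ H] [CompleteSpace H] (Φ : Op (L2 ι ℂ) →⋆ₐ[ℂ] Op H)
    (hΦ : ∀ ξ : H, (∀ w, Φ (eu w w) ξ = 0) → ξ = 0) {v : Op H}
    (hv : ∀ w w', Commute v (Φ (eu w w'))) (b : Op (L2 ι ℂ)) : Commute v (Φ b) := by
  have h1 : ∀ w w', Φ (eu w w) * ((v * Φ b - Φ b * v) * Φ (eu w' w')) = 0 := by
    intro w w'
    have h : Commute v (Φ (eu w w) * Φ b * Φ (eu w' w')) := by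
      rw [← map_mul, ← map_mul, eu_mul_mul_eu, map_smul]
      exact (hv w w').smul_right _
    calc Φ (eu w w) * ((v * Φ b - Φ b * v) * Φ (eu w' w'))
        = (Φ (eu w w) * v) * Φ b * Φ (eu w' w') - Φ (eu w w) * Φ b * (v * Φ (eu w' w')) := by
          noncomm_ring
      _ = v * (Φ (eu w w) * Φ b * Φ (eu w' w')) - Φ (eu w w) * Φ b * Φ (eu w' w') * v := by
          rw [← (hv w w).eq, (hv w' w').eq]
          noncomm_ring
      _ = 0 := sub_eq_zero.2 h.eq
  have h2 : ∀ w', Φ (eu w' w') * star (v * Φ b - Φ b * v) = 0 := by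
    intro w'
    have h : (v * Φ b - Φ b * v) * Φ (eu w' w') = 0 :=
      ContinuousLinearMap.ext fun ξ => hΦ _ fun w => DFunLike.congr_fun (h1 w w') ξ
    have h' := congrArg star h
    rwa [star_mul, ← map_star, star_eu, star_zero] at h'
  have h3 : star (v * Φ b - Φ b * v) = 0 :=
    ContinuousLinearMap.ext fun ξ => hΦ _ fun w => DFunLike.congr_fun (h2 w) ξ
  exact sub_eq_zero.1 (star_eq_zero.1 h3)

theorem amp_nondeg {ι κ : Type*} [DecidableEq ι] [DecidableEq κ] (ξ : L2 κ (L2 ι ℂ))
    (h : ∀ w, amp κ (eu w w) ξ = 0) : ξ = 0 := by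
  refine ev_ext fun k => ev_ext fun w => ?_
  have h1 := congrArg (fun η => ev w (ev k η)) (h w)
  simpa [eu_apply] using h1

theorem amp_amp_nondeg {ι κ κ' : Type*} [DecidableEq ι] [DecidableEq κ] [DecidableEq κ']
    (ξ : L2 κ' (L2 κ (L2 ι ℂ))) (h : ∀ w, amp κ' (amp κ (eu w w)) ξ = 0) : ξ = 0 := by
  refine ev_ext fun k => ?_
  rw [map_zero]
  refine amp_nondeg _ fun w => ?_
  rw [← ev_amp, h w, map_zero]

/-- An operator commuting with the left semicirculars and killing the vacuum layer vanishes: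
strong induction on the length, `sg (j :: w) x = σ j (sg w x) - (lcr j)⋆ (sg w x)`. -/
theorem eq_zero_of_vac {K : Type*} [NormedAddCommGroup K] [InnerProductSpace ℂ K]
    [CompleteSpace K] {y : Op (Fk K)} (h1 : ∀ j, Commute y ((fock K).σ j))
    (h2 : ∀ x, y (sg [] x) = 0) : y = 0 := by
  have key : ∀ (n : ℕ) (w : List ℕ), w.length ≤ n → ∀ x, y (sg w x) = 0 := by
    intro n
    induction n with
    | zero =>
      intro w hw x
      rw [List.length_eq_zero_iff.1 (Nat.le_zero.1 hw), h2]
    | succ n ih =>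
      intro w hw x
      cases w with
      | nil => exact h2 x
      | cons j w =>
        have hw' : w.length ≤ n := by simpa using hw
        have e1 : y (lcr K j (sg w x) + star (lcr K j) (sg w x)) =
            (fock K).σ j (y (sg w x)) := DFunLike.congr_fun (h1 j).eq (sg w x)
        have e2 : y (star (lcr K j) (sg w x)) = 0 := by
          cases w with
          | nil => rw [star_lcr_sg_nil, map_zero]
          | cons k w =>
            rw [star_lcr_sg_cons]
            split_ifs
            · exact ih w (by simp at hw'; omega) x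
            · exact map_zero _
        rwa [map_add, e2, add_zero, ih w hw' x, map_zero, lcr_sg] at e1
  exact ext_sg fun w x => key _ w le_rfl x

/-- The centre argument: `y` commutes with the vacuum projection `P'` of the outer system
(`Sys.commute_P`), so `y (sg [] x) = sg [] (b x)`; `b` commutes with the matrix units, so it is a
scalar `c`; apply `eq_zero_of_vac` to `y - c`. -/
theorem scalar_of_commute {y : Op (Fk (Fk ℂ))}
    (h0 : ∀ w w', Commute y (amp (List ℕ) (eu w w')))
    (h1 : ∀ j, Commute y ((fock (Fk ℂ)).σ j)) (h2 : ∀ j, Commute y ((fock (Fk ℂ)).d j)) :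
    ∃ c : ℂ, y = c • (1 : Op (Fk (Fk ℂ))) := by
  have hP : Commute y (eu [] []) := (fock (Fk ℂ)).commute_P h1 h2
  obtain ⟨b, hb⟩ : ∃ b : Op (Fk ℂ), ∀ x, y (sg [] x) = sg [] (b x) :=
    ⟨ev [] ∘L y ∘L sg [], fun x => by
      have h := DFunLike.congr_fun hP.eq (sg [] x)
      simpa [eu_apply] using h⟩
  have hc : ∀ w w' x, b (eu w w' x) = eu w w' (b x) := fun w w' x => by
    have h : y (amp (List ℕ) (eu w w') (sg [] x)) = amp (List ℕ) (eu w w') (y (sg [] x)) :=
      DFunLike.congr_fun (h0 w w').eq (sg [] x)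
    rw [amp_sg, hb, hb, amp_sg] at h
    simpa using congrArg (ev []) h
  have hs : b = ev [] (b (sg [] 1)) • (1 : Op (Fk ℂ)) := ext_sg fun w x => by
    have h := hc w [] (sg [] x)
    rw [eu_apply, eu_apply, ev_sg_self, centre_sg_smul [] x, map_smul, map_smul] at h
    rw [h, ContinuousLinearMap.smul_apply, ContinuousLinearMap.one_apply, ← map_smul (sg w) _ x,
      smul_eq_mul, smul_eq_mul, mul_comm]
  refine ⟨ev [] (b (sg [] 1)), sub_eq_zero.1 (eq_zero_of_vac (fun j => ?_) fun x => ?_)⟩
  · exact (h1 j).sub_left ((Commute.one_left _).smul_left _)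
  · rw [ContinuousLinearMap.sub_apply, hb, ContinuousLinearMap.smul_apply,
      ContinuousLinearMap.one_apply, ← map_smul, sub_eq_zero]
    exact congrArg _ (DFunLike.congr_fun hs x)

end

end Crest.Agent.R78F
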