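import Crest.Agent.R78F.RelV

/-!
# Row 78 (S0104, S0105): norm estimates for the similarity `V`
-/

set_option autoImplicit false
set_option linter.unusedSectionVars false

open Finset

namespace Crest.Agent.R78F

noncomputable section

variable {A : Type*} [CStarAlgebra A]

/-! ### Neumann series -/

theorem isUnit_of_norm_sub_one_lt {x : A} (h : ‖x - 1‖ < 1) : IsUnit x := by
  have := (Units.oneSub (1 - x) (by rwa [norm_sub_rev])).isUnit
  rwa [Units.val_oneSub, sub_sub_cancel] at this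

theorem norm_inverse_sub_one_le' {x : A} (h : IsUnit x) :
    ‖Ring.inverse x - 1‖ ≤ ‖x - 1‖ * ‖Ring.inverse x‖ := by
  rw [norm_sub_rev]
  refine le_trans (le_of_eq ?_) (norm_mul_le _ _)
  rw [sub_mul, Ring.mul_inverse_cancel _ h, one_mul]

theorem norm_le_of_sub_one {x : A} {κ : ℝ} (h : ‖x - 1‖ ≤ κ) : ‖x‖ ≤ 1 + κ := by
  have := norm_add_le (1 : A) (x - 1)
  rw [add_sub_cancel] at this
  linarith [norm_one_le' (A := A)]

theorem norm_two_mul_le (x : A) : ‖2 * x‖ ≤ 2 * ‖x‖ := by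
  rw [two_mul, two_mul]; exact norm_add_le _ _

theorem norm_mul_le_of {x y : A} {a b : ℝ} (hx : ‖x‖ ≤ a) (hy : ‖y‖ ≤ b) : ‖x * y‖ ≤ a * b :=
  (norm_mul_le _ _).trans (mul_le_mul hx hy (norm_nonneg _) ((norm_nonneg _).trans hx))

/-- From `x⁻¹ = 1 - (x - 1) x⁻¹`. -/
theorem norm_inverse_le {x : A} {κ : ℝ} (h : ‖x - 1‖ ≤ κ) (hκ : κ < 1) :
    ‖Ring.inverse x‖ ≤ (1 - κ)⁻¹ := by
  have h1 := norm_le_of_sub_one ((norm_inverse_sub_one_le'
    (isUnit_of_norm_sub_one_lt (h.trans_lt hκ))).trans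
    (mul_le_mul_of_nonneg_right h (norm_nonneg _)))
  rw [← one_div, le_div_iff₀ (by linarith)]
  linarith

theorem norm_inverse_sub_one_le {x : A} {κ : ℝ} (h : ‖x - 1‖ ≤ κ) (hκ : κ < 1) :
    ‖Ring.inverse x - 1‖ ≤ κ * (1 - κ)⁻¹ := by
  exact (norm_inverse_sub_one_le' (isUnit_of_norm_sub_one_lt (h.trans_lt hκ))).trans
    (mul_le_mul h (norm_inverse_le h hκ) (norm_nonneg _) ((norm_nonneg _).trans h))

/-! ### Defects of intertwining -/

theorem dev_nonneg (J a' a : A) : 0 ≤ dev J a' a := norm_nonneg _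

theorem dev_of_commute {J a : A} (h : Commute J a) : dev J a a = 0 := by
  rw [dev, h.eq, sub_self, norm_zero]

theorem dev_add (J a' a b' b : A) : dev J (a' + b') (a + b) ≤ dev J a' a + dev J b' b := by
  refine le_trans (le_of_eq ?_) (norm_add_le _ _)
  rw [dev]; congr 1; noncomm_ring

theorem dev_sub (J a' a b' b : A) : dev J (a' - b') (a - b) ≤ dev J a' a + dev J b' b := by
  refine le_trans (le_of_eq ?_) (norm_sub_le _ _)
  rw [dev]; congr 1; noncomm_ring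

theorem dev_neg (J a' a : A) : dev J (-a') (-a) = dev J a' a := by
  rw [dev, dev, ← norm_neg]; congr 1; noncomm_ring

theorem dev_smul (c : ℂ) (J a' a : A) : dev J (c • a') (c • a) = ‖c‖ * dev J a' a := by
  rw [dev, dev, smul_mul_assoc, mul_smul_comm, ← smul_sub, norm_smul]

theorem dev_mul (J a' a b' b : A) :
    dev J (a' * b') (a * b) ≤ ‖a'‖ * dev J b' b + dev J a' a * ‖b‖ := by
  refine le_trans (le_of_eq ?_) ((norm_add_le _ _).trans
    (add_le_add (norm_mul_le a' (b' * J - J * b)) (norm_mul_le (a' * J - J * a) b)))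
  rw [dev]; congr 1; noncomm_ring

theorem dev_inverse (J : A) {a' a : A} (ha' : IsUnit a') (ha : IsUnit a) :
    dev J (Ring.inverse a') (Ring.inverse a) ≤
      ‖Ring.inverse a'‖ * dev J a' a * ‖Ring.inverse a‖ := by
  refine le_trans (le_of_eq ?_) ((norm_mul_le _ _).trans
    (mul_le_mul_of_nonneg_right (norm_mul_le _ _) (norm_nonneg _)))
  rw [dev, norm_sub_rev, mul_sub, sub_mul, ← mul_assoc, Ring.inverse_mul_cancel _ ha', one_mul,
    mul_assoc, mul_assoc, Ring.mul_inverse_cancel _ ha, mul_one]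

theorem dev_star (J a' a : A) : dev (star J) (star a) (star a') = dev J a' a := by
  rw [dev, dev, ← star_mul, ← star_mul, ← star_sub, norm_star, norm_sub_rev]

theorem dev_one (J : A) : dev J 1 1 = 0 := dev_of_commute (Commute.one_right J)

theorem dev_two_mul (J a' a : A) : dev J (2 * a') (2 * a) ≤ 2 * dev J a' a := by
  rw [two_mul, two_mul, two_mul]; exact dev_add _ _ _ _ _

theorem dev_mul_le {J a' a b' b : A} {α β x y : ℝ} (h1 : ‖a'‖ ≤ α) (h2 : ‖b‖ ≤ β)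
    (h3 : dev J a' a ≤ x) (h4 : dev J b' b ≤ y) : dev J (a' * b') (a * b) ≤ α * y + x * β :=
  (dev_mul _ _ _ _ _).trans (add_le_add
    (mul_le_mul h1 h4 (dev_nonneg _ _ _) ((norm_nonneg _).trans h1))
    (mul_le_mul h3 h2 (norm_nonneg _) ((dev_nonneg _ _ _).trans h3)))

theorem dev_inverse_le {J a' a : A} {α β x : ℝ} (ha' : IsUnit a') (ha : IsUnit a)
    (h1 : ‖Ring.inverse a'‖ ≤ α) (h2 : ‖Ring.inverse a‖ ≤ β) (h3 : dev J a' a ≤ x) :
    dev J (Ring.inverse a') (Ring.inverse a) ≤ α * x * β := by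
  have h4 := (norm_nonneg _).trans h1
  exact (dev_inverse J ha' ha).trans (mul_le_mul (mul_le_mul h1 h3 (dev_nonneg _ _ _) h4) h2
    (norm_nonneg _) (mul_nonneg h4 ((dev_nonneg _ _ _).trans h3)))

/-! ### The Cayley transform -/

theorem Sm.norm_hh_le {t : A} (ht : Sm t) : ‖hh t‖ ≤ 1.01 := by
  refine (norm_inverse_le (κ := 1 / 20 * (1 / 20)) ?_ (by norm_num)).trans (by norm_num)
  rw [add_sub_cancel_left]
  exact norm_mul_le_of ht.le ht.le

theorem Sm.norm_ss_le {t : A} (ht : Sm t) : ‖ss t‖ ≤ 2.02 * ‖t‖ := by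
  have := norm_mul_le_of (le_refl ‖t‖) ht.norm_hh_le
  linarith [norm_two_mul_le (t * hh t), show ‖ss t‖ = ‖2 * (t * hh t)‖ from rfl]

theorem Sm.norm_hh_sub_one_le {t : A} (ht : Sm t) : ‖hh t - 1‖ ≤ ‖t‖ * ‖t‖ * 1.01 := by
  refine (norm_inverse_sub_one_le' ht.isUnit).trans (mul_le_mul ?_ ht.norm_hh_le (norm_nonneg _)
    (by positivity))
  rw [add_sub_cancel_left]
  exact norm_mul_le _ _

theorem Sm.norm_cc_sub_one_le {t : A} (ht : Sm t) : ‖cc t - 1‖ ≤ 0.11 * ‖t‖ := by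
  have e : cc t - 1 = 2 * (hh t - 1) := by rw [cc]; noncomm_ring
  rw [e]
  nlinarith [norm_two_mul_le (hh t - 1), ht.norm_hh_sub_one_le, ht.le, norm_nonneg t]

theorem Sm.norm_ss_sub_le {t : A} (ht : Sm t) : ‖ss t - 2 * t‖ ≤ 3 * ‖t‖ ^ 3 := by
  have e : ss t - 2 * t = 2 * (t * (hh t - 1)) := by rw [ss]; noncomm_ring
  rw [e]
  nlinarith [norm_two_mul_le (t * (hh t - 1)), norm_mul_le_of (le_refl ‖t‖) ht.norm_hh_sub_one_le,
    pow_nonneg (norm_nonneg t) 3]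

theorem dev_hh (J : A) {t' t : A} (ht' : Sm t') (ht : Sm t) :
    dev J (hh t') (hh t) ≤ 0.11 * dev J t' t := by
  have h1 := (dev_add J 1 1 _ _).trans (add_le_add (dev_one J).le
    (dev_mul_le ht'.le ht.le (le_refl (dev J t' t)) (le_refl (dev J t' t))))
  have h2 := dev_inverse_le ht'.isUnit ht.isUnit ht'.norm_hh_le ht.norm_hh_le h1
  refine h2.trans ?_
  linarith [dev_nonneg J t' t]

theorem dev_ss (J : A) {t' t : A} (ht' : Sm t') (ht : Sm t) :
    dev J (ss t') (ss t) ≤ 3 * dev J t' t := by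
  have h1 := dev_mul_le ht'.le ht.norm_hh_le (le_refl (dev J t' t)) (dev_hh J ht' ht)
  refine (dev_two_mul _ _ _).trans ?_
  linarith [dev_nonneg J t' t]

theorem dev_cc (J : A) {t' t : A} (ht' : Sm t') (ht : Sm t) :
    dev J (cc t') (cc t) ≤ dev J t' t := by
  refine (dev_sub _ _ _ _ _).trans ?_
  linarith [dev_nonneg J t' t, dev_two_mul J (hh t') (hh t), dev_one J, dev_hh J ht' ht]

namespace Two

variable (D : Two A) {t t' J : A}

theorem norm_sT_le (ht : Sm t) (n : ℕ) : ‖1 - ss t * star (D.T n) - 1‖ ≤ 2.02 * ‖t‖ := by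
  rw [sub_sub_cancel_left, norm_neg]
  simpa using norm_mul_le_of ht.norm_ss_le ((norm_star _).trans_le (D.norm_T_le n))

theorem isUnit_B (ht : Sm t) (n : ℕ) : IsUnit (1 - ss t * star (D.T n)) := by
  exact isUnit_of_norm_sub_one_lt ((D.norm_sT_le ht n).trans_lt (by linarith [ht.le]))

theorem norm_B_le (ht : Sm t) (n : ℕ) : ‖D.Bo n t‖ ≤ 1.12 :=
  (norm_inverse_le (κ := 0.101) ((D.norm_sT_le ht n).trans (by linarith [ht.le]))
    (by norm_num)).trans (by norm_num)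

theorem norm_C_sub_one_le (ht : Sm t) : ‖D.Co t - 1‖ ≤ 0.22 * ‖t‖ := by
  have e : D.Co t - 1 = (cc t - 1) - (cc t - 1) * D.S.P := by rw [Co]; noncomm_ring
  rw [e]
  linarith [norm_sub_le (cc t - 1) ((cc t - 1) * D.S.P), ht.norm_cc_sub_one_le,
    norm_mul_le_of ht.norm_cc_sub_one_le (norm_le_one_of_proj D.S.Pstar D.S.PP)]

theorem norm_C_le (ht : Sm t) : ‖D.Co t‖ ≤ 1.02 :=
  (norm_le_of_sub_one (D.norm_C_sub_one_le ht)).trans (by linarith [ht.le])

theorem norm_V_sub_one_le (ht : Sm t) (n : ℕ) : ‖D.V n t - 1‖ ≤ 8 * ‖t‖ := by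
  have e : D.V n t - 1 = -(ss t * D.T n) + ((cc t - 1) * (D.Co t * D.Bo n t) +
      ((D.Co t - 1) * D.Bo n t + (D.Bo n t - 1))) := by rw [V]; noncomm_ring
  have h1 := norm_mul_le_of ht.norm_ss_le (D.norm_T_le n)
  have h2 := norm_mul_le_of ht.norm_cc_sub_one_le (norm_mul_le_of (D.norm_C_le ht) (D.norm_B_le ht n))
  have h3 := norm_mul_le_of (D.norm_C_sub_one_le ht) (D.norm_B_le ht n)
  have h4 : ‖D.Bo n t - 1‖ ≤ 2.02 * ‖t‖ * 1.12 :=
    (norm_inverse_sub_one_le' (D.isUnit_B ht n)).trans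
      (mul_le_mul (D.norm_sT_le ht n) (D.norm_B_le ht n) (norm_nonneg _) (by positivity))
  rw [e]
  refine ((norm_add_le _ _).trans (add_le_add ((norm_neg _).trans_le h1) ((norm_add_le _ _).trans
    (add_le_add h2 ((norm_add_le _ _).trans (add_le_add h3 h4)))))).trans ?_
  linarith [norm_nonneg t]

theorem isUnit_V (ht : Sm t) (n : ℕ) : IsUnit (D.V n t) := by
  exact isUnit_of_norm_sub_one_lt ((D.norm_V_sub_one_le ht n).trans_lt (by linarith [ht.le]))

theorem V_mul_Vi (ht : Sm t) (n : ℕ) : D.V n t * D.Vi n t = 1 :=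
  Ring.mul_inverse_cancel _ (D.isUnit_V ht n)

theorem Vi_mul_V (ht : Sm t) (n : ℕ) : D.Vi n t * D.V n t = 1 :=
  Ring.inverse_mul_cancel _ (D.isUnit_V ht n)

theorem norm_V_le (ht : Sm t) (n : ℕ) : ‖D.V n t‖ ≤ 2 := by
  exact (norm_le_of_sub_one (D.norm_V_sub_one_le ht n)).trans (by linarith [ht.le])

theorem norm_Vi_le (ht : Sm t) (n : ℕ) : ‖D.Vi n t‖ ≤ 2 := by
  exact (norm_inverse_le (κ := 1 / 2) ((D.norm_V_sub_one_le ht n).trans (by linarith [ht.le]))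
    (by norm_num)).trans (by norm_num)

theorem norm_Vi_sub_one_le (ht : Sm t) (n : ℕ) : ‖D.Vi n t - 1‖ ≤ 16 * ‖t‖ := by
  refine ((norm_inverse_sub_one_le' (D.isUnit_V ht n)).trans
    (mul_le_mul (D.norm_V_sub_one_le ht n) (D.norm_Vi_le ht n) (norm_nonneg _)
      (by positivity))).trans ?_
  linarith

theorem dev_V (hJ : D.Cm J) (ht' : Sm t') (ht : Sm t) (n : ℕ) :
    dev J (D.V n t') (D.V n t) ≤ 25 * dev J t' t := by
  have h0 := dev_nonneg J t' t
  have hT := D.norm_T_le n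
  have hs : ‖ss t'‖ ≤ 1 := ht'.norm_ss_le.trans (by linarith [ht'.le])
  have hc : ‖cc t'‖ ≤ 1.01 :=
    (norm_le_of_sub_one ht'.norm_cc_sub_one_le).trans (by linarith [ht'.le])
  have h1 := dev_mul_le hs hT (dev_ss J ht' ht) (dev_of_commute (hJ.T n)).le
  have h2 := (dev_sub J 1 1 _ _).trans (add_le_add (dev_one J).le
    (dev_mul_le hs ((norm_star _).trans_le hT) (dev_ss J ht' ht) (dev_of_commute (hJ.star_T n)).le))
  have h3 : dev J (D.Bo n t') (D.Bo n t) ≤ _ :=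
    dev_inverse_le (D.isUnit_B ht' n) (D.isUnit_B ht n) (D.norm_B_le ht' n) (D.norm_B_le ht n) h2
  have h4 : dev J (D.Co t') (D.Co t) ≤ _ := (dev_add J _ _ _ _).trans (add_le_add (dev_cc J ht' ht)
    (dev_mul_le (le_refl ‖1 - cc t'‖) (norm_le_one_of_proj D.S.Pstar D.S.PP)
      ((dev_sub J 1 1 _ _).trans (add_le_add (dev_one J).le (dev_cc J ht' ht)))
      (dev_of_commute hJ.1.P).le))
  have h5 := dev_mul_le hc (norm_mul_le_of (D.norm_C_le ht) (D.norm_B_le ht n)) (dev_cc J ht' ht)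
    (dev_mul_le (D.norm_C_le ht') (D.norm_B_le ht n) h4 h3)
  refine ((dev_add J _ _ _ _).trans (add_le_add ((dev_neg J _ _).trans_le h1) h5)).trans ?_
  linarith

theorem dev_Vi (hJ : D.Cm J) (ht' : Sm t') (ht : Sm t) (n : ℕ) :
    dev J (D.Vi n t') (D.Vi n t) ≤ 100 * dev J t' t := by
  refine (dev_inverse_le (D.isUnit_V ht' n) (D.isUnit_V ht n) (D.norm_Vi_le ht' n)
    (D.norm_Vi_le ht n) (D.dev_V hJ ht' ht n)).trans ?_
  linarith

/-- `V σ_j = X_j V`. -/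
theorem V_mul_σ (ht : Sm t) (hc : D.Cm t) {n j : ℕ} (hj : j < n) :
    D.V n t * D.σ j = D.X t j * D.V n t := by
  rw [σ, Sys.σ, X, mul_add, add_mul, D.V_mul_l ht hc (D.isUnit_B ht n) hj,
    D.V_mul_star_l ht hc (D.isUnit_B ht n) hj]

theorem X_eq (ht : Sm t) (hc : D.Cm t) {n j : ℕ} (hj : j < n) :
    D.X t j = D.V n t * D.σ j * D.Vi n t := by
  rw [D.V_mul_σ ht hc hj, mul_assoc, D.V_mul_Vi ht n, mul_one]

theorem σ_eq (ht : Sm t) (hc : D.Cm t) {n j : ℕ} (hj : j < n) :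
    D.σ j = D.Vi n t * D.X t j * D.V n t := by
  rw [mul_assoc, ← D.V_mul_σ ht hc hj, ← mul_assoc, D.Vi_mul_V ht n, one_mul]

end Two

end

end Crest.Agent.R78F
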