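import Crest.Agent.R78F.Seq
import Crest.Agent.R78F.Centre
import Crest.Agent.R78F.Est

/-!
# Row 78 (S0105): the two algebras
-/

set_option autoImplicit false
set_option linter.unusedSectionVars false

open Finset

namespace Crest.Agent.R78F

noncomputable section

/-- The inner Fock space. -/
abbrev H1 := Fk ℂ

/-- The double Fock space. -/
abbrev H0 := Fk (Fk ℂ)

/-- A scalar parameter. -/
def tt (τ : ℝ) : Op H0 := (τ : ℂ) • 1

/-- Generators of the common algebra of blocks. -/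
def genD (τ : ℝ) : Set (Op H0) :=
  Set.range (two ℂ).σ ∪ Set.range ((two ℂ).X (tt τ)) ∪
    Set.range (fun p : List ℕ × List ℕ => amp (List ℕ) (eu p.1 p.2 : Op H1)) ∪
    Set.range (fock H1).σ

/-- The common algebra of blocks. -/
def DD (τ : ℝ) : StarSubalgebra ℂ (Op H0) := StarAlgebra.adjoin ℂ (genD τ)

/-- The algebra of the undeformed semicirculars. -/
def S0 (n : ℕ) : StarSubalgebra ℂ (Op H0) := StarAlgebra.adjoin ℂ ((two ℂ).σ '' Set.Iio n)

/-- The algebra of the deformed semicirculars. -/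
def S1 (τ : ℝ) (n : ℕ) : StarSubalgebra ℂ (Op H0) :=
  StarAlgebra.adjoin ℂ ((two ℂ).X (tt τ) '' Set.Iio n)

variable {τ : ℝ} {n : ℕ}

theorem Conc_two_σ (j : ℕ) : (two ℂ).σ j = amp (List ℕ) ((fock ℂ).σ j) := by
  rw [Sys.σ, map_add, map_star]
  rfl

theorem Conc_conj {A : Type*} [NormedRing A] (a x b : A) :
    ‖x - a * x * b‖ ≤ (‖a - 1‖ + ‖a‖ * ‖b - 1‖) * ‖x‖ := by
  have e : a * x * b - x = (a - 1) * x + a * x * (b - 1) := by noncomm_ring
  rw [norm_sub_rev, e]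
  have h1 := norm_mul_le (a - 1) x
  have h2 : ‖a * x * (b - 1)‖ ≤ ‖a‖ * ‖x‖ * ‖b - 1‖ :=
    (norm_mul_le _ _).trans (mul_le_mul_of_nonneg_right (norm_mul_le _ _) (norm_nonneg _))
  refine (norm_add_le _ _).trans ?_
  linarith

theorem norm_tt (τ : ℝ) : ‖tt τ‖ = |τ| := by
  rw [tt, norm_smul, norm_one, mul_one, Complex.norm_real, Real.norm_eq_abs]

theorem sm_tt (h0 : 0 < τ) (h1 : τ ≤ 1 / 20) : Sm (tt τ) := by
  refine ⟨?_, ?_⟩
  · rw [tt, star_smul, star_one, Complex.star_def, Complex.conj_ofReal]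
  · rw [norm_tt, abs_of_pos h0]; exact h1

theorem cm_tt (τ : ℝ) : (two ℂ).Cm (tt τ) := (Two.Cm.one _).smul _

theorem countable_genD (τ : ℝ) : (genD τ).Countable := by
  exact (((Set.countable_range _).union (Set.countable_range _)).union
    (Set.countable_range _)).union (Set.countable_range _)

theorem S0_le (τ : ℝ) (n : ℕ) : S0 n ≤ DD τ := by
  refine StarAlgebra.adjoin_mono ?_
  rintro _ ⟨j, -, rfl⟩
  exact Or.inl (Or.inl (Or.inl ⟨j, rfl⟩))

theorem S1_le (τ : ℝ) (n : ℕ) : S1 τ n ≤ DD τ := by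
  refine StarAlgebra.adjoin_mono ?_
  rintro _ ⟨j, -, rfl⟩
  exact Or.inl (Or.inl (Or.inr ⟨j, rfl⟩))

theorem commute_d_DD (h0 : 0 < τ) (h1 : τ ≤ 1 / 20) (i : ℕ) {x : Op H0} (hx : x ∈ DD τ) :
    Commute ((two ℂ).d i) x := by
  induction hx using StarAlgebra.adjoin_induction with
  | mem x hx =>
    rcases hx with ((⟨j, rfl⟩ | ⟨j, rfl⟩) | ⟨p, rfl⟩) | ⟨j, rfl⟩
    · exact ((two ℂ).commute_σ_d j i).symm
    · exact ((two ℂ).commute_X_d (sm_tt h0 h1) (cm_tt τ) j i).symm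
    · exact ((fock_cm_amp _).d i).symm
    · exact ((fock H1).commute_σ_d j i).symm
  | algebraMap c => exact (Algebra.commutes c _).symm
  | add x y _ _ hx hy => exact hx.add_right hy
  | mul x y _ _ hx hy => exact hx.mul_right hy
  | star x _ hx =>
    have := hx.star_star
    rwa [Two.star_d] at this

theorem exists_amp_of_mem_S0 {x : Op H0} (hx : x ∈ S0 n) : ∃ b : Op H1, x = amp (List ℕ) b := by
  induction hx using StarAlgebra.adjoin_induction with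
  | mem x hx =>
    obtain ⟨j, -, rfl⟩ := hx
    exact ⟨(fock ℂ).σ j, Conc_two_σ j⟩
  | algebraMap c => exact ⟨algebraMap ℂ _ c, (AlgHomClass.commutes _ c).symm⟩
  | add x y _ _ hx hy =>
    obtain ⟨a, rfl⟩ := hx
    obtain ⟨b, rfl⟩ := hy
    exact ⟨a + b, (map_add _ _ _).symm⟩
  | mul x y _ _ hx hy =>
    obtain ⟨a, rfl⟩ := hx
    obtain ⟨b, rfl⟩ := hy
    exact ⟨a * b, (map_mul _ _ _).symm⟩
  | star x _ hx =>
    obtain ⟨a, rfl⟩ := hx
    exact ⟨star a, (map_star _ _).symm⟩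

/-- `x' = V x V⁻¹`. -/
theorem close_S0 (h0 : 0 < τ) (h1 : τ ≤ 1 / 20) (n : ℕ) :
    ∀ x ∈ S0 n, ∃ x' ∈ S1 τ n, ‖x - x'‖ ≤ 40 * τ * ‖x‖ := by
  intro x hx
  have ht := sm_tt h0 h1
  refine ⟨(two ℂ).V n (tt τ) * x * (two ℂ).Vi n (tt τ), conj_mem_adjoin ?_ ((two ℂ).V_mul_Vi ht n)
    ((two ℂ).Vi_mul_V ht n) ?_ hx, (Conc_conj _ _ _).trans ?_⟩
  · rintro _ ⟨j, -, rfl⟩
    exact (two ℂ).star_σ j
  · rintro _ ⟨j, hj, rfl⟩
    exact ⟨j, hj, (two ℂ).X_eq ht (cm_tt τ) hj⟩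
  · have a1 := (two ℂ).norm_V_sub_one_le ht n
    have a2 := (two ℂ).norm_V_le ht n
    have a3 := (two ℂ).norm_Vi_sub_one_le ht n
    rw [norm_tt, abs_of_pos h0] at a1 a3
    have a4 := mul_le_mul a2 a3 (norm_nonneg _) zero_le_two
    exact mul_le_mul_of_nonneg_right (by linarith) (norm_nonneg _)

/-- `x' = V⁻¹ x V`. -/
theorem close_S1 (h0 : 0 < τ) (h1 : τ ≤ 1 / 20) (n : ℕ) :
    ∀ x ∈ S1 τ n, ∃ x' ∈ S0 n, ‖x - x'‖ ≤ 40 * τ * ‖x‖ := by
  intro x hx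
  have ht := sm_tt h0 h1
  refine ⟨(two ℂ).Vi n (tt τ) * x * (two ℂ).V n (tt τ), conj_mem_adjoin ?_ ((two ℂ).Vi_mul_V ht n)
    ((two ℂ).V_mul_Vi ht n) ?_ hx, (Conc_conj _ _ _).trans ?_⟩
  · rintro _ ⟨j, -, rfl⟩
    exact (two ℂ).star_X _ j
  · rintro _ ⟨j, hj, rfl⟩
    exact ⟨j, hj, (two ℂ).σ_eq ht (cm_tt τ) hj⟩
  · have a1 := (two ℂ).norm_V_sub_one_le ht n
    have a2 := (two ℂ).norm_Vi_le ht n
    have a3 := (two ℂ).norm_Vi_sub_one_le ht n
    rw [norm_tt, abs_of_pos h0] at a1 a3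
    have a4 := mul_le_mul a2 a1 (norm_nonneg _) zero_le_two
    exact mul_le_mul_of_nonneg_right (by linarith) (norm_nonneg _)

/-- `‖ss t * E‖ ≥ 2 τ - 3 τ³ ≥ τ` since `E` is a nonzero projection. -/
theorem lower_bound (h0 : 0 < τ) (h1 : τ ≤ 1 / 20) (n : ℕ) :
    n * τ - 4 * √n ≤ ‖∑ j ∈ range n, (two ℂ).X (tt τ) j * (two ℂ).d j‖ := by
  have ht := sm_tt h0 h1
  have a1 := (two ℂ).norm_sum_X_d ht (cm_tt τ) n
  have a2 := ht.norm_ss_sub_le
  rw [norm_tt, abs_of_pos h0] at a2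
  have a3 : 1 ≤ ‖(two ℂ).E‖ := by
    have b1 : (two ℂ).E (vac2 (1 : ℂ)) = vac2 (1 : ℂ) := by rw [two_E_apply, covac2_vac2]
    have b2 : ‖(vac2 (1 : ℂ) : H0)‖ = 1 := by
      change ‖(sg [] (sg [] (1 : ℂ) : H1) : H0)‖ = 1
      rw [norm_sg_apply, norm_sg_apply, norm_one]
    have b3 := (two ℂ).E.le_opNorm (vac2 (1 : ℂ))
    rwa [b1, b2, mul_one] at b3
  have a4 : ‖2 * tt τ * (two ℂ).E‖ = 2 * τ * ‖(two ℂ).E‖ := by
    have : 2 * tt τ * (two ℂ).E = ((2 * τ : ℝ) : ℂ) • (two ℂ).E := by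
      rw [tt, two_mul, ← add_smul, smul_mul_assoc, one_mul, two_mul, Complex.ofReal_add]
    rw [this, norm_smul, Complex.norm_real, Real.norm_eq_abs, abs_of_pos (by positivity)]
  have a5 : ‖(ss (tt τ) - 2 * tt τ) * (two ℂ).E‖ ≤ 3 * τ ^ 3 * 1 :=
    (norm_mul_le _ _).trans (mul_le_mul a2 (two ℂ).norm_E_le (norm_nonneg _) (by positivity))
  have a6 : τ ≤ ‖ss (tt τ) * (two ℂ).E‖ := by
    have b1 := norm_sub_norm_le (2 * tt τ * (two ℂ).E) (ss (tt τ) * (two ℂ).E)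
    rw [norm_sub_rev, ← sub_mul, a4] at b1
    have b2 : τ ^ 2 ≤ (1 / 20) ^ 2 := by gcongr
    nlinarith
  have a7 := norm_sub_norm_le ((n : ℂ) • (ss (tt τ) * (two ℂ).E))
    (∑ j ∈ range n, (two ℂ).X (tt τ) j * (two ℂ).d j)
  rw [norm_sub_rev, norm_smul, Complex.norm_natCast] at a7
  have a8 := mul_le_mul_of_nonneg_left a6 (Nat.cast_nonneg (α := ℝ) n)
  linarith

/-- An element of `A ∩ A'` has scalar blocks. -/
theorem blk_scalar (h0 : 0 < τ) (h1 : τ ≤ 1 / 20) {S : StarSubalgebra ℂ (Op H0)}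
    {y : Op (L2 ℕ H0)} (hy : y ∈ AA (DD τ) S) (hy' : ∀ a ∈ AA (DD τ) S, Commute y a) :
    ∃ c : ℕ → ℂ, Blk y (fun m => c m • (1 : Op H0)) := by
  obtain ⟨e, he, hc⟩ := blk_of_commute hy'
  have key : ∀ m, ∃ c : ℂ, e m = c • (1 : Op H0) := fun m => by
    refine scalar_of_commute (fun w w' => hc m _ ?_) (fun j => hc m _ ?_) fun j => ?_
    · exact StarAlgebra.subset_adjoin ℂ _ (Or.inl (Or.inr ⟨(w, w'), rfl⟩))
    · exact StarAlgebra.subset_adjoin ℂ _ (Or.inr ⟨j, rfl⟩)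
    · have h := commute_of_blk (blk_amp (ι := ℕ) ((two ℂ).d j))
        (fun _ x hx => commute_d_DD h0 h1 j hx) hy
      exact he.commute_blk (blk_amp _) h.symm m
  choose c hc using key
  exact ⟨c, he.congr hc⟩

/-- Pigeonhole: for each `m` at most one `k` has `c k m ≠ 0`. -/
theorem exists_far {y : ℕ → Op (L2 ℕ H0)} {c : ℕ → ℕ → ℂ}
    (hy : ∀ k, Blk (y k) (fun m => c k m • (1 : Op H0)))
    (ho : ∀ k k', k ≠ k' → y k * y k' = 0) (M : ℕ) : ∃ k, ∀ m < M, c k m = 0 := by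
  have h1 : ∀ m, {k | c k m ≠ 0}.Subsingleton := fun m k hk k' hk' => by
    by_contra hne
    have h2 := ((hy k).mul (hy k')).norm_blk_le m
    rw [ho k k' hne, norm_zero, Pi.mul_apply, smul_mul_smul_comm, one_mul, norm_smul, norm_one,
      mul_one, norm_le_zero_iff, mul_eq_zero] at h2
    exact h2.elim hk hk'
  have h2 : (⋃ m ∈ Set.Iio M, {k | c k m ≠ 0}).Finite :=
    (Set.finite_Iio M).biUnion fun m _ => (h1 m).finite
  obtain ⟨k, hk⟩ := h2.exists_notMem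
  refine ⟨k, fun m hm => ?_⟩
  by_contra h
  exact hk (Set.mem_biUnion hm h)

/-- What commutes with `AA (DD τ) S` commutes with all `1 ⊗ 1 ⊗ b`. -/
theorem commute_amp_amp {S : StarSubalgebra ℂ (Op H0)} {v : Op (L2 ℕ H0)}
    (hv : ∀ a ∈ AA (DD τ) S, Commute v a) (b : Op H1) :
    Commute v (amp ℕ (amp (List ℕ) b)) := by
  obtain ⟨e, he, hc⟩ := blk_of_commute hv
  refine commute_of_commute_eu ((amp ℕ).comp (amp (List ℕ))) (fun ξ h => amp_amp_nondeg ξ h)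
    (fun w w' => ?_) b
  have h : ∀ m, Commute (e m) (amp (List ℕ) (eu w w' : Op H1)) := fun m =>
    hc m _ (StarAlgebra.subset_adjoin ℂ _ (Or.inl (Or.inr ⟨(w, w'), rfl⟩)))
  exact (he.mul (blk_amp _)).unique (((blk_amp _).mul he).congr fun m => (h m).eq.symm)

/-- The abstract upper bound. -/
theorem upper_bound {A : Type*} [CStarAlgebra A] {y : A} {a v p R : ℕ → A} {κ : ℝ} {n : ℕ}
    (hy : ‖y‖ ≤ 1) (hv : ∀ j < n, ‖v j‖ ≤ 2) (h1 : ∀ j < n, ‖y * a j - y * p j‖ ≤ κ)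
    (h2 : ∀ j < n, ‖p j - (R j + star (R j))‖ ≤ κ) (hR : Row n R)
    (hc : ∀ j < n, Commute (v j) (star (R j))) :
    ‖y * ∑ j ∈ range n, a j * v j‖ ≤ 4 * n * κ + 4 * √n := by
  have e : y * ∑ j ∈ range n, a j * v j = ∑ j ∈ range n, (y * a j - y * p j) * v j +
      y * (∑ j ∈ range n, (p j - (R j + star (R j))) * v j +
        (∑ j ∈ range n, R j * v j + ∑ j ∈ range n, v j * star (R j))) := by
    rw [← sum_add_distrib, ← sum_add_distrib, mul_sum, mul_sum, ← sum_add_distrib]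
    refine sum_congr rfl fun j hj => ?_
    rw [(hc j (mem_range.1 hj)).eq]
    noncomm_ring
  have key : ∀ u : ℕ → A, (∀ j < n, ‖u j‖ ≤ κ) → ‖∑ j ∈ range n, u j * v j‖ ≤ n * (κ * 2) := by
    intro u hu
    refine (norm_sum_le _ _).trans ?_
    have := sum_le_card_nsmul (range n) (fun j => ‖u j * v j‖) (κ * 2) fun j hj =>
      (norm_mul_le _ _).trans (mul_le_mul (hu j (mem_range.1 hj)) (hv j (mem_range.1 hj))
        (norm_nonneg _) ((norm_nonneg _).trans (hu j (mem_range.1 hj))))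
    rwa [card_range, nsmul_eq_mul] at this
  have b1 := key _ h1
  have b2 := key _ h2
  have b3 := hR.norm_sum_le zero_le_two hv
  have b4 := hR.norm_sum_star_le zero_le_two hv
  rw [e]
  refine (norm_add_le _ _).trans ?_
  have b5 := (norm_mul_le _ _).trans (mul_le_of_le_one_left (norm_nonneg
    (∑ j ∈ range n, (p j - (R j + star (R j))) * v j +
        (∑ j ∈ range n, R j * v j + ∑ j ∈ range n, v j * star (R j)))) hy)
  have b6 := b5.trans ((norm_add_le _ _).trans (add_le_add b2 ((norm_add_le _ _).trans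
    (add_le_add b3 b4))))
  linarith

end

end Crest.Agent.R78F
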