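import Crest.Agent.R78F.Lp
import Crest.Agent.R78F.Sys

/-!
# Row 78 (S0104, S0105): full Fock space with coefficients
-/

set_option autoImplicit false
set_option linter.unusedSectionVars false

open ContinuousLinearMap

namespace Crest.Agent.R78F

noncomputable section

/-- Full Fock space over `ℓ²(ℕ)` with coefficients in `K`. -/
abbrev Fk (K : Type*) [NormedAddCommGroup K] := L2 (List ℕ) K

variable {K : Type*} [NormedAddCommGroup K] [InnerProductSpace ℂ K] [CompleteSpace K]

theorem cons_inj (j : ℕ) : Function.Injective (fun w : List ℕ => j :: w) :=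
  fun _ _ h => (List.cons.inj h).2

theorem snoc_inj (j : ℕ) : Function.Injective (fun w : List ℕ => w ++ [j]) :=
  fun _ _ h => List.append_cancel_right h

variable (K) in
/-- Left creation. -/
def lcr (j : ℕ) : Op (Fk K) := star (pb fun w => j :: w)

variable (K) in
/-- Right creation. -/
def rcr (j : ℕ) : Op (Fk K) := star (pb fun w => w ++ [j])

theorem ev_star_lcr (j : ℕ) (w : List ℕ) (ξ : Fk K) : ev w (star (lcr K j) ξ) = ev (j :: w) ξ := by
  rw [lcr, star_star, ev_pb (cons_inj j)]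

theorem ev_star_rcr (j : ℕ) (w : List ℕ) (ξ : Fk K) :
    ev w (star (rcr K j) ξ) = ev (w ++ [j]) ξ := by
  rw [rcr, star_star, ev_pb (snoc_inj j)]

theorem ev_nil_lcr (j : ℕ) (ξ : Fk K) : ev [] (lcr K j ξ) = 0 :=
  ev_star_pb_of_not_mem (cons_inj j) (fun _ => List.cons_ne_nil _ _) ξ

theorem ev_nil_rcr (j : ℕ) (ξ : Fk K) : ev [] (rcr K j ξ) = 0 :=
  ev_star_pb_of_not_mem (snoc_inj j) (fun _ => by simp) ξ

theorem ev_cons_lcr (j k : ℕ) (w : List ℕ) (ξ : Fk K) :
    ev (k :: w) (lcr K j ξ) = if k = j then ev w ξ else 0 := by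
  by_cases h : k = j
  · subst h; rw [if_pos rfl]; exact ev_star_pb_self (cons_inj k) w ξ
  · rw [if_neg h]
    exact ev_star_pb_of_not_mem (cons_inj j) (fun _ h' => h (List.cons.inj h').1.symm) ξ

theorem lcr_sg (j : ℕ) (w : List ℕ) (x : K) : lcr K j (sg w x) = sg (j :: w) x :=
  star_pb_sg (cons_inj j) w x

theorem rcr_sg (j : ℕ) (w : List ℕ) (x : K) : rcr K j (sg w x) = sg (w ++ [j]) x :=
  star_pb_sg (snoc_inj j) w x

theorem star_lcr_sg_nil (j : ℕ) (x : K) : star (lcr K j) (sg [] x) = 0 :=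
  ev_ext fun w => by rw [ev_star_lcr, ev_sg_ne (List.cons_ne_nil _ _), map_zero]

theorem star_lcr_sg_cons (j k : ℕ) (w : List ℕ) (x : K) :
    star (lcr K j) (sg (k :: w) x) = if j = k then sg w x else 0 :=
  ev_ext fun w' => by
    rw [ev_star_lcr, ev_sg]
    by_cases h : j = k
    · subst h; simp [ev_sg]
    · simp [h]

variable (K) in
/-- The creation operators on the full Fock space. -/
def fock : Sys (Op (Fk K)) where
  l := lcr K
  r := rcr K
  P := eu [] []
  ll i j := by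
    rw [lcr, lcr, star_star]
    split_ifs with h
    · subst h; exact pb_mul_star_pb (cons_inj i)
    · exact pb_mul_star_pb_of_ne (cons_inj i) (cons_inj j)
        fun _ _ h' => h (List.cons.inj h').1.symm
  rr i j := by
    rw [rcr, rcr, star_star]
    split_ifs with h
    · subst h; exact pb_mul_star_pb (snoc_inj i)
    · exact pb_mul_star_pb_of_ne (snoc_inj i) (snoc_inj j)
        fun _ _ h' => h (by simpa using (List.append_inj' h' rfl).2.symm)
  lr i j := ext_sg fun w x => by simp [lcr_sg, rcr_sg]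
  rl i j := ext_ev fun w ξ => by
    cases w with
    | nil =>
      by_cases h : i = j
      · simp [ev_star_rcr, ev_cons_lcr, ev_nil_lcr, h, eu_apply]
      · simp [ev_star_rcr, ev_cons_lcr, ev_nil_lcr, h]
    | cons k w =>
      by_cases h : i = j
      · simp [ev_star_rcr, ev_cons_lcr, h, eu_apply, ev_sg_ne]
      · simp [ev_star_rcr, ev_cons_lcr, h]
  Pl j := ContinuousLinearMap.ext fun ξ => by simp [eu_apply, ev_nil_lcr]
  Pr j := ContinuousLinearMap.ext fun ξ => by simp [eu_apply, ev_nil_rcr]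
  Prl j := ContinuousLinearMap.ext fun ξ => by simp [eu_apply, ev_star_lcr, ev_star_rcr]
  Pstar := star_eu _ _
  PP := by simp [eu_mul_eu]

theorem fock_cm_amp (a : Op K) : (fock K).Cm (amp (List ℕ) a) where
  l _ := commute_amp_star_pb a _
  ls j := by
    change Commute _ (star (lcr K j)); rw [lcr, star_star]; exact commute_amp_pb a _
  r _ := commute_amp_star_pb a _
  rs j := by
    change Commute _ (star (rcr K j)); rw [rcr, star_star]; exact commute_amp_pb a _
  P := commute_amp_eu a _ _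

theorem map_ind_fock (S : Sys (Op K)) : (S.map (amp (List ℕ))).Ind (fock K) :=
  ⟨fun _ => fock_cm_amp _, fun _ => fock_cm_amp _, fock_cm_amp _⟩

variable (K) in
/-- Two commuting systems on `F(F(K))`: the inner one (amplified) and the outer one. -/
def two : Two (Op (Fk (Fk K))) := ⟨(fock K).map (amp (List ℕ)), fock (Fk K), map_ind_fock _⟩

/-- Double amplification. -/
def amp2 : Op K →⋆ₐ[ℂ] Op (Fk (Fk K)) := (amp (List ℕ)).comp (amp (List ℕ))

theorem amp2_apply (a : Op K) : amp2 a = amp (List ℕ) (amp (List ℕ) a) := rfl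

theorem two_cm_amp2 (a : Op K) : (two K).Cm (amp2 a) :=
  ⟨(fock_cm_amp a).map _, fock_cm_amp _⟩

theorem map_ind_two (D : Two (Op K)) : (D.map amp2).Ind (two K) :=
  ⟨⟨fun _ => (two_cm_amp2 _).1, fun _ => (two_cm_amp2 _).1, (two_cm_amp2 _).1⟩,
    ⟨fun _ => (two_cm_amp2 _).2, fun _ => (two_cm_amp2 _).2, (two_cm_amp2 _).2⟩,
    ⟨fun _ => (two_cm_amp2 _).1, fun _ => (two_cm_amp2 _).1, (two_cm_amp2 _).1⟩,
    ⟨fun _ => (two_cm_amp2 _).2, fun _ => (two_cm_amp2 _).2, (two_cm_amp2 _).2⟩⟩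

/-- The inclusion `x ↦ Ω ⊗ Ω ⊗ x`. -/
def vac2 : K →L[ℂ] Fk (Fk K) := sg [] ∘L sg []

/-- The adjoint of `vac2`. -/
def covac2 : Fk (Fk K) →L[ℂ] K := ev [] ∘L ev []

theorem covac2_vac2 (x : K) : covac2 (vac2 x) = x := by simp [covac2, vac2]

theorem two_E_apply (ξ : Fk (Fk K)) : (two K).E ξ = vac2 (covac2 ξ) := by
  change amp (List ℕ) (eu [] []) (eu [] [] ξ) = _
  simp [eu_apply, vac2, covac2]

theorem covac2_amp2 (a : Op K) (ξ : Fk (Fk K)) : covac2 (amp2 a ξ) = a (covac2 ξ) := by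
  simp [covac2, amp2_apply]

theorem amp2_vac2 (a : Op K) (x : K) : amp2 a (vac2 x) = vac2 (a x) := by
  simp [vac2, amp2_apply]

/-- Four commuting Fock systems with a parameter space `K`. -/
theorem exists_four (K : Type) [NormedAddCommGroup K] [InnerProductSpace ℂ K] [CompleteSpace K]
    [TopologicalSpace.SeparableSpace K] :
    ∃ (H : Type) (_ : NormedAddCommGroup H) (_ : InnerProductSpace ℂ H) (_ : CompleteSpace H)
      (_ : TopologicalSpace.SeparableSpace H) (D D' : Two (Op H)) (π : Op K →⋆ₐ[ℂ] Op H)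
      (ι : K →L[ℂ] H) (ε : H →L[ℂ] K),
      D.Ind D' ∧ (∀ a, D.Cm (π a)) ∧ (∀ a, D'.Cm (π a)) ∧ (∀ ξ, (D.E * D'.E) ξ = ι (ε ξ)) ∧
        (∀ x, ε (ι x) = x) ∧ (∀ a ξ, ε (π a ξ) = a (ε ξ)) := by
  refine ⟨Fk (Fk (Fk (Fk K))), inferInstance, inferInstance, inferInstance, inferInstance,
    (two K).map amp2, two (Fk (Fk K)), amp2.comp amp2, vac2 ∘L vac2, covac2 ∘L covac2,
    map_ind_two _, fun a => (two_cm_amp2 a).map amp2, fun a => two_cm_amp2 _, fun ξ => ?_,
    fun x => ?_, fun a ξ => ?_⟩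
  · have h1 : ((two K).map amp2).E = amp2 (two K).E := by
      rw [Two.E, Two.E, map_mul]; rfl
    change ((two K).map amp2).E ((two (Fk (Fk K))).E ξ) = _
    rw [h1, two_E_apply, amp2_vac2, two_E_apply]; rfl
  · simp [covac2_vac2]
  · change covac2 (covac2 (amp2 (amp2 a) ξ)) = a (covac2 (covac2 ξ))
    rw [covac2_amp2, covac2_amp2]

end

end Crest.Agent.R78F
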