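import Crest.Agent.R78F.Lp

/-!
# Row 78 (S0104): the index obstruction for normal operators
-/

set_option autoImplicit false
set_option linter.unusedSectionVars false

open scoped InnerProductSpace Topology
open Filter

namespace Crest.Agent.R78F

noncomputable section

variable {H : Type*} [NormedAddCommGroup H] [InnerProductSpace ℂ H] [CompleteSpace H]

/-- A normal operator that is bounded below is invertible (its adjoint has the same lower bound,
so the closed range is dense). -/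
theorem isUnit_of_normal_of_le {W : Op H} (hW : IsStarNormal W) {c : ℝ} (hc : 0 < c)
    (h : ∀ ξ, c * ‖ξ‖ ≤ ‖W ξ‖) : IsUnit W := by
  rw [ContinuousLinearMap.isUnit_iff_bijective,
    ContinuousLinearMap.bijective_iff_dense_range_and_antilipschitz,
    Submodule.topologicalClosure_eq_top_iff, ContinuousLinearMap.IsStarNormal.orthogonal_range hW]
  refine ⟨LinearMap.ker_eq_bot'.2 fun ξ (hξ : W ξ = 0) => ?_,
    antilipschitzWith_iff_exists_mul_le_norm.2 ⟨c, hc, h⟩⟩
  have h1 := h ξ
  rw [hξ, norm_zero] at h1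
  exact norm_le_zero_iff.1 (nonpos_of_mul_nonpos_right h1 hc)

/-- Fredholm alternative (`IsCompactOperator.hasEigenvalue_or_mem_resolventSet`). -/
theorem surjective_one_add {F : Op H} (hF : IsCompactOperator F)
    (h : Function.Injective (1 + F : Op H)) : Function.Surjective (1 + F : Op H) := by
  rcases hF.hasEigenvalue_or_mem_resolventSet (μ := -1) (by norm_num) with h1 | h1
  · obtain ⟨v, hv⟩ := h1.exists_hasEigenvector
    have h2 : F v = (-1 : ℂ) • v := hv.apply_eq_smul
    exact absurd (h (by simp [h2] : (1 + F : Op H) v = (1 + F : Op H) 0)) hv.2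
  · have h2 : IsUnit (1 + F : Op H) := by
      have h3 := (spectrum.mem_resolventSet_iff.1 h1).neg
      rwa [map_neg, map_one, neg_sub, sub_neg_eq_add, add_comm] at h3
    exact (ContinuousLinearMap.isUnit_iff_bijective.1 h2).2

theorem idx_lim {W G F : Op H} (h : W * G = 1 + F) (hF : IsCompactOperator (star F : Op H))
    {ξ : ℕ → H} (h1 : ∀ k, ‖ξ k‖ = 1) (h2 : Tendsto (fun k => (star W) (ξ k)) atTop (𝓝 0)) :
    ∃ (ζ : H) (φ : ℕ → ℕ), StrictMono φ ∧ ‖ζ‖ = 1 ∧ Tendsto (fun k => ξ (φ k)) atTop (𝓝 ζ) := by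
  obtain ⟨η, -, φ, hφ, h3⟩ := (IsCompactOperator.isCompact_closure_image_closedBall
    (f := (star F : Op H).toLinearMap) hF 1).tendsto_subseq (x := fun k => (star F) (ξ k))
    fun k => subset_closure ⟨ξ k, by simp [h1], rfl⟩
  have e : ∀ v, (star G) ((star W) v) - (star F) v = v := fun v => by
    have h4 := congrArg (fun T : Op H => (star T) v) h
    simp only [star_mul, star_add, star_one] at h4
    exact sub_eq_of_eq_add h4
  have h4 := ((((star G).continuous.tendsto 0).comp h2).comp hφ.tendsto_atTop).sub h3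
  simp only [Function.comp_def, e] at h4
  exact ⟨_, φ, hφ, tendsto_nhds_unique h4.norm (by simp [h1]), h4⟩

/-- A normal non-invertible operator with a right parametrix has a kernel: approximate
eigenvectors `ξ k` of `W⋆` satisfy `ξ k + F⋆ ξ k → 0`. -/
theorem exists_ker_of_not_isUnit {W G F : Op H} (hW : IsStarNormal W) (hu : ¬ IsUnit W)
    (h : W * G = 1 + F) (hF : IsCompactOperator (star F : Op H)) :
    ∃ ξ : H, ‖ξ‖ = 1 ∧ (star W) ξ = 0 := by
  have h1 : ∀ k : ℕ, ∃ ξ : H, ‖ξ‖ = 1 ∧ ‖(star W) ξ‖ ≤ 1 / ((k : ℝ) + 1) := fun k => by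
    by_contra! h2
    refine hu (isUnit_of_normal_of_le hW (c := 1 / ((k : ℝ) + 1)) (by positivity) fun ξ => ?_)
    rcases eq_or_ne ξ 0 with rfl | h0
    · simp
    have h3 := norm_pos_iff.2 h0
    have h4 := h2 (((‖ξ‖⁻¹ : ℝ) : ℂ) • ξ) (by simp [norm_smul, h0])
    rw [map_smul, norm_smul, Complex.norm_real, Real.norm_of_nonneg (by positivity),
      lt_inv_mul_iff₀' h3] at h4
    exact h4.le.trans_eq (ContinuousLinearMap.isStarNormal_iff_norm_eq_adjoint.1 hW ξ).symm
  choose ξ h2 h3 using h1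
  have h4 : Tendsto (fun k => (star W) (ξ k)) atTop (𝓝 0) :=
    squeeze_zero_norm h3 tendsto_one_div_add_atTop_nhds_zero_nat
  obtain ⟨ζ, φ, hφ, h5, h6⟩ := idx_lim h hF h2 h4
  exact ⟨ζ, h5, tendsto_nhds_unique (((star W).continuous.tendsto ζ).comp h6)
    (h4.comp hφ.tendsto_atTop)⟩

/-- Absorbing a small error into the parametrix: `G₁ = G (1 + R)⁻¹`, `F₁ = F (1 + R)⁻¹`. -/
theorem absorb {W G R F : Op H} (h : W * G = 1 + R + F) (hR : ‖R‖ < 1)
    (hF : IsCompactOperator F) (hF' : IsCompactOperator (star F : Op H))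
    (hi : Function.Injective G) (hs : ¬ Function.Surjective G) :
    ∃ G₁ F₁ : Op H, W * G₁ = 1 + F₁ ∧ IsCompactOperator F₁ ∧
      IsCompactOperator (star F₁ : Op H) ∧ Function.Injective G₁ ∧ ¬ Function.Surjective G₁ := by
  obtain ⟨u, hu⟩ := isUnit_one_sub_of_norm_lt_one (x := -R) (by rwa [norm_neg])
  rw [sub_neg_eq_add] at hu
  refine ⟨G * ↑u⁻¹, F * ↑u⁻¹, by rw [← mul_assoc, h, add_mul, ← hu, u.mul_inv], hF.comp_clm _, ?_,
    hi.comp (ContinuousLinearMap.isUnit_iff_bijective.1 u⁻¹.isUnit).1,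
    fun h1 => hs (Function.Surjective.of_comp (g := (↑u⁻¹ : Op H)) h1)⟩
  rw [star_mul]
  exact hF'.clm_comp (star (↑u⁻¹ : Op H))

/-- With such a parametrix `W` is not invertible. -/
theorem not_isUnit_of_parametrix {W G F : Op H} (h : W * G = 1 + F) (hF : IsCompactOperator F)
    (hi : Function.Injective G) (hs : ¬ Function.Surjective G) : ¬ IsUnit W := by
  intro hu
  have h1 := (ContinuousLinearMap.isUnit_iff_bijective.1 hu).1
  have h2 := surjective_one_add hF (h ▸ h1.comp hi)
  rw [← h] at h2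
  exact hs (Function.Surjective.of_comp_left h2 h1)

/-- A normal operator has index zero.  Proof: after `absorb`, every `W - μ` with `‖μ G‖ < 1` has a
parametrix of the same kind, so it is not invertible and there is a unit vector `ξ μ` with
`(W - μ)⋆ ξ μ = 0`; these vectors are orthonormal, and `F⋆ ξ μ = -ξ μ + conj μ • G⋆ ξ μ` stay
at distance `≥ 1` from each other for small `μ = μ₀ / (k + 1)`, against the compactness of `F⋆`. -/
theorem idx_false {W G R F : Op H} (hW : IsStarNormal W) (h : W * G = 1 + R + F) (hR : ‖R‖ < 1)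
    (hF : IsCompactOperator F) (hF' : IsCompactOperator (star F : Op H))
    (hi : Function.Injective G) (hs : ¬ Function.Surjective G) : False := by
  obtain ⟨G, F, h, hF, hF', hi, hs⟩ := absorb h hR hF hF' hi hs
  have key : ∀ μ : ℝ, |μ| * ‖G‖ < 1 →
      ∃ ξ : H, ‖ξ‖ = 1 ∧ (star W) ξ = (μ : ℂ) • ξ ∧ W ξ = (μ : ℂ) • ξ := fun μ hμ => by
    have e : star (W - (μ : ℂ) • 1) = star W - (μ : ℂ) • 1 := by
      rw [star_sub, star_smul, star_one, Complex.star_def, Complex.conj_ofReal]
    have hN : IsStarNormal (W - (μ : ℂ) • 1) := ⟨by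
      rw [e]
      exact (hW.star_comm_self.sub_right ((Commute.one_right _).smul_right _)).sub_left
        ((Commute.one_left _).smul_left _)⟩
    obtain ⟨G', F', h1, h2, h3, h4, h5⟩ := absorb (W := W - (μ : ℂ) • 1) (R := -((μ : ℂ) • G))
      (by rw [sub_mul, h, smul_mul_assoc, one_mul]; abel)
      (by rwa [norm_neg, norm_smul, Complex.norm_real]) hF hF' hi hs
    obtain ⟨ξ, h6, h7⟩ := exists_ker_of_not_isUnit hN (not_isUnit_of_parametrix h1 h2 h4 h5) h1 h3
    have h8 := (ContinuousLinearMap.IsStarNormal.adjoint_apply_eq_zero_iff hN ξ).1 h7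
    rw [e] at h7
    exact ⟨ξ, h6, sub_eq_zero.1 h7, sub_eq_zero.1 h8⟩
  have h1 : ∀ k : ℕ, |(‖G‖ + 1)⁻¹ / ((k : ℝ) + 1)| * ‖G‖ < 1 := fun k => by
    rw [abs_of_nonneg (by positivity), div_mul_eq_mul_div, div_lt_one (by positivity),
      inv_mul_lt_iff₀ (by positivity)]
    nlinarith [norm_nonneg G, (k.cast_nonneg : (0 : ℝ) ≤ k)]
  choose ξ h2 h3 h4 using fun k => key _ (h1 k)
  obtain ⟨ζ, φ, hφ, h5, h6⟩ := idx_lim h hF' h2 (squeeze_zero_norm (fun k => by
    rw [h3, norm_smul, h2, mul_one, Complex.norm_real, Real.norm_of_nonneg (by positivity),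
      div_eq_mul_one_div]) (by
      simpa using tendsto_one_div_add_atTop_nhds_zero_nat.const_mul (‖G‖ + 1)⁻¹))
  have h7 : ∀ j k, j ≠ k → ⟪ξ j, ξ k⟫_ℂ = 0 := fun j k hjk => by
    have h8 : ⟪(star W) (ξ j), ξ k⟫_ℂ = ⟪ξ j, W (ξ k)⟫_ℂ :=
      ContinuousLinearMap.adjoint_inner_left W _ _
    rw [h3, h4, inner_smul_left, inner_smul_right, Complex.conj_ofReal, mul_eq_mul_right_iff,
      Complex.ofReal_inj, div_eq_mul_inv, div_eq_mul_inv, mul_right_inj' (by positivity)] at h8
    exact h8.resolve_left (by simpa using hjk)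
  have h8 := tendsto_nhds_unique (h6.inner (𝕜 := ℂ) (h6.comp (tendsto_add_atTop_nat 1)))
    (tendsto_const_nhds.congr fun k => (h7 _ _ (hφ k.lt_succ_self).ne).symm)
  rw [inner_self_eq_zero.1 h8, norm_zero] at h5
  exact zero_ne_one h5

end

end Crest.Agent.R78F
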