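import Mathlib
import Crest.Agent.Lib.Banach.LpTwo

/-!
# Row 78 (S0104, S0105): operators on `ℓ²(ι; K)`

`L2 ι K` is `ℓ²(ι; K)`; coordinates are read with `ev i`, `sg i` is the inclusion of the `i`-th
summand, `pb f` is the pull-back `ξ ↦ ξ ∘ f` along an injective map, `diag d` is a block diagonal
operator and `amp` is the amplification `a ↦ 1 ⊗ a`.
-/

set_option autoImplicit false
set_option linter.unusedSectionVars false

open scoped InnerProductSpace ENNReal
open ContinuousLinearMap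

namespace Crest.Agent.R78F

noncomputable section

/-- Bounded operators. -/
abbrev Op (H : Type*) [NormedAddCommGroup H] [InnerProductSpace ℂ H] := H →L[ℂ] H

/-- `ℓ²(ι; K)`. -/
def L2 (ι K : Type*) [NormedAddCommGroup K] : Type _ := lp (fun _ : ι => K) 2

variable {ι K : Type*} [NormedAddCommGroup K] [InnerProductSpace ℂ K]

instance : NormedAddCommGroup (L2 ι K) :=
  inferInstanceAs (NormedAddCommGroup (lp (fun _ : ι => K) 2))

instance : InnerProductSpace ℂ (L2 ι K) :=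
  inferInstanceAs (InnerProductSpace ℂ (lp (fun _ : ι => K) 2))

instance [CompleteSpace K] : CompleteSpace (L2 ι K) :=
  inferInstanceAs (CompleteSpace (lp (fun _ : ι => K) 2))

instance [Countable ι] [TopologicalSpace.SeparableSpace K] :
    TopologicalSpace.SeparableSpace (L2 ι K) :=
  letI : NormedSpace ℝ K := NormedSpace.restrictScalars ℝ ℂ K
  Crest.Agent.Lib.Banach.separableSpace_lp (X := fun _ : ι => K)

/-- The `i`-th coordinate. -/
def ev (i : ι) : L2 ι K →L[ℂ] K := lp.evalCLM ℂ (fun _ : ι => K) 2 i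

theorem ev_ext {ξ η : L2 ι K} (h : ∀ i, ev i ξ = ev i η) : ξ = η :=
  lp.ext (funext h)

theorem ext_ev {E : Type*} [NormedAddCommGroup E] [NormedSpace ℂ E] {S T : E →L[ℂ] L2 ι K}
    (h : ∀ i x, ev i (S x) = ev i (T x)) : S = T :=
  ContinuousLinearMap.ext fun x => ev_ext fun i => h i x

theorem hasSum_norm_sq (ξ : L2 ι K) : HasSum (fun i => ‖ev i ξ‖ ^ 2) (‖ξ‖ ^ 2) :=
  Crest.Agent.Lib.Banach.hasSum_norm_sq (X := fun _ : ι => K) ξ

theorem sum_norm_sq_le (ξ : L2 ι K) (s : Finset ι) : ∑ i ∈ s, ‖ev i ξ‖ ^ 2 ≤ ‖ξ‖ ^ 2 :=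
  Crest.Agent.Lib.Banach.sum_norm_sq_le (X := fun _ : ι => K) ξ s

theorem hasSum_inner (ξ η : L2 ι K) : HasSum (fun i => ⟪ev i ξ, ev i η⟫_ℂ) ⟪ξ, η⟫_ℂ :=
  lp.hasSum_inner (𝕜 := ℂ) (G := fun _ : ι => K) ξ η

theorem norm_ev_apply_le (i : ι) (ξ : L2 ι K) : ‖ev i ξ‖ ≤ ‖ξ‖ :=
  lp.norm_apply_le_norm (E := fun _ : ι => K) (by norm_num) ξ i

theorem norm_ev_le (i : ι) : ‖(ev i : L2 ι K →L[ℂ] K)‖ ≤ 1 :=
  opNorm_le_bound _ zero_le_one fun ξ => by simpa using norm_ev_apply_le i ξ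

theorem norm_le_of_sum_le {ξ : L2 ι K} {C : ℝ} (hC : 0 ≤ C)
    (h : ∀ s : Finset ι, ∑ i ∈ s, ‖ev i ξ‖ ^ 2 ≤ C ^ 2) : ‖ξ‖ ≤ C :=
  abs_le_of_sq_le_sq' (hasSum_le_of_sum_le (hasSum_norm_sq ξ) h) hC |>.2

/-- A vector with prescribed coordinates. -/
def mkVec (f : ι → K) (C : ℝ) (h : ∀ s : Finset ι, ∑ i ∈ s, ‖f i‖ ^ 2 ≤ C) : L2 ι K :=
  (⟨f, Crest.Agent.Lib.Banach.memℓp_two_of_sum_le (X := fun _ : ι => K) h⟩ :
    lp (fun _ : ι => K) 2)

@[simp] theorem ev_mkVec (f : ι → K) (C : ℝ) (h : ∀ s : Finset ι, ∑ i ∈ s, ‖f i‖ ^ 2 ≤ C)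
    (i : ι) : ev i (mkVec f C h) = f i := rfl

/-- An operator with prescribed coordinates. -/
def mkOp {E : Type*} [NormedAddCommGroup E] [NormedSpace ℂ E] (g : ι → E →L[ℂ] K) (C : ℝ)
    (hC : 0 ≤ C) (h : ∀ x (s : Finset ι), ∑ i ∈ s, ‖g i x‖ ^ 2 ≤ (C * ‖x‖) ^ 2) :
    E →L[ℂ] L2 ι K :=
  LinearMap.mkContinuous
    { toFun := fun x => mkVec (fun i => g i x) _ (h x)
      map_add' := fun x y => ev_ext fun i => by simp
      map_smul' := fun c x => ev_ext fun i => by simp } C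
    fun x => norm_le_of_sum_le (by positivity) (h x)

@[simp] theorem ev_mkOp {E : Type*} [NormedAddCommGroup E] [NormedSpace ℂ E]
    (g : ι → E →L[ℂ] K) (C : ℝ)
    (hC : 0 ≤ C) (h : ∀ x (s : Finset ι), ∑ i ∈ s, ‖g i x‖ ^ 2 ≤ (C * ‖x‖) ^ 2) (i : ι) (x : E) :
    ev i (mkOp g C hC h x) = g i x := rfl

section sg

variable [DecidableEq ι]

/-- The inclusion of the `i`-th summand. -/
def sg (i : ι) : K →L[ℂ] L2 ι K := lp.singleContinuousLinearMap ℂ (fun _ : ι => K) 2 i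

theorem ev_sg (i j : ι) (x : K) : ev i (sg j x : L2 ι K) = if i = j then x else 0 := by
  change (lp.single (E := fun _ : ι => K) 2 j x) i = _
  by_cases h : i = j
  · subst h; simp
  · rw [lp.single_apply_ne _ _ _ h, if_neg h]

@[simp] theorem ev_sg_self (i : ι) (x : K) : ev i (sg i x : L2 ι K) = x := by simp [ev_sg]

theorem ev_sg_ne {i j : ι} (h : i ≠ j) (x : K) : ev i (sg j x : L2 ι K) = 0 := by simp [ev_sg, h]

@[simp] theorem norm_sg_apply (i : ι) (x : K) : ‖(sg i x : L2 ι K)‖ = ‖x‖ :=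
  lp.norm_single (E := fun _ : ι => K) (by norm_num) i x

theorem norm_sg_le (i : ι) : ‖(sg i : K →L[ℂ] L2 ι K)‖ ≤ 1 :=
  opNorm_le_bound _ zero_le_one fun x => by simp

theorem inner_sg_left (i : ι) (x : K) (ξ : L2 ι K) : ⟪(sg i x : L2 ι K), ξ⟫_ℂ = ⟪x, ev i ξ⟫_ℂ :=
  lp.inner_single_left (𝕜 := ℂ) (G := fun _ : ι => K) i x ξ

theorem inner_sg_right (i : ι) (x : K) (ξ : L2 ι K) : ⟪ξ, (sg i x : L2 ι K)⟫_ℂ = ⟪ev i ξ, x⟫_ℂ :=
  lp.inner_single_right (𝕜 := ℂ) (G := fun _ : ι => K) i x ξ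

theorem hasSum_sg (ξ : L2 ι K) : HasSum (fun i => (sg i (ev i ξ) : L2 ι K)) ξ :=
  lp.hasSum_single (E := fun _ : ι => K) (by simp) ξ

theorem ext_sg {E : Type*} [NormedAddCommGroup E] [NormedSpace ℂ E] {S T : L2 ι K →L[ℂ] E}
    (h : ∀ i x, S (sg i x) = T (sg i x)) : S = T :=
  lp.ext_continuousLinearMap (E := fun _ : ι => K) (by simp) fun i =>
    ContinuousLinearMap.ext fun x => h i x

instance [Nonempty ι] [Nontrivial K] : Nontrivial (L2 ι K) := by
  obtain ⟨x, hx⟩ := exists_ne (0 : K)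
  obtain ⟨i⟩ := ‹Nonempty ι›
  refine nontrivial_of_ne (sg i x) 0 fun h => hx ?_
  simpa using congrArg (ev i) h

/-- Matrix units. -/
def eu (i j : ι) : Op (L2 ι K) := sg i ∘L ev j

theorem eu_apply (i j : ι) (ξ : L2 ι K) : eu i j ξ = sg i (ev j ξ) := rfl

theorem eu_mul_eu (i j k l : ι) :
    (eu i j : Op (L2 ι K)) * eu k l = if j = k then eu i l else 0 := by
  ext1 ξ
  by_cases h : j = k
  · subst h; simp [eu_apply]
  · simp [eu_apply, ev_sg_ne h, h]

theorem norm_eu_le (i j : ι) : ‖(eu i j : Op (L2 ι K))‖ ≤ 1 :=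
  opNorm_le_bound _ zero_le_one fun ξ => by simpa [eu_apply] using norm_ev_apply_le j ξ

variable [CompleteSpace K]

theorem adjoint_sg (i : ι) : adjoint (sg i : K →L[ℂ] L2 ι K) = ev i := by
  symm; rw [eq_adjoint_iff]; intro ξ x; exact (inner_sg_right i x ξ).symm

theorem adjoint_ev (i : ι) : adjoint (ev i : L2 ι K →L[ℂ] K) = sg i := by
  rw [← adjoint_sg, adjoint_adjoint]

theorem star_eu (i j : ι) : star (eu i j : Op (L2 ι K)) = eu j i := by
  rw [star_eq_adjoint, eu, adjoint_comp, adjoint_sg, adjoint_ev, eu]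

end sg

/-! ### Pull-backs -/

theorem sum_comp_le {f : ι → ι} (hf : Function.Injective f) (ξ : L2 ι K) (s : Finset ι) :
    ∑ i ∈ s, ‖ev (f i) ξ‖ ^ 2 ≤ (1 * ‖ξ‖) ^ 2 := by
  classical
  rw [one_mul, ← Finset.sum_image (f := fun j => ‖ev j ξ‖ ^ 2) (hf.injOn (s := s))]
  exact sum_norm_sq_le ξ _

open Classical in
/-- Pull-back along an injective map (zero if the map is not injective). -/
def pb (f : ι → ι) : Op (L2 ι K) :=
  if hf : Function.Injective f then mkOp (fun i => ev (f i)) 1 zero_le_one (sum_comp_le hf) else 0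

theorem ev_pb {f : ι → ι} (hf : Function.Injective f) (i : ι) (ξ : L2 ι K) :
    ev i (pb f ξ) = ev (f i) ξ := by
  rw [pb, dif_pos hf]; rfl

theorem norm_pb_le (f : ι → ι) : ‖(pb f : Op (L2 ι K))‖ ≤ 1 := by
  by_cases hf : Function.Injective f
  · refine opNorm_le_bound _ zero_le_one fun ξ => norm_le_of_sum_le (by positivity) fun s => ?_
    simp only [ev_pb hf]
    exact sum_comp_le hf ξ s
  · rw [pb, dif_neg hf]; simp

section pb

variable [DecidableEq ι] [CompleteSpace K]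

theorem pb_sg_self {f : ι → ι} (hf : Function.Injective f) (i : ι) (x : K) :
    (pb f : Op (L2 ι K)) (sg (f i) x) = sg i x :=
  ev_ext fun j => by simp [ev_pb hf, ev_sg, hf.eq_iff]

theorem pb_sg_of_not_mem {f : ι → ι} (hf : Function.Injective f) {j : ι} (hj : ∀ i, f i ≠ j)
    (x : K) : (pb f : Op (L2 ι K)) (sg j x) = 0 :=
  ev_ext fun i => by simp [ev_pb hf, ev_sg, hj i]

theorem ev_star_pb_self {f : ι → ι} (hf : Function.Injective f) (i : ι) (ξ : L2 ι K) :
    ev (f i) ((star (pb f) : Op (L2 ι K)) ξ) = ev i ξ := by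
  refine ext_inner_left ℂ fun x => ?_
  rw [← inner_sg_left, star_eq_adjoint, adjoint_inner_right, pb_sg_self hf, inner_sg_left]

theorem ev_star_pb_of_not_mem {f : ι → ι} (hf : Function.Injective f) {j : ι}
    (hj : ∀ i, f i ≠ j) (ξ : L2 ι K) : ev j ((star (pb f) : Op (L2 ι K)) ξ) = 0 := by
  refine ext_inner_left ℂ fun x => ?_
  rw [← inner_sg_left, star_eq_adjoint, adjoint_inner_right, pb_sg_of_not_mem hf hj]
  simp

theorem star_pb_sg {f : ι → ι} (hf : Function.Injective f) (i : ι) (x : K) :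
    (star (pb f) : Op (L2 ι K)) (sg i x) = sg (f i) x := by
  refine ev_ext fun j => ?_
  by_cases hj : ∃ k, f k = j
  · obtain ⟨k, rfl⟩ := hj
    simp [ev_star_pb_self hf, ev_sg, hf.eq_iff]
  · push Not at hj
    rw [ev_star_pb_of_not_mem hf hj, ev_sg_ne (hj i).symm]

theorem pb_mul_star_pb {f : ι → ι} (hf : Function.Injective f) :
    (pb f : Op (L2 ι K)) * star (pb f) = 1 :=
  ext_ev fun i ξ => by simp [ev_pb hf, ev_star_pb_self hf]

theorem pb_mul_star_pb_of_ne {f g : ι → ι} (hf : Function.Injective f)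
    (hg : Function.Injective g) (h : ∀ i j, g j ≠ f i) :
    (pb f : Op (L2 ι K)) * star (pb g) = 0 :=
  ext_ev fun i ξ => by simp [ev_pb hf, ev_star_pb_of_not_mem hg (h i)]

theorem pb_mul_pb {f g : ι → ι} (hf : Function.Injective f) (hg : Function.Injective g) :
    (pb f : Op (L2 ι K)) * pb g = pb (g ∘ f) :=
  ext_ev fun i ξ => by simp [ev_pb hf, ev_pb hg, ev_pb (hg.comp hf)]

theorem star_pb_equiv (e : ι ≃ ι) : (star (pb e) : Op (L2 ι K)) = pb e.symm :=
  ext_ev fun i ξ => by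
    rw [ev_pb e.symm.injective, ← ev_star_pb_self e.injective (e.symm i), e.apply_symm_apply]

end pb

/-! ### Block diagonal operators -/

/-- `a` is block diagonal with blocks `d i`. -/
def Blk (a : Op (L2 ι K)) (d : ι → Op K) : Prop := ∀ i ξ, ev i (a ξ) = d i (ev i ξ)

theorem sum_diag_le {d : ι → Op K} {C : ℝ} (h : ∀ i, ‖d i‖ ≤ C) (ξ : L2 ι K) (s : Finset ι) :
    ∑ i ∈ s, ‖d i (ev i ξ)‖ ^ 2 ≤ (|C| * ‖ξ‖) ^ 2 := by
  calc ∑ i ∈ s, ‖d i (ev i ξ)‖ ^ 2 ≤ ∑ i ∈ s, C ^ 2 * ‖ev i ξ‖ ^ 2 := by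
        refine Finset.sum_le_sum fun i _ => ?_
        rw [← mul_pow]
        exact pow_le_pow_left₀ (norm_nonneg _) ((d i).le_of_opNorm_le (h i) _) 2
    _ ≤ C ^ 2 * ‖ξ‖ ^ 2 := by
        rw [← Finset.mul_sum]
        exact mul_le_mul_of_nonneg_left (sum_norm_sq_le ξ s) (sq_nonneg _)
    _ = _ := by rw [mul_pow, sq_abs]

open Classical in
/-- The block diagonal operator with bounded blocks `d i` (zero if they are not bounded). -/
def diag (d : ι → Op K) : Op (L2 ι K) :=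
  if h : ∃ C : ℝ, ∀ i, ‖d i‖ ≤ C then
    mkOp (fun i => d i ∘L ev i) |h.choose| (abs_nonneg _) (sum_diag_le h.choose_spec) else 0

theorem blk_diag {d : ι → Op K} {C : ℝ} (h : ∀ i, ‖d i‖ ≤ C) : Blk (diag d) d := by
  intro i ξ
  rw [diag, dif_pos ⟨C, h⟩]; rfl

namespace Blk

variable {a b : Op (L2 ι K)} {d e : ι → Op K}

theorem unique (ha : Blk a d) (hb : Blk b d) : a = b :=
  ext_ev fun i ξ => (ha i ξ).trans (hb i ξ).symm

theorem norm_le (ha : Blk a d) {C : ℝ} (hC : 0 ≤ C) (h : ∀ i, ‖d i‖ ≤ C) : ‖a‖ ≤ C := by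
  refine opNorm_le_bound _ hC fun ξ => norm_le_of_sum_le (by positivity) fun s => ?_
  simp only [ha _ ξ]
  simpa [abs_of_nonneg hC] using sum_diag_le h ξ s

theorem add (ha : Blk a d) (hb : Blk b e) : Blk (a + b) (d + e) := fun i ξ => by
  simp [ha i ξ, hb i ξ]

theorem sub (ha : Blk a d) (hb : Blk b e) : Blk (a - b) (d - e) := fun i ξ => by
  simp [ha i ξ, hb i ξ]

theorem mul (ha : Blk a d) (hb : Blk b e) : Blk (a * b) (d * e) := fun i ξ => by
  simp [ha i, hb i ξ]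

theorem smul (c : ℂ) (ha : Blk a d) : Blk (c • a) (c • d) := fun i ξ => by
  simp [ha i ξ]

theorem one : Blk (1 : Op (L2 ι K)) 1 := fun i ξ => by simp

theorem zero : Blk (0 : Op (L2 ι K)) 0 := fun i ξ => by simp

theorem congr (ha : Blk a d) (h : ∀ i, d i = e i) : Blk a e := fun i ξ => by rw [ha i ξ, h i]

theorem commute (ha : Blk a d) (hb : Blk b e) (h : ∀ i, Commute (d i) (e i)) : Commute a b :=
  (ha.mul hb).unique ((hb.mul ha).congr fun i => (h i).eq.symm)

variable [DecidableEq ι]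

theorem sg_apply (ha : Blk a d) (i : ι) (x : K) : a (sg i x) = sg i (d i x) :=
  ev_ext fun j => by
    rw [ha j]
    by_cases h : j = i
    · subst h; simp
    · simp [ev_sg_ne h]

theorem blk_eq (ha : Blk a d) (i : ι) : d i = ev i ∘L a ∘L sg i := by
  ext x; simp [ha.sg_apply]

theorem norm_blk_le (ha : Blk a d) (i : ι) : ‖d i‖ ≤ ‖a‖ :=
  opNorm_le_bound _ (norm_nonneg _) fun x => by
    have := a.le_opNorm (sg i x)
    rwa [ha.sg_apply, norm_sg_apply, norm_sg_apply] at this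

theorem commute_blk (ha : Blk a d) (hb : Blk b e) (h : Commute a b) (i : ι) :
    Commute (d i) (e i) := by
  have h1 := (ha.mul hb).blk_eq i
  have h2 := (hb.mul ha).blk_eq i
  rw [← h.eq] at h2
  exact h1.trans h2.symm

theorem star [CompleteSpace K] (ha : Blk a d) : Blk (star a) (star d) := fun i ξ => by
  refine ext_inner_left ℂ fun x => ?_
  rw [← inner_sg_left, star_eq_adjoint, adjoint_inner_right, ha.sg_apply, inner_sg_left,
    Pi.star_apply, star_eq_adjoint, adjoint_inner_right]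

end Blk

section amp

variable [DecidableEq ι]

theorem blk_eu (i : ι) : Blk (eu i i : Op (L2 ι K)) (fun k => if k = i then 1 else 0) :=
  fun k ξ => by
    by_cases h : k = i
    · subst h; simp [eu_apply]
    · simp [eu_apply, ev_sg_ne h, h]

theorem blk_of_commute_eu {a : Op (L2 ι K)} (h : ∀ i, Commute a (eu i i)) :
    Blk a (fun i => ev i ∘L a ∘L sg i) := fun i ξ => by
  have := congrArg (fun T : Op (L2 ι K) => ev i (T ξ)) (h i).eq
  simpa [eu_apply] using this.symm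

variable [CompleteSpace K]

theorem blk_diag_const (a : Op K) : Blk (diag (fun _ : ι => a)) (fun _ => a) :=
  blk_diag (C := ‖a‖) fun _ => le_rfl

variable (ι) in
/-- Amplification `a ↦ 1 ⊗ a`. -/
def amp : Op K →⋆ₐ[ℂ] Op (L2 ι K) where
  toFun a := diag fun _ => a
  map_one' := (blk_diag_const 1).unique Blk.one
  map_mul' a b := (blk_diag_const _).unique ((blk_diag_const a).mul (blk_diag_const b))
  map_zero' := (blk_diag_const 0).unique Blk.zero
  map_add' a b := (blk_diag_const _).unique ((blk_diag_const a).add (blk_diag_const b))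
  commutes' c := by
    rw [Algebra.algebraMap_eq_smul_one, Algebra.algebraMap_eq_smul_one]
    exact (blk_diag_const _).unique (Blk.one.smul c)
  map_star' a := (blk_diag_const _).unique (blk_diag_const a).star

theorem blk_amp (a : Op K) : Blk (amp ι a) (fun _ => a) := blk_diag_const a

@[simp] theorem ev_amp (a : Op K) (i : ι) (ξ : L2 ι K) : ev i (amp ι a ξ) = a (ev i ξ) :=
  blk_amp a i ξ

@[simp] theorem amp_sg (a : Op K) (i : ι) (x : K) : amp ι a (sg i x) = sg i (a x) :=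
  (blk_amp a).sg_apply i x

theorem norm_amp_le (a : Op K) : ‖amp ι a‖ ≤ ‖a‖ :=
  (blk_amp a).norm_le (norm_nonneg _) fun _ => le_rfl

theorem commute_amp_pb (a : Op K) (f : ι → ι) : Commute (amp ι a) (pb f) := by
  by_cases hf : Function.Injective f
  · exact ext_ev fun i ξ => by simp [ev_pb hf]
  · rw [pb, dif_neg hf]; exact Commute.zero_right _

theorem commute_amp_star_pb (a : Op K) (f : ι → ι) : Commute (amp ι a) (star (pb f)) := by
  have := (commute_amp_pb (star a) f).star_star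
  rwa [← map_star, star_star] at this

theorem commute_amp_eu (a : Op K) (i j : ι) : Commute (amp ι a) (eu i j) :=
  ext_ev fun k ξ => by simp [eu_apply]

end amp

end

end Crest.Agent.R78F
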