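import Crest.Agent.R78F.Est

/-!
# Row 78 (S0104): the near inclusion
-/

set_option autoImplicit false
set_option linter.unusedSectionVars false

namespace Crest.Agent.R78F

noncomputable section

variable {A : Type*} [CStarAlgebra A]

/-- Commutation is preserved by a similarity. -/
theorem commute_conj {a b v v' : A} (h1 : v * v' = 1) (h : Commute a b) :
    Commute (v' * a * v) (v' * b * v) := by
  have key : ∀ a b : A, v' * a * v * (v' * b * v) = v' * (a * b) * v := fun a b => by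
    calc v' * a * v * (v' * b * v) = v' * a * (v * v') * b * v := by simp only [mul_assoc]
      _ = v' * (a * b) * v := by rw [h1]; simp only [mul_assoc, one_mul]
  show _ * _ = _ * _
  rw [key, key, h.eq]

theorem near_conj_self {a v v' : A} (h1 : v' * v = 1) (h : Commute a v) : v' * a * v = a := by
  rw [mul_assoc, h.eq, ← mul_assoc, h1, one_mul]

theorem near_conj_cancel {a v v' : A} (h1 : v' * v = 1) : v' * (v * a * v') * v = a := by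
  calc v' * (v * a * v') * v = (v' * v) * a * (v' * v) := by simp only [mul_assoc]
    _ = a := by rw [h1, one_mul, mul_one]

/-- The algebraic half: with `V₁ = D.V n t₁`, `V₂ = D'.V n t₂`, `W₁ = D.V n T₁`, `W₂ = D'.V n T₂`,
`m = V₂⁻¹ x V₂` commutes with whatever commutes with `D.d j` and `D'.σ j` (so with `J`), and
`y = V₁ J⋆ W₁⁻¹ W₂ m W₂⁻¹ W₁ J V₁⁻¹` commutes with `D.X t₁ j` and `D'.d j`. -/
theorem near_alg {D D' : Two A} (hI : D.Ind D') {t₁ t₂ T₁ T₂ J : A}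
    (s₁ : Sm t₁) (s₂ : Sm t₂) (S₁ : Sm T₁) (S₂ : Sm T₂)
    (c₁ : D.Cm t₁) (c₁' : D'.Cm t₁) (c₂ : D.Cm t₂) (c₂' : D'.Cm t₂)
    (C₁ : D.Cm T₁) (C₁' : D'.Cm T₁) (C₂ : D.Cm T₂) (C₂' : D'.Cm T₂)
    (cJ : D.Cm J) (cJ' : D'.Cm J) (hT : Commute T₁ T₂) (n : ℕ) {x : A}
    (hx : ∀ g, (∀ j < n, Commute g (D.d j) ∧ Commute g (D'.X t₂ j)) → Commute g x) :
    Commute J (D'.Vi n t₂ * x * D'.V n t₂) ∧
      ∀ j < n,
        Commute ((D.V n t₁ * star J * D.Vi n T₁ * D'.V n T₂) * (D'.Vi n t₂ * x * D'.V n t₂) *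
          (D'.Vi n T₂ * D.V n T₁ * J * D.Vi n t₁)) (D.X t₁ j) ∧
        Commute ((D.V n t₁ * star J * D.Vi n T₁ * D'.V n T₂) * (D'.Vi n t₂ * x * D'.V n t₂) *
          (D'.Vi n T₂ * D.V n T₁ * J * D.Vi n t₁)) (D'.d j) := by
  have claim1 : ∀ g, (∀ j < n, Commute g (D.d j) ∧ Commute g (D'.σ j)) →
      Commute g (D'.Vi n t₂ * x * D'.V n t₂) := by
    intro g hg
    have h1 : Commute (D'.V n t₂ * g * D'.Vi n t₂) x := by
      refine hx _ fun j hj => ⟨?_, ?_⟩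
      · have := commute_conj (D'.Vi_mul_V s₂ n) (hg j hj).1
        rwa [near_conj_self (D'.V_mul_Vi s₂ n) ((hI.d j).Vi (c₂.d j).symm n)] at this
      · rw [D'.X_eq s₂ c₂' hj]
        exact commute_conj (D'.Vi_mul_V s₂ n) (hg j hj).2
    have := commute_conj (D'.V_mul_Vi s₂ n) h1
    rwa [near_conj_cancel (D'.Vi_mul_V s₂ n)] at this
  refine ⟨claim1 J fun j _ => ⟨cJ.d j, cJ'.σ j⟩, fun k hk => ?_⟩
  generalize D'.Vi n t₂ * x * D'.V n t₂ = m at claim1 ⊢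
  have claim2 : ∀ g, (∀ j < n, Commute g (D.d j) ∧ Commute g (D'.X T₂ j)) →
      Commute g (D'.V n T₂ * m * D'.Vi n T₂) := by
    intro g hg
    have h1 : Commute (D'.Vi n T₂ * g * D'.V n T₂) m := by
      refine claim1 _ fun j hj => ⟨?_, ?_⟩
      · have := commute_conj (D'.V_mul_Vi S₂ n) (hg j hj).1
        rwa [near_conj_self (D'.Vi_mul_V S₂ n) ((hI.d j).V (C₂.d j).symm n)] at this
      · rw [D'.σ_eq S₂ C₂' hj]
        exact commute_conj (D'.V_mul_Vi S₂ n) (hg j hj).2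
    have := commute_conj (D'.Vi_mul_V S₂ n) h1
    rwa [near_conj_cancel (D'.V_mul_Vi S₂ n)] at this
  have hX : Commute (D.X T₁ k) (D'.V n T₂ * m * D'.Vi n T₂) :=
    claim2 _ fun j _ => ⟨D.commute_X_d S₁ C₁ k j,
      (hI.X C₁' k).X S₂.sa (C₂.X S₁.sa hT.symm k).symm j⟩
  have hd : Commute (D'.d k) (D'.V n T₂ * m * D'.Vi n T₂) :=
    claim2 _ fun j _ => ⟨((hI.d j).d k).symm, (D'.commute_X_d S₂ C₂' j k).symm⟩
  have e : (D.V n t₁ * star J * D.Vi n T₁ * D'.V n T₂) * m *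
      (D'.Vi n T₂ * D.V n T₁ * J * D.Vi n t₁) =
      D.V n t₁ * (star J * (D.Vi n T₁ * (D'.V n T₂ * m * D'.Vi n T₂) * D.V n T₁) * J) *
        D.Vi n t₁ := by simp only [mul_assoc]
  rw [e]
  generalize D'.V n T₂ * m * D'.Vi n T₂ = m' at hX hd ⊢
  have hσ1 : Commute (D.σ k) (D.Vi n T₁ * m' * D.V n T₁) := by
    rw [D.σ_eq S₁ C₁ hk]
    exact commute_conj (D.V_mul_Vi S₁ n) hX
  have hd1 : Commute (D'.d k) (D.Vi n T₁ * m' * D.V n T₁) := by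
    have := commute_conj (D.V_mul_Vi S₁ n) hd
    rwa [near_conj_self (D.Vi_mul_V S₁ n) ((hI.symm.d k).V (C₁'.d k).symm n)] at this
  generalize D.Vi n T₁ * m' * D.V n T₁ = m'' at hσ1 hd1 ⊢
  have hσ2 : Commute (D.σ k) (star J * m'' * J) :=
    ((cJ.star.σ k).symm.mul_right hσ1).mul_right (cJ.σ k).symm
  have hd2 : Commute (D'.d k) (star J * m'' * J) :=
    ((cJ'.star.d k).symm.mul_right hd1).mul_right (cJ'.d k).symm
  refine ⟨?_, ?_⟩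
  · rw [D.X_eq s₁ c₁ hk]
    exact (commute_conj (D.Vi_mul_V s₁ n) hσ2).symm
  · have := commute_conj (D.Vi_mul_V s₁ n) hd2
    rw [near_conj_self (D.V_mul_Vi s₁ n) ((hI.symm.d k).Vi (c₁'.d k).symm n)] at this
    exact this.symm

theorem near_norm_mul_le {a b : A} {r s : ℝ} (ha : ‖a‖ ≤ r) (hb : ‖b‖ ≤ s) : ‖a * b‖ ≤ r * s :=
  (norm_mul_le a b).trans (mul_le_mul ha hb (norm_nonneg _) ((norm_nonneg _).trans ha))

/-- The near inclusion: `α = V₁ J⋆ W₁⁻¹ W₂ ≈ V₂ J⋆` and `β = W₂⁻¹ W₁ J V₁⁻¹ ≈ J V₂⁻¹` up to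
`500 η`, and `x = V₂ J⋆ m J V₂⁻¹`. -/
theorem near_incl {D D' : Two A} (hI : D.Ind D') {t₁ t₂ T₁ T₂ J : A}
    (s₁ : Sm t₁) (s₂ : Sm t₂) (S₁ : Sm T₁) (S₂ : Sm T₂)
    (c₁ : D.Cm t₁) (c₁' : D'.Cm t₁) (c₂ : D.Cm t₂) (c₂' : D'.Cm t₂)
    (C₁ : D.Cm T₁) (C₁' : D'.Cm T₁) (C₂ : D.Cm T₂) (C₂' : D'.Cm T₂)
    (cJ : D.Cm J) (cJ' : D'.Cm J) (hT : Commute T₁ T₂) (hJ : star J * J = 1) {η : ℝ}
    (h₁ : dev J T₁ t₁ ≤ η) (h₂ : dev J T₂ t₂ ≤ η) (n : ℕ) {x : A}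
    (hx : ∀ g, (∀ j < n, Commute g (D.d j) ∧ Commute g (D'.X t₂ j)) → Commute g x)
    (hx1 : ‖x‖ ≤ 1) :
    ∃ y, (∀ j < n, Commute y (D.X t₁ j) ∧ Commute y (D'.d j)) ∧ ‖x - y‖ ≤ 100000 * η := by
  obtain ⟨hJm, hy⟩ := near_alg hI s₁ s₂ S₁ S₂ c₁ c₁' c₂ c₂' C₁ C₁' C₂ C₂' cJ cJ' hT n hx
  refine ⟨_, hy, ?_⟩
  have hη : 0 ≤ η := (dev_nonneg _ _ _).trans h₁
  have hJn : ‖J‖ ≤ 1 := norm_le_one_of_isom hJ
  have hJs : ‖star J‖ ≤ 1 := by rwa [norm_star]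
  have hm : ‖D'.Vi n t₂ * x * D'.V n t₂‖ ≤ 2 * 1 * 2 :=
    near_norm_mul_le (near_norm_mul_le (D'.norm_Vi_le s₂ n) hx1) (D'.norm_V_le s₂ n)
  have hxe : x = (D'.V n t₂ * star J) * (D'.Vi n t₂ * x * D'.V n t₂) * (J * D'.Vi n t₂) := by
    have e1 : star J * (D'.Vi n t₂ * x * D'.V n t₂) * J = D'.Vi n t₂ * x * D'.V n t₂ :=
      near_conj_self hJ hJm.symm
    calc x = D'.V n t₂ * (D'.Vi n t₂ * x * D'.V n t₂) * D'.Vi n t₂ :=
          (near_conj_cancel (D'.V_mul_Vi s₂ n)).symm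
      _ = D'.V n t₂ * (star J * (D'.Vi n t₂ * x * D'.V n t₂) * J) * D'.Vi n t₂ := by rw [e1]
      _ = _ := by simp only [mul_assoc]
  have d₁ : dev (star J) t₁ T₁ ≤ η := by
    have := dev_star J T₁ t₁
    rw [s₁.sa, S₁.sa] at this
    rwa [this]
  have d₂ : dev (star J) t₂ T₂ ≤ η := by
    have := dev_star J T₂ t₂
    rw [s₂.sa, S₂.sa] at this
    rwa [this]
  have a1 : ‖D.V n t₁ * star J - star J * D.V n T₁‖ ≤ 25 * η :=
    (D.dev_V cJ.star s₁ S₁ n).trans (by linarith)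
  have a2 : ‖D'.V n t₂ * star J - star J * D'.V n T₂‖ ≤ 25 * η :=
    (D'.dev_V cJ'.star s₂ S₂ n).trans (by linarith)
  have b1 : ‖D.V n T₁ * J - J * D.V n t₁‖ ≤ 25 * η :=
    (D.dev_V cJ S₁ s₁ n).trans (by linarith)
  have b2 : ‖D'.Vi n T₂ * J - J * D'.Vi n t₂‖ ≤ 100 * η :=
    (D'.dev_Vi cJ' S₂ s₂ n).trans (by linarith)
  have hα : ‖D'.V n t₂ * star J - D.V n t₁ * star J * D.Vi n T₁ * D'.V n T₂‖ ≤
      25 * η + 25 * η * 2 * 2 := by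
    have e : D'.V n t₂ * star J - D.V n t₁ * star J * D.Vi n T₁ * D'.V n T₂ =
        (D'.V n t₂ * star J - star J * D'.V n T₂) -
          (D.V n t₁ * star J - star J * D.V n T₁) * D.Vi n T₁ * D'.V n T₂ := by
      rw [sub_mul, sub_mul, mul_assoc (star J) (D.V n T₁), D.V_mul_Vi S₁ n, mul_one]
      abel
    rw [e]
    exact (norm_sub_le _ _).trans (add_le_add a2
      (near_norm_mul_le (near_norm_mul_le a1 (D.norm_Vi_le S₁ n)) (D'.norm_V_le S₂ n)))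
  have hβ : ‖J * D'.Vi n t₂ - D'.Vi n T₂ * D.V n T₁ * J * D.Vi n t₁‖ ≤
      100 * η + 2 * (25 * η) * 2 := by
    have e : J * D'.Vi n t₂ - D'.Vi n T₂ * D.V n T₁ * J * D.Vi n t₁ =
        -(D'.Vi n T₂ * J - J * D'.Vi n t₂) -
          D'.Vi n T₂ * (D.V n T₁ * J - J * D.V n t₁) * D.Vi n t₁ := by
      rw [mul_sub, sub_mul, mul_assoc (D'.Vi n T₂) (J * D.V n t₁), mul_assoc J (D.V n t₁),
        D.V_mul_Vi s₁ n, mul_one, ← mul_assoc (D'.Vi n T₂) (D.V n T₁)]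
      abel
    rw [e]
    refine (norm_sub_le _ _).trans (add_le_add (by rwa [norm_neg]) ?_)
    exact near_norm_mul_le (near_norm_mul_le (D'.norm_Vi_le S₂ n) b1) (D.norm_Vi_le s₁ n)
  have hβn : ‖D'.Vi n T₂ * D.V n T₁ * J * D.Vi n t₁‖ ≤ 2 * 2 * 1 * 2 :=
    near_norm_mul_le (near_norm_mul_le (near_norm_mul_le (D'.norm_Vi_le S₂ n)
      (D.norm_V_le S₁ n)) hJn) (D.norm_Vi_le s₁ n)
  have hαn : ‖D'.V n t₂ * star J‖ ≤ 2 * 1 := near_norm_mul_le (D'.norm_V_le s₂ n) hJs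
  generalize D'.Vi n t₂ * x * D'.V n t₂ = m at hm hxe ⊢
  generalize D.V n t₁ * star J * D.Vi n T₁ * D'.V n T₂ = α at hα ⊢
  generalize D'.Vi n T₂ * D.V n T₁ * J * D.Vi n t₁ = β at hβ hβn ⊢
  generalize D'.V n t₂ * star J = α₀ at hα hαn hxe
  generalize J * D'.Vi n t₂ = β₀ at hβ hxe
  have e : x - α * m * β = α₀ * m * (β₀ - β) + (α₀ - α) * m * β := by
    rw [hxe]; noncomm_ring
  rw [e]
  have k1 := near_norm_mul_le (near_norm_mul_le hαn hm) hβ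
  have k2 := near_norm_mul_le (near_norm_mul_le hα hm) hβn
  have := norm_add_le (α₀ * m * (β₀ - β)) ((α₀ - α) * m * β)
  linarith

end

end Crest.Agent.R78F
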