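import Crest.Agent.R78F.Est

/-!
# Row 78 (S0104): the parameter space

On `K = ℓ²(ℤ)`: `T = U₀ D₀ + (1 - D₀)` with `U₀ δ_n = δ_{n-1}` and slowly varying weights
`w n = clamp (n / L²)`; it has index one and is almost intertwined, by an isometry `J`, with the
normal operator `N = U D + (1 - D)` on `ℓ²(ℤ × ℤ) ≅ ℓ²(ℤ)`.
-/

set_option autoImplicit false
set_option linter.unusedSectionVars false

open Finset

namespace Crest.Agent.R78F

noncomputable section

namespace Par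

/-- The parameter space. -/
abbrev K := L2 ℤ ℂ

/-- A bijection `ℤ × ℤ ≃ ℤ`. -/
def φ : ℤ × ℤ ≃ ℤ := Denumerable.equiv₂ _ _

/-- The weights. -/
def w (L : ℕ) (m : ℤ) : ℝ := max 0 (min 1 ((m : ℝ) / (L : ℝ) ^ 2))

/-- Multiplication by a bounded real function. -/
def mu (f : ℤ → ℝ) : Op K := diag fun n => (f n : ℂ) • (1 : Op ℂ)

/-- `U₀ δ_n = δ_{n-1}`. -/
def U₀ : Op K := pb (Equiv.addRight (1 : ℤ))

/-- The shift `(m, r) ↦ (m, r - 1)` read through `φ`. -/
def sh : ℤ ≃ ℤ := φ.symm.trans ((Equiv.prodCongr (Equiv.refl ℤ) (Equiv.subRight 1)).trans φ)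

/-- `U δ_{(m,r)} = δ_{(m,r+1)}`. -/
def U : Op K := pb sh

/-- `J_r δ_n = δ_{(n+r,r)}`. -/
def Jr (r : ℕ) : Op K := star (pb fun n => φ (n + r, r))

/-- The almost intertwining isometry. -/
def J (L : ℕ) : Op K := (((√(L : ℝ))⁻¹ : ℝ) : ℂ) • ∑ r ∈ range L, Jr r

def D₀ (L : ℕ) : Op K := mu (w L)

def D (L : ℕ) : Op K := mu fun k => w L (φ.symm k).1

def T (L : ℕ) : Op K := U₀ * D₀ L + (1 - D₀ L)

def N (L : ℕ) : Op K := U * D L + (1 - D L)

/-- `g n = n + 1` for `n ≥ 0`, `g n = n` for `n < 0`. -/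
def g (n : ℤ) : ℤ := if 0 ≤ n then n + 1 else n

def G : Op K := star (pb g)

theorem w_nonneg (L : ℕ) (m : ℤ) : 0 ≤ w L m := by
  exact le_max_left _ _

theorem w_le_one (L : ℕ) (m : ℤ) : w L m ≤ 1 := by
  exact max_le zero_le_one (min_le_left _ _)

theorem abs_w_sub_le (L : ℕ) (m m' : ℤ) : |w L m - w L m'| ≤ |(m : ℝ) - m'| / (L : ℝ) ^ 2 := by
  unfold w
  refine (abs_max_sub_max_le_max _ _ _ _).trans ?_
  rw [sub_self, abs_zero]
  refine max_le (by positivity) ((abs_min_sub_min_le_max _ _ _ _).trans ?_)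
  rw [sub_self, abs_zero]
  refine max_le (by positivity) (le_of_eq ?_)
  rw [← sub_div, abs_div, abs_of_nonneg (a := (L : ℝ) ^ 2) (by positivity)]

theorem abs_w_le (L : ℕ) (m : ℤ) : |w L m| ≤ 1 := by
  rw [abs_of_nonneg (w_nonneg L m)]; exact w_le_one L m

theorem norm_smul_one (c : ℝ) : ‖((c : ℂ) • (1 : Op ℂ))‖ = |c| := by
  rw [norm_smul, norm_one, mul_one, Complex.norm_real, Real.norm_eq_abs]

theorem blk_mu {f : ℤ → ℝ} {C : ℝ} (h : ∀ n, |f n| ≤ C) :
    Blk (mu f) fun n => (f n : ℂ) • (1 : Op ℂ) :=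
  blk_diag (C := C) fun n => by rw [norm_smul_one]; exact h n

theorem mu_sg {f : ℤ → ℝ} {C : ℝ} (h : ∀ n, |f n| ≤ C) (n : ℤ) (x : ℂ) :
    mu f (sg n x) = (f n : ℂ) • sg n x := by
  rw [(blk_mu h).sg_apply, ← map_smul]; rfl

theorem norm_mu_sub_le {f f' : ℤ → ℝ} {C C' B : ℝ} (h : ∀ n, |f n| ≤ C) (h' : ∀ n, |f' n| ≤ C')
    (hB : ∀ n, |f n - f' n| ≤ B) : ‖mu f - mu f'‖ ≤ B := by
  refine ((blk_mu h).sub (blk_mu h')).norm_le ((abs_nonneg _).trans (hB 0)) fun n => ?_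
  rw [Pi.sub_apply, ← sub_smul, ← Complex.ofReal_sub, norm_smul_one]
  exact hB n

theorem norm_one_sub_mu_le {f : ℤ → ℝ} (h0 : ∀ n, 0 ≤ f n) (h1 : ∀ n, f n ≤ 1) :
    ‖1 - mu f‖ ≤ 1 := by
  have h : ∀ n, |f n| ≤ 1 := fun n => by rw [abs_of_nonneg (h0 n)]; exact h1 n
  refine (Blk.one.sub (blk_mu h)).norm_le zero_le_one fun n => ?_
  have : (1 : Op ℂ) - (f n : ℂ) • (1 : Op ℂ) = ((1 - f n : ℝ) : ℂ) • (1 : Op ℂ) := by
    rw [Complex.ofReal_sub, sub_smul, Complex.ofReal_one, one_smul]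
  rw [Pi.sub_apply, Pi.one_apply, this, norm_smul_one, abs_of_nonneg (sub_nonneg.2 (h1 n))]
  linarith [h0 n]

theorem Jr_inj (r : ℕ) : Function.Injective fun n : ℤ => φ (n + r, r) := fun a b h => by
  have := congrArg Prod.fst (φ.injective h)
  simpa using this

theorem Jr_sg (r : ℕ) (n : ℤ) (x : ℂ) : Jr r (sg n x) = sg (φ (n + r, r)) x :=
  star_pb_sg (Jr_inj r) n x

theorem U₀_sg (n : ℤ) (x : ℂ) : U₀ (sg n x) = sg (n - 1) x := by
  have := pb_sg_self (K := ℂ) (Equiv.addRight (1 : ℤ)).injective (n - 1) x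
  have e : Equiv.addRight (1 : ℤ) (n - 1) = n := by simp
  rwa [e] at this

theorem U_sg (m r : ℤ) (x : ℂ) : U (sg (φ (m, r)) x) = sg (φ (m, r + 1)) x := by
  have := pb_sg_self (K := ℂ) sh.injective (φ (m, r + 1)) x
  have e : sh (φ (m, r + 1)) = φ (m, r) := by simp [sh]
  rwa [e] at this

theorem D_sg (L : ℕ) (m r : ℤ) (x : ℂ) :
    D L (sg (φ (m, r)) x) = (w L m : ℂ) • sg (φ (m, r)) x := by
  rw [D, mu_sg (C := 1) (fun _ => abs_w_le _ _), Equiv.symm_apply_apply]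

theorem norm_U_le : ‖U‖ ≤ 1 := norm_pb_le _

theorem norm_U₀_le : ‖U₀‖ ≤ 1 := norm_pb_le _

theorem norm_Jr_le (r : ℕ) : ‖Jr r‖ ≤ 1 := by
  rw [Jr, norm_star]; exact norm_pb_le _

theorem U_mul_star : U * star U = 1 := pb_mul_star_pb sh.injective

theorem U₀_mul_star : U₀ * star U₀ = 1 := pb_mul_star_pb (Equiv.addRight (1 : ℤ)).injective

theorem star_mul_U : star U * U = 1 := by
  have := pb_mul_star_pb (K := ℂ) sh.symm.injective
  rwa [star_pb_equiv, Equiv.symm_symm, ← star_pb_equiv] at this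

theorem norm_c (L : ℕ) : ‖(((√(L : ℝ))⁻¹ : ℝ) : ℂ)‖ = (√(L : ℝ))⁻¹ := by
  rw [Complex.norm_real, Real.norm_eq_abs, abs_of_nonneg (by positivity)]

theorem ev_mu {f : ℤ → ℝ} {C : ℝ} (h : ∀ n, |f n| ≤ C) (n : ℤ) (ξ : K) :
    ev n (mu f ξ) = (f n : ℂ) * ev n ξ := by
  rw [blk_mu h n ξ]; rfl

theorem norm_mu_le {f : ℤ → ℝ} {C : ℝ} (h : ∀ n, |f n| ≤ C) : ‖mu f‖ ≤ C := by
  exact (blk_mu h).norm_le ((abs_nonneg _).trans (h 0)) fun n => by
    rw [norm_smul_one]; exact h n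

theorem star_mu {f : ℤ → ℝ} {C : ℝ} (h : ∀ n, |f n| ≤ C) : star (mu f) = mu f := by
  refine (blk_mu h).star.unique ((blk_mu h).congr fun n => ?_)
  rw [Pi.star_apply, star_smul, star_one, Complex.star_def, Complex.conj_ofReal]

theorem U_mul_Jr (r : ℕ) : U * Jr r = Jr (r + 1) * U₀ := by
  refine ext_sg fun n x => ?_
  rw [mul_apply_eq_comp, mul_apply_eq_comp, Jr_sg, U_sg, U₀_sg, Jr_sg]
  have e : n - 1 + ((r + 1 : ℕ) : ℤ) = n + r := by push_cast; ring
  rw [e, Nat.cast_succ]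

theorem D_mul_Jr (L r : ℕ) : D L * Jr r = Jr r * mu fun n => w L (n + r) := by
  refine ext_sg fun n x => ?_
  rw [mul_apply_eq_comp, mul_apply_eq_comp, Jr_sg, D_sg,
    mu_sg (C := 1) (fun _ => abs_w_le _ _), map_smul, Jr_sg]

theorem Jr_orth (r r' : ℕ) : star (Jr r) * Jr r' = if r = r' then 1 else 0 := by
  rw [Jr, Jr, star_star]
  split_ifs with h
  · subst h; exact pb_mul_star_pb (Jr_inj r)
  · refine pb_mul_star_pb_of_ne (Jr_inj r) (Jr_inj r') fun i j e => h ?_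
    have := congrArg Prod.snd (φ.injective e)
    simpa using this.symm

theorem star_J_mul_J {L : ℕ} (hL : 0 < L) : star (J L) * J L = 1 := by
  rw [J, star_smul, smul_mul_smul_comm, star_sum, Finset.sum_mul_sum]
  simp only [Jr_orth]
  rw [Finset.sum_congr rfl fun r hr => by rw [Finset.sum_ite_eq, if_pos hr], Finset.sum_const,
    card_range, ← Nat.cast_smul_eq_nsmul ℂ, smul_smul, Complex.star_def, Complex.conj_ofReal]
  have hL' : (0 : ℝ) < L := Nat.cast_pos.2 hL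
  have : (√(L : ℝ))⁻¹ * (√(L : ℝ))⁻¹ * L = 1 := by
    rw [← mul_inv, Real.mul_self_sqrt hL'.le, inv_mul_cancel₀ hL'.ne']
  rw [← Complex.ofReal_natCast, ← Complex.ofReal_mul, ← Complex.ofReal_mul, this,
    Complex.ofReal_one, one_smul]

theorem dev_U {L : ℕ} (hL : 0 < L) : dev (J L) U U₀ ≤ 2 / √L := by
  have e : U * J L - J L * U₀ = (((√(L : ℝ))⁻¹ : ℝ) : ℂ) • ((Jr L - Jr 0) * U₀) := by
    rw [J, mul_smul_comm, smul_mul_assoc, ← smul_sub, ← Finset.sum_range_sub, Finset.mul_sum,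
      Finset.sum_mul, Finset.sum_mul, ← Finset.sum_sub_distrib]
    congr 1
    exact Finset.sum_congr rfl fun r _ => by rw [U_mul_Jr, sub_mul]
  rw [dev, e, norm_smul, norm_c, div_eq_inv_mul]
  refine mul_le_mul_of_nonneg_left ?_ (by positivity)
  calc ‖(Jr L - Jr 0) * U₀‖ ≤ ‖Jr L - Jr 0‖ * ‖U₀‖ := norm_mul_le _ _
    _ ≤ 2 * 1 := by
        refine mul_le_mul ((norm_sub_le _ _).trans ?_) norm_U₀_le (norm_nonneg _) (by norm_num)
        linarith [norm_Jr_le L, norm_Jr_le 0]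
    _ = 2 := by norm_num

theorem dev_star_U {L : ℕ} (hL : 0 < L) : dev (J L) (star U) (star U₀) ≤ 2 / √L := by
  have e : star U * J L - J L * star U₀ = -(star U * (U * J L - J L * U₀) * star U₀) := by
    rw [mul_sub, sub_mul, ← mul_assoc, star_mul_U, one_mul, mul_assoc, mul_assoc, U₀_mul_star,
      mul_one, neg_sub]
  have h := dev_U hL
  rw [dev] at h
  rw [dev, e, norm_neg]
  calc ‖star U * (U * J L - J L * U₀) * star U₀‖
      ≤ ‖star U‖ * ‖U * J L - J L * U₀‖ * ‖star U₀‖ :=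
        (norm_mul_le _ _).trans (mul_le_mul_of_nonneg_right (norm_mul_le _ _) (norm_nonneg _))
    _ ≤ 1 * (2 / √L) * 1 := by
        rw [norm_star, norm_star]
        exact mul_le_mul (mul_le_mul norm_U_le h (norm_nonneg _) zero_le_one) norm_U₀_le
          (norm_nonneg _) (by positivity)
    _ = _ := by ring

theorem dev_D {L : ℕ} (hL : 0 < L) : dev (J L) (D L) (D₀ L) ≤ 1 / √L := by
  have hL' : (0 : ℝ) < L := Nat.cast_pos.2 hL
  have e : D L * J L - J L * D₀ L = (((√(L : ℝ))⁻¹ : ℝ) : ℂ) •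
      ∑ r ∈ range L, Jr r * ((mu fun n => w L (n + r)) - D₀ L) := by
    rw [J, mul_smul_comm, smul_mul_assoc, ← smul_sub, Finset.mul_sum,
      Finset.sum_mul, ← Finset.sum_sub_distrib]
    congr 1
    exact Finset.sum_congr rfl fun r _ => by rw [D_mul_Jr, mul_sub]
  rw [dev, e, norm_smul, norm_c, div_eq_inv_mul]
  refine mul_le_mul_of_nonneg_left ((norm_sum_le _ _).trans ?_) (by positivity)
  calc ∑ r ∈ range L, ‖Jr r * ((mu fun n => w L (n + r)) - D₀ L)‖
      ≤ ∑ _r ∈ range L, (L : ℝ)⁻¹ := by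
        refine Finset.sum_le_sum fun r hr => (norm_mul_le _ _).trans ?_
        have hr' : (r : ℝ) ≤ L := by exact_mod_cast (mem_range.1 hr).le
        have : ‖(mu fun n => w L (n + r)) - D₀ L‖ ≤ (L : ℝ)⁻¹ := by
          refine norm_mu_sub_le (fun _ => abs_w_le _ _) (fun _ => abs_w_le _ _) fun n => ?_
          refine (abs_w_sub_le L _ _).trans ?_
          push_cast
          rw [add_sub_cancel_left, abs_of_nonneg (Nat.cast_nonneg r), div_le_iff₀ (by positivity)]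
          rw [sq, ← mul_assoc, inv_mul_cancel₀ hL'.ne', one_mul]
          exact hr'
        simpa using mul_le_mul (norm_Jr_le r) this (norm_nonneg _) zero_le_one
    _ = 1 := by
        rw [Finset.sum_const, card_range, nsmul_eq_mul, mul_inv_cancel₀ hL'.ne']

theorem norm_D_le (L : ℕ) : ‖D L‖ ≤ 1 := norm_mu_le fun _ => abs_w_le _ _

theorem norm_D₀_le (L : ℕ) : ‖D₀ L‖ ≤ 1 := norm_mu_le fun _ => abs_w_le _ _

theorem star_D (L : ℕ) : star (D L) = D L := star_mu fun _ => abs_w_le _ _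

theorem star_D₀ (L : ℕ) : star (D₀ L) = D₀ L := star_mu fun _ => abs_w_le _ _

theorem dev_one_sub {L : ℕ} (hL : 0 < L) : dev (J L) (1 - D L) (1 - D₀ L) ≤ 1 / √L := by
  have := dev_sub (J L) 1 1 (D L) (D₀ L)
  rw [dev_of_commute (Commute.one_right _), zero_add] at this
  exact this.trans (dev_D hL)

theorem dev_N {L : ℕ} (hL : 0 < L) : dev (J L) (N L) (T L) ≤ 4 / √L := by
  have h1 := dev_add (J L) (U * D L) (U₀ * D₀ L) (1 - D L) (1 - D₀ L)
  have h2 := dev_mul (J L) U U₀ (D L) (D₀ L)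
  have h3 := mul_le_mul norm_U_le (dev_D hL) (dev_nonneg _ _ _) zero_le_one
  have h4 := mul_le_mul (dev_U hL) (norm_D₀_le L) (norm_nonneg _) (by positivity)
  have h5 := dev_one_sub hL
  have e : 4 / √(L : ℝ) = 1 * (1 / √L) + 2 / √L * 1 + 1 / √L := by ring
  rw [N, T, e]
  linarith

theorem dev_star_N {L : ℕ} (hL : 0 < L) : dev (J L) (star (N L)) (star (T L)) ≤ 4 / √L := by
  have h1 := dev_add (J L) (D L * star U) (D₀ L * star U₀) (1 - D L) (1 - D₀ L)
  have h2 := dev_mul (J L) (D L) (D₀ L) (star U) (star U₀)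
  have h3 := mul_le_mul (norm_D_le L) (dev_star_U hL) (dev_nonneg _ _ _) zero_le_one
  have h4 := mul_le_mul (dev_D hL) ((norm_star U₀).le.trans norm_U₀_le) (norm_nonneg _)
    (by positivity)
  have h5 := dev_one_sub hL
  have e : 4 / √(L : ℝ) = 1 * (2 / √L) + 1 / √L * 1 + 1 / √L := by ring
  rw [N, T, star_add, star_add, star_mul, star_mul, star_sub, star_sub, star_one, star_D, star_D₀,
    e]
  linarith

theorem norm_T_le (L : ℕ) : ‖T L‖ ≤ 2 := by
  have h1 := mul_le_mul norm_U₀_le (norm_D₀_le L) (norm_nonneg _) zero_le_one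
  have h2 : ‖1 - D₀ L‖ ≤ 1 := norm_one_sub_mu_le (w_nonneg L) (w_le_one L)
  have h3 := norm_mul_le U₀ (D₀ L)
  refine (norm_add_le _ _).trans ?_
  linarith

theorem norm_N_le (L : ℕ) : ‖N L‖ ≤ 2 := by
  have h1 := mul_le_mul norm_U_le (norm_D_le L) (norm_nonneg _) zero_le_one
  have h2 : ‖1 - D L‖ ≤ 1 := norm_one_sub_mu_le (fun _ => w_nonneg L _) fun _ => w_le_one L _
  have h3 := norm_mul_le U (D L)
  refine (norm_add_le _ _).trans ?_
  linarith

theorem commute_U_D (L : ℕ) : Commute U (D L) := by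
  refine ext_sg fun k x => ?_
  obtain ⟨⟨m, r⟩, rfl⟩ := φ.surjective k
  rw [mul_apply_eq_comp, mul_apply_eq_comp, D_sg, map_smul, U_sg, D_sg]

theorem normal_N (L : ℕ) : IsStarNormal (N L) := by
  have h1 : Commute (star U) (D L) := by
    have := (commute_U_D L).star_star
    rwa [star_D] at this
  have h2 : Commute (star U) U := star_mul_U.trans U_mul_star.symm
  have hD : Commute (D L) (N L) :=
    ((commute_U_D L).symm.mul_right (Commute.refl _)).add_right
      ((Commute.one_right _).sub_right (Commute.refl _))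
  have hU : Commute (star U) (N L) :=
    (h2.mul_right h1).add_right ((Commute.one_right _).sub_right h1)
  refine ⟨?_⟩
  have e : star (N L) = D L * star U + (1 - D L) := by
    rw [N, star_add, star_mul, star_sub, star_one, star_D]
  rw [e]
  exact (hD.mul_left hU).add_left ((Commute.one_left _).sub_left hD)

theorem g_inj : Function.Injective g := by
  intro a b h
  unfold g at h
  split_ifs at h <;> omega

theorem not_surjective_G : ¬ Function.Surjective G := by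
  intro h
  obtain ⟨ξ, hξ⟩ := h (sg 0 1)
  have h0 : ev 0 (G ξ) = 0 := ev_star_pb_of_not_mem g_inj (fun i => by
    unfold g; split_ifs <;> omega) ξ
  rw [hξ, ev_sg_self] at h0
  exact one_ne_zero h0

theorem compact_eu (n : ℤ) : IsCompactOperator (eu n n : Op K) := by
  have h : IsCompactOperator (id : ℂ → ℂ) := isCompactOperator_id
  exact (h.comp_clm (ev n : K →L[ℂ] ℂ)).clm_comp (sg n : ℂ →L[ℂ] K)

/-- `T G - 1` is supported on the finitely many coordinates `0 ≤ n < L²`. -/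
theorem TG_eq {L : ℕ} (hL : 0 < L) :
    T L * G - 1 = (T L * G - 1) * ∑ n ∈ Finset.Ico (0 : ℤ) (L ^ 2), eu n n := by
  have hL' : (0 : ℝ) < L := Nat.cast_pos.2 hL
  refine ext_sg fun n x => ?_
  have hp : (∑ m ∈ Finset.Ico (0 : ℤ) (L ^ 2), (eu m m : Op K)) (sg n x) =
      if n ∈ Finset.Ico (0 : ℤ) (L ^ 2) then sg n x else 0 := by
    rw [_root_.sum_apply, ← Finset.sum_ite_eq' _ n fun _ => (sg n x : K)]
    refine Finset.sum_congr rfl fun m _ => ?_
    rw [eu_apply, ev_sg]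
    split_ifs with h
    · rw [h]
    · rw [map_zero]
  rw [mul_apply_eq_comp, hp]
  split_ifs with hn
  · rfl
  · rw [map_zero, _root_.sub_apply, mul_apply_eq_comp, G,
      star_pb_sg g_inj, T, _root_.add_apply, mul_apply_eq_comp,
      _root_.sub_apply, D₀, mu_sg (C := 1) (fun _ => abs_w_le _ _), map_smul, U₀_sg,
      one_apply_eq_self, one_apply_eq_self]
    rw [Finset.mem_Ico, not_and_or, not_le, not_lt] at hn
    rcases hn with hn | hn
    · have e : g n = n := if_neg (not_le.2 hn)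
      have hw : w L n = 0 := by
        refine max_eq_left (min_le_of_right_le (div_nonpos_of_nonpos_of_nonneg ?_ (by positivity)))
        exact_mod_cast hn.le
      rw [e, hw]; simp
    · have e : g n = n + 1 := if_pos ((by positivity : (0 : ℤ) ≤ (L : ℤ) ^ 2).trans hn)
      have hw : w L (n + 1) = 1 := by
        have : (1 : ℝ) ≤ ((n + 1 : ℤ) : ℝ) / (L : ℝ) ^ 2 := by
          rw [le_div_iff₀ (by positivity), one_mul]
          have : ((L : ℤ) ^ 2 : ℤ) ≤ n + 1 := by omega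
          exact_mod_cast this
        rw [w, min_eq_left this, max_eq_right zero_le_one]
      rw [e, hw]; simp

end Par

theorem exists_param {η : ℝ} (hη : 0 < η) :
    ∃ T N J G G' : Op (L2 ℤ ℂ), IsStarNormal N ∧ star J * J = 1 ∧ ‖T‖ ≤ 2 ∧ ‖N‖ ≤ 2 ∧
      dev J N T ≤ η ∧ dev J (star N) (star T) ≤ η ∧ ‖G‖ ≤ 1 ∧ G' * G = 1 ∧
      ¬ Function.Surjective G ∧ IsCompactOperator (T * G - 1 : Op (L2 ℤ ℂ)) ∧
      IsCompactOperator (star (T * G - 1) : Op (L2 ℤ ℂ)) := by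
  obtain ⟨L, hL⟩ := exists_nat_gt ((4 / η) ^ 2)
  have hL0 : (0 : ℝ) < L := lt_of_le_of_lt (by positivity) hL
  have hL1 : 0 < L := Nat.cast_pos.1 hL0
  have hη' : 4 / √(L : ℝ) ≤ η := by
    have h1 : 4 / η ≤ √(L : ℝ) := Real.le_sqrt_of_sq_le hL.le
    rw [div_le_iff₀ hη] at h1
    rw [div_le_iff₀ (Real.sqrt_pos.2 hL0)]
    linarith
  have hp : ∀ s : Finset ℤ, IsCompactOperator (∑ n ∈ s, eu n n : Op Par.K) := by
    intro s
    induction s using Finset.induction_on with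
    | empty => rw [Finset.sum_empty]; exact isCompactOperator_zero
    | insert a s ha ih => rw [Finset.sum_insert ha]; exact (Par.compact_eu a).add ih
  refine ⟨Par.T L, Par.N L, Par.J L, Par.G, pb Par.g, Par.normal_N L, Par.star_J_mul_J hL1,
    Par.norm_T_le L, Par.norm_N_le L, (Par.dev_N hL1).trans hη', (Par.dev_star_N hL1).trans hη',
    ?_, pb_mul_star_pb Par.g_inj, Par.not_surjective_G, ?_, ?_⟩
  · rw [Par.G, norm_star]; exact norm_pb_le _
  · rw [Par.TG_eq hL1]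
    exact (hp _).clm_comp (Par.T L * Par.G - 1)
  · rw [Par.TG_eq hL1, star_mul, star_sum]
    simp only [star_eu]
    exact (hp _).comp_clm (star (Par.T L * Par.G - 1))

end

end Crest.Agent.R78F
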