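import Crest.Agent.R78F.Obs

/-!
# Row 78 (S0104): the parametrix
-/

set_option autoImplicit false
set_option linter.unusedSectionVars false

open Complex Finset

namespace Crest.Agent.R78F

noncomputable section

variable {A : Type*} [CStarAlgebra A]

theorem prm_norm {E : A} (e : star E = E) (e' : E * E = E) : ‖E‖ ≤ 1 ∧ ‖1 - E‖ ≤ 1 :=
  have h : IsStarProjection E := ⟨e', e⟩
  ⟨h.norm_le, h.one_sub.norm_le⟩

theorem prm_alg {E₁ E₂ p₁ p₂ p₃ p₄ T G G' a b : A} (h : 1 = p₁ + p₂ + p₃ + p₄)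
    (h11 : E₁ * p₁ = p₁) (h12 : E₁ * p₂ = 0)
    (h13 : E₁ * p₃ = p₃) (h14 : E₁ * p₄ = 0) (h21 : E₂ * p₁ = p₁) (h22 : E₂ * p₂ = p₂)
    (h23 : E₂ * p₃ = 0) (h24 : E₂ * p₄ = 0) (hT : T = a + I • b) (t : Commute T p₁)
    (g : Commute G' p₁) (hG' : G' * G = 1) (k₁ : p₁ = E₁ * E₂ := by rfl)
    (k₂ : p₂ = (1 - E₁) * E₂ := by rfl) (k₃ : p₃ = E₁ * (1 - E₂) := by rfl)
    (k₄ : p₄ = (1 - E₁) * (1 - E₂) := by rfl) :
    ∃ G₁' : A, G₁' * ((500 : ℂ) • (p₁ * G) - (500 / 16 : ℂ) • p₂ + (500 / 16 * I) • p₃ -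
      (500 / 16 * ((1 - I) / 2)) • p₄) = 1 ∧
    p₁ * ((500 : ℂ) • (p₁ * G) - (500 / 16 : ℂ) • p₂ + (500 / 16 * I) • p₃ -
      (500 / 16 * ((1 - I) / 2)) • p₄) = (500 : ℂ) • (p₁ * G) ∧
    (2 * ((1 / 1000 : ℂ) • ((16 : ℂ) • (1 : A) + a)) * E₁ +
      I • (2 * ((1 / 1000 : ℂ) • ((16 : ℂ) • (1 : A) + b)) * E₂) - (32 / 1000 * (1 + I)) • (1 : A)) *
      ((500 : ℂ) • (p₁ * G) - (500 / 16 : ℂ) • p₂ + (500 / 16 * I) • p₃ -
        (500 / 16 * ((1 - I) / 2)) • p₄) = 1 + (I / 16) • (a * p₃ - b * p₂) + p₁ * (T * G - 1) := by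
  have q₁ : ∀ x, p₁ * x = E₁ * (E₂ * x) := fun x => by rw [k₁, mul_assoc]
  have q₂ : ∀ x, p₂ * x = E₂ * x - E₁ * (E₂ * x) := fun x => by rw [k₂]; noncomm_ring
  have q₃ : ∀ x, p₃ * x = E₁ * x - E₁ * (E₂ * x) := fun x => by rw [k₃]; noncomm_ring
  have q₄ : ∀ x, p₄ * x = x - E₁ * x - E₂ * x + E₁ * (E₂ * x) := fun x => by
    rw [k₄]; noncomm_ring
  have r11 : p₁ * p₁ = p₁ := by rw [q₁, h21, h11]
  have r12 : p₁ * p₂ = 0 := by rw [q₁, h22, h12]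
  have r13 : p₁ * p₃ = 0 := by rw [q₁, h23, mul_zero]
  have r14 : p₁ * p₄ = 0 := by rw [q₁, h24, mul_zero]
  have s1 : ∀ x, p₁ * (p₁ * x) = p₁ * x := fun x => by rw [← mul_assoc, r11]
  have u1 : E₁ * (p₁ * G) = p₁ * G := by rw [← mul_assoc, h11]
  have u2 : E₂ * (p₁ * G) = p₁ * G := by rw [← mul_assoc, h21]
  refine ⟨(1 / 500 : ℂ) • (G' * p₁) - (16 / 500 : ℂ) • p₂ - (16 / 500 * I) • p₃ -
    (16 / 500 * (1 + I)) • p₄, ?_, ?_, ?_⟩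
  · have v : G' * (p₁ * G) = p₁ := by rw [g.left_comm, hG', mul_one]
    simp only [mul_add, mul_sub, sub_mul, smul_mul_assoc, mul_smul_comm, mul_assoc, s1, r12, r13,
      r14, q₂, q₃, q₄, h12, h13, h14, h22, h23, h24, u1, u2, v, mul_zero]
    rw [h]
    match_scalars <;> simp [Complex.ext_iff] <;> norm_num
  · simp only [mul_add, mul_sub, mul_smul_comm, s1, r12, r13, r14, smul_zero, sub_zero, add_zero]
  · have v : p₁ * (T * G) = a * (p₁ * G) + I • (b * (p₁ * G)) := by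
      rw [← t.left_comm, ← smul_mul_assoc, ← add_mul, ← hT]
    simp only [mul_add, add_mul, mul_sub, sub_mul, smul_mul_assoc, mul_smul_comm, mul_assoc, two_mul,
      one_mul, mul_one, h12, h13, h14, h22, h23, h24, u1, u2, v, mul_zero]
    rw [h]
    match_scalars <;> simp [Complex.ext_iff] <;> norm_num

/-- The parametrix.  With `Q = E₁ E₂`, `μ = (32/1000) (1 + i)`,
`Δ = -(1 - E₁) E₂ + i E₁ (1 - E₂) - ((1 - i)/2) (1 - E₁) (1 - E₂)`,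
`Δ' = -(1 - E₁) E₂ - i E₁ (1 - E₂) - (1 + i) (1 - E₁) (1 - E₂)`,
take `G₁ = 500 (Q G + Δ / 16)`, `G₁' = (Q G' + 16 Δ') / 500`; then
`(W₀ - μ) G₁ = 1 + Q (T G - 1) + R₁` with
`R₁ = (i / 16) (Re T E₁ (1 - E₂) - Im T (1 - E₁) E₂)`, `‖R₁‖ ≤ 1/4`. -/
theorem parametrix {E₁ E₂ T G G' W : A} (e₁ : star E₁ = E₁) (e₁' : E₁ * E₁ = E₁)
    (e₂ : star E₂ = E₂) (e₂' : E₂ * E₂ = E₂) (e₁₂ : Commute E₁ E₂)
    (t₁ : Commute T E₁) (t₂ : Commute T E₂) (g₁ : Commute G E₁) (g₂ : Commute G E₂)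
    (g₁' : Commute G' E₁) (g₂' : Commute G' E₂) (hT : ‖T‖ ≤ 2) (hG : ‖G‖ ≤ 1) (hG' : G' * G = 1)
    (hW : ‖W - (2 * tre T * E₁ + I • (2 * tim T * E₂))‖ ≤ 1 / 2000) :
    ∃ (μ : ℂ) (G₁ G₁' R : A), G₁' * G₁ = 1 ∧ E₁ * E₂ * G₁ = (500 : ℂ) • (E₁ * E₂ * G) ∧
      ‖R‖ < 1 ∧ (W - μ • (1 : A)) * G₁ = 1 + R + E₁ * E₂ * (T * G - 1) := by
  have n₁ := prm_norm e₁ e₁'
  have n₂ := prm_norm e₂ e₂'
  have nm : ∀ {x y : A}, ‖x‖ ≤ 1 → ‖y‖ ≤ 1 → ‖x * y‖ ≤ 1 := fun hx hy =>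
    (norm_mul_le _ _).trans (mul_le_one₀ hx (norm_nonneg _) hy)
  have c₁ : E₁ * (1 - E₁) = 0 := by rw [mul_sub, mul_one, e₁', sub_self]
  have c₂ : E₂ * (1 - E₂) = 0 := by rw [mul_sub, mul_one, e₂', sub_self]
  have l₂ : ∀ x y : A, Commute E₂ x → E₂ * (x * y) = x * (E₂ * y) := fun x y h => h.left_comm y
  have k : Commute E₂ (1 - E₁) := (Commute.one_right _).sub_right e₁₂.symm
  obtain ⟨G₁', h1, h2, h3⟩ := prm_alg (E₁ := E₁) (E₂ := E₂) (p₁ := E₁ * E₂)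
    (p₂ := (1 - E₁) * E₂) (p₃ := E₁ * (1 - E₂)) (p₄ := (1 - E₁) * (1 - E₂)) (G := G)
    (a := (1 / 2 : ℂ) • (T + star T)) (b := (-I / 2) • (T - star T)) (T := T) (by noncomm_ring)
    (by rw [← mul_assoc, e₁']) (by rw [← mul_assoc, c₁, zero_mul]) (by rw [← mul_assoc, e₁'])
    (by rw [← mul_assoc, c₁, zero_mul]) (by rw [l₂ _ _ e₁₂.symm, e₂']) (by rw [l₂ _ _ k, e₂'])
    (by rw [l₂ _ _ e₁₂.symm, c₂, mul_zero]) (by rw [l₂ _ _ k, c₂, mul_zero])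
    (by match_scalars <;> simp [Complex.ext_iff] <;> norm_num) (t₁.mul_right t₂)
    (g₁'.mul_right g₂') hG'
  set G₁ := (500 : ℂ) • (E₁ * E₂ * G) - (500 / 16 : ℂ) • ((1 - E₁) * E₂) +
    (500 / 16 * I) • (E₁ * (1 - E₂)) - (500 / 16 * ((1 - I) / 2)) • ((1 - E₁) * (1 - E₂)) with hG₁
  set R₁ := (I / 16) • ((1 / 2 : ℂ) • (T + star T) * (E₁ * (1 - E₂)) -
    (-I / 2) • (T - star T) * ((1 - E₁) * E₂)) with hR₁
  refine ⟨32 / 1000 * (1 + I), G₁, G₁', R₁ + (W - (2 * tre T * E₁ + I • (2 * tim T * E₂))) * G₁,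
    h1, h2, ?_, ?_⟩
  · have a1 : ‖(1 / 2 : ℂ) • (T + star T)‖ ≤ 2 := by
      have := norm_add_le T (star T)
      rw [norm_star] at this
      rw [norm_smul]
      simp only [one_div, norm_inv, Complex.norm_ofNat]
      linarith
    have a2 : ‖(-I / 2) • (T - star T)‖ ≤ 2 := by
      have := norm_sub_le T (star T)
      rw [norm_star] at this
      rw [norm_smul]
      simp only [norm_div, norm_neg, norm_I, Complex.norm_ofNat]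
      linarith
    have a3 : ‖R₁‖ ≤ 1 / 4 := by
      have b1 := (norm_mul_le _ _).trans (mul_le_mul a1 (nm n₁.1 n₂.2) (norm_nonneg _) zero_le_two)
      have b2 := (norm_mul_le _ _).trans (mul_le_mul a2 (nm n₁.2 n₂.1) (norm_nonneg _) zero_le_two)
      have b3 := (norm_sub_le _ _).trans (add_le_add b1 b2)
      rw [hR₁, norm_smul]
      simp only [norm_div, norm_I, Complex.norm_ofNat]
      linarith
    have sm : ∀ (c : ℂ) (r : ℝ) {x : A}, ‖c‖ ≤ r → ‖x‖ ≤ 1 → ‖c • x‖ ≤ r := fun c r x hc hx => by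
      rw [norm_smul]
      exact (mul_le_of_le_one_right (norm_nonneg _) hx).trans hc
    have a4 : ‖G₁‖ ≤ 500 + 500 / 16 + 500 / 16 + 500 / 16 := by
      refine norm_sub_le_of_le (norm_add_le_of_le (norm_sub_le_of_le
        (sm _ _ (by simp) (nm (nm n₁.1 n₂.1) hG)) (sm _ _ (by simp) (nm n₁.2 n₂.1)))
        (sm _ _ (by simp) (nm n₁.1 n₂.2))) (sm _ _ ?_ (nm n₁.2 n₂.2))
      have := norm_sub_le 1 I
      simp only [norm_one, norm_I] at this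
      simp only [norm_mul, norm_div, Complex.norm_ofNat]
      linarith
    have a5 := (norm_mul_le _ _).trans (mul_le_mul hW a4 (norm_nonneg _) (by norm_num))
    linarith [norm_add_le R₁ ((W - (2 * tre T * E₁ + I • (2 * tim T * E₂))) * G₁)]
  · rw [← add_assoc, add_right_comm, ← h3, ← add_mul, tre, tim]
    congr 1
    abel

end

end Crest.Agent.R78F
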