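import Crest.Agent.R78F.Fock
import Crest.Agent.R78F.Idx
import Crest.Agent.R78F.Par
import Crest.Agent.R78F.Near
import Crest.Agent.R78F.Prm

/-!
# Row 78: assembling S0104
-/

set_option autoImplicit false
set_option linter.unusedSectionVars false

namespace Crest.Agent.R78F

noncomputable section

variable {H : Type*} [NormedAddCommGroup H] [InnerProductSpace ℂ H] [CompleteSpace H]

/-- The commutant of a set of self-adjoint operators, as a von Neumann algebra. -/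
def vnc (S : Set (Op H)) : VonNeumannAlgebra H where
  toStarSubalgebra := StarSubalgebra.centralizer ℂ S
  centralizer_centralizer' := by
    change Set.centralizer (Set.centralizer
      ((StarSubalgebra.centralizer ℂ S : StarSubalgebra ℂ (Op H)) : Set (Op H))) =
      ((StarSubalgebra.centralizer ℂ S : StarSubalgebra ℂ (Op H)) : Set (Op H))
    rw [StarSubalgebra.coe_centralizer, Set.centralizer_centralizer_centralizer]

theorem mem_vnc {S : Set (Op H)} (hS : ∀ a ∈ S, star a = a) {y : Op H} :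
    y ∈ vnc S ↔ ∀ a ∈ S, Commute y a := by
  change y ∈ StarSubalgebra.centralizer ℂ S ↔ _
  rw [StarSubalgebra.mem_centralizer_iff]
  refine ⟨fun h a ha => (h a ha).1.symm, fun h a ha => ⟨(h a ha).eq.symm, ?_⟩⟩
  rw [hS a ha]; exact (h a ha).eq.symm

theorem main4 :
    ∃ ε₀ : ℝ, 0 < ε₀ ∧ ∀ δ : ℝ, 0 < δ →
      ∃ (H : Type) (_ : NormedAddCommGroup H) (_ : InnerProductSpace ℂ H) (_ : CompleteSpace H)
        (_ : TopologicalSpace.SeparableSpace H) (M N : VonNeumannAlgebra H),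
        (∀ x ∈ M, ‖x‖ ≤ 1 → ∃ y ∈ N, ‖x - y‖ < δ) ∧
        ∀ u : H →L[ℂ] H, u ∈ unitary (H →L[ℂ] H) →
          (∀ x ∈ M, u * x * star u ∈ N) → ε₀ ≤ ‖u - 1‖ := by
  refine ⟨1 / 100000, by norm_num, fun δ hδ => ?_⟩
  obtain ⟨T, N, J, G, G', hN, hJ, hT2, hN2, hd, hd', hG, hG', hs, hc, hc'⟩ :=
    exists_param (η := δ / 200) (by positivity)
  obtain ⟨H, i1, i2, i3, i4, D, D', π, ι, ε, hI, cm, cm', hE, hει, hεπ⟩ := exists_four (L2 ℤ ℂ)
  obtain ⟨n, hn⟩ : ∃ n : ℕ, (100000 : ℝ) ≤ √n := by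
    obtain ⟨n, hn⟩ := exists_nat_ge ((100000 : ℝ) ^ 2)
    exact ⟨n, Real.le_sqrt_of_sq_le hn⟩
  have hn0 : 0 < n := by
    rcases Nat.eq_zero_or_pos n with h | h
    · subst h; norm_num at hn
    · exact h
  have hπ : ∀ a, ‖π a‖ ≤ ‖a‖ := fun a => NonUnitalStarAlgHom.norm_apply_le π a
  have hT2' : ‖π T‖ ≤ 2 := (hπ _).trans hT2
  have hN2' : ‖π N‖ ≤ 2 := (hπ _).trans hN2
  have hdπ : ∀ a b, dev (π J) (π a) (π b) ≤ dev J a b := fun a b => by
    unfold dev
    rw [← map_mul, ← map_mul, ← map_sub]; exact hπ _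
  have hd1 : dev (π J) (π N) (π T) ≤ δ / 200 := (hdπ _ _).trans hd
  have hd2 : dev (π J) (star (π N)) (star (π T)) ≤ δ / 200 := by
    rw [← map_star, ← map_star]; exact (hdπ _ _).trans hd'
  set t₁ := tre (π T) with ht₁
  set t₂ := tim (π T) with ht₂
  let SM : Set (Op H) := {a | ∃ j < n, a = D.d j ∨ a = D'.X t₂ j}
  let SN : Set (Op H) := {a | ∃ j < n, a = D.X t₁ j ∨ a = D'.d j}
  have hSM : ∀ a ∈ SM, star a = a := by
    rintro a ⟨j, -, rfl | rfl⟩
    exacts [D.star_d j, D'.star_X _ j]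
  have hSN : ∀ a ∈ SN, star a = a := by
    rintro a ⟨j, -, rfl | rfl⟩
    exacts [D.star_X _ j, D'.star_d j]
  refine ⟨H, i1, i2, i3, i4, (vnc SM).commutant, vnc SN, fun x hx hx1 => ?_, fun u hu hMN => ?_⟩
  · have hπN : IsStarNormal (π N) := hN.map π
    obtain ⟨y, hy, hxy⟩ := near_incl hI (sm_tre hT2') (sm_tim hT2') (sm_tre hN2') (sm_tim hN2')
      (cm T).tre (cm' T).tre (cm T).tim (cm' T).tim (cm N).tre (cm' N).tre (cm N).tim (cm' N).tim
      (cm J) (cm' J) (commute_tre_tim hπN) (by rw [← map_star, ← map_mul, hJ, map_one])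
      (dev_tre hd1 hd2) (dev_tim hd1 hd2) n (x := x) (fun g hg => by
        rw [VonNeumannAlgebra.mem_commutant_iff] at hx
        refine hx g ((mem_vnc hSM).2 ?_)
        rintro a ⟨j, hj, rfl | rfl⟩
        exacts [(hg j hj).1, (hg j hj).2]) hx1
    refine ⟨y, (mem_vnc hSN).2 ?_, hxy.trans_lt (by linarith)⟩
    rintro a ⟨j, hj, rfl | rfl⟩
    exacts [(hy j hj).1, (hy j hj).2]
  · by_contra hlt
    push Not at hlt
    have hgen : ∀ a ∈ SM, ∀ b ∈ SN, Commute (u * a * star u) b := fun a ha =>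
      (mem_vnc hSN).1 (hMN a (by
        rw [VonNeumannAlgebra.mem_commutant_iff]
        exact fun g hg => ((mem_vnc hSM).1 hg a ha).eq))
    obtain ⟨W, hW, hWn⟩ := exists_normal_near hI (sm_tre hT2') (sm_tim hT2') (cm T).tre
      (cm' T).tre (cm T).tim (cm' T).tim hn0 hu hlt.le
      (fun j hj k hk => ⟨hgen _ ⟨j, hj, .inl rfl⟩ _ ⟨k, hk, .inl rfl⟩,
        hgen _ ⟨j, hj, .inl rfl⟩ _ ⟨k, hk, .inr rfl⟩⟩)
      (fun j hj k hk => ⟨hgen _ ⟨j, hj, .inr rfl⟩ _ ⟨k, hk, .inl rfl⟩,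
        hgen _ ⟨j, hj, .inr rfl⟩ _ ⟨k, hk, .inr rfl⟩⟩)
    have h8 : 8 / √(n : ℝ) ≤ 8 / 100000 := by gcongr
    have h31 : ‖tre (π T)‖ ^ 3 ≤ (18 / 1000) ^ 3 := by gcongr; exact norm_tre_le hT2'
    have h32 : ‖tim (π T)‖ ^ 3 ≤ (18 / 1000) ^ 3 := by gcongr; exact norm_tim_le hT2'
    obtain ⟨μ, G₁, G₁', R, hl, hQ, hR, hP⟩ := parametrix (T := π T) (G := π G) (G' := π G')
      (W := W) D.star_E D.E_mul_E D'.star_E D'.E_mul_E hI.E.E (cm T).E (cm' T).E (cm G).E
      (cm' G).E (cm G').E (cm' G').E hT2' ((hπ _).trans hG) (by rw [← map_mul, hG', map_one])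
      (hWn.trans (by linarith))
    have hF : ∀ a : Op (L2 ℤ ℂ), D.E * D'.E * π a = ι ∘L a ∘L ε := fun a => by
      ext1 ξ
      change (D.E * D'.E) (π a ξ) = ι (a (ε ξ))
      rw [hE, hεπ]
    have hTG : π T * π G - 1 = π (T * G - 1) := by rw [map_sub, map_mul, map_one]
    have hQs : star (D.E * D'.E) = D.E * D'.E := by
      rw [star_mul, D.star_E, D'.star_E, hI.E.E.eq]
    have hnormal : IsStarNormal (W - μ • (1 : Op H)) := by
      refine ⟨?_⟩
      rw [star_sub, star_smul, star_one]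
      exact (hW.star_comm_self.sub_left ((Commute.one_left W).smul_left _)).sub_right
        ((Commute.one_right _).smul_right _)
    refine idx_false hnormal hP hR ?_ ?_ ?_ ?_
    · rw [hTG, hF]
      exact (hc.comp_clm ε).clm_comp ι
    · rw [hTG, star_mul, hQs, ← map_star, ((cm _).E.mul_right (cm' _).E).eq, hF]
      exact (hc'.comp_clm ε).clm_comp ι
    · exact Function.LeftInverse.injective (g := G₁') fun ξ => by
        change (G₁' * G₁) ξ = ξ
        rw [hl]; rfl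
    · intro hsurj
      refine hs fun x => ?_
      obtain ⟨ξ, hξ⟩ := hsurj (ι x)
      refine ⟨(500 : ℂ) • ε ξ, ?_⟩
      have h1 := congrArg (fun S : Op H => ε (S ξ)) hQ
      simp only [hF] at h1
      change ε ((D.E * D'.E) (G₁ ξ)) = ε ((500 : ℂ) • ι (G (ε ξ))) at h1
      rw [hξ, hE, hει, hει, map_smul, hει] at h1
      rw [map_smul, ← h1]

end

end Crest.Agent.R78F
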