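import Crest.Agent.R78F.Conc

/-!
# Row 78 (S0105): non-conjugacy and assembly
-/

set_option autoImplicit false
set_option linter.unusedSectionVars false

open Finset

namespace Crest.Agent.R78F

noncomputable section

variable {τ : ℝ} {n : ℕ}

/-- Non-conjugacy.  With `π = amp ℕ`: `a j = u⋆ π(X j) u ∈ A`, `v j = u⋆ π(d j) u ∈ A'`,
`y k = u⋆ (eu k k) u ∈ A ∩ A'`.  Approximate `a j` (`j < n`) within `κ = τ / 8` by `a' j` with
blocks equal to `amp (b j)` for `m ≥ M`; choose `k` with `c k m = 0` for `m < M`, so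
`y k * a' j = y k * π (amp (b j))`.  With `ι = sg M ∘ sg []`, `ε = ev [] ∘ ev M` and
`R j = ε ∘ u⋆ π(L j) u ∘ ι` one has `b j = ε ∘ a' j ∘ ι`, `‖b j - (R j + (R j)⋆)‖ ≤ κ`, and `R` is a
row contraction.  Compare `upper_bound` with `lower_bound`:
`y k * ∑ a j * v j = u⋆ (eu k k * π (∑ X j * d j)) u`. -/
theorem not_conj (h0 : 0 < τ) (h1 : τ ≤ 1 / 20) (hn : 16 / τ < √n) :
    ¬ ∃ u : Op (L2 ℕ H0), u ∈ unitary (Op (L2 ℕ H0)) ∧
      ∀ y : Op (L2 ℕ H0), y ∈ AA (DD τ) (S1 τ n) ↔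
        ∃ x ∈ AA (DD τ) (S0 n), y = u * x * star u := by
  rintro ⟨u, hu, hAB⟩
  have hu1 : star u * u = 1 := Unitary.star_mul_self_of_mem hu
  have hu2 : u * star u = 1 := Unitary.mul_star_self_of_mem hu
  have hun : ‖u‖ ≤ 1 := norm_le_one_of_isom hu1
  have hun' : ‖star u‖ ≤ 1 := by rwa [norm_star]
  have hconj : ∀ z : Op (L2 ℕ H0), ‖star u * z * u‖ ≤ ‖z‖ := fun z => by
    calc ‖star u * z * u‖ ≤ ‖star u‖ * ‖z‖ * ‖u‖ :=
          (norm_mul_le _ _).trans (by gcongr; exact norm_mul_le _ _)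
      _ ≤ 1 * ‖z‖ * 1 := by gcongr
      _ = _ := by ring
  have hconj' : ∀ z : Op (L2 ℕ H0), ‖z‖ ≤ ‖star u * z * u‖ := fun z => by
    calc ‖z‖ = ‖u * (star u * z * u) * star u‖ := by
          rw [← mul_assoc, ← mul_assoc, hu2, one_mul, mul_assoc, hu2, mul_one]
      _ ≤ ‖u‖ * ‖star u * z * u‖ * ‖star u‖ :=
          (norm_mul_le _ _).trans (by gcongr; exact norm_mul_le _ _)
      _ ≤ 1 * ‖star u * z * u‖ * 1 := by gcongr
      _ = _ := by ring
  have hmul : ∀ z z' : Op (L2 ℕ H0),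
      (star u * z * u) * (star u * z' * u) = star u * (z * z') * u := fun z z' => by
    calc (star u * z * u) * (star u * z' * u) = star u * z * (u * star u) * z' * u := by
          simp only [mul_assoc]
      _ = _ := by rw [hu2, mul_one, mul_assoc (star u)]
  -- pulling back elements of `B` and of `B'`
  have hA : ∀ z ∈ AA (DD τ) (S1 τ n), star u * z * u ∈ AA (DD τ) (S0 n) := fun z hz => by
    obtain ⟨x, hx, rfl⟩ := (hAB z).1 hz
    have : star u * (u * x * star u) * u = x := by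
      rw [← mul_assoc, ← mul_assoc, hu1, one_mul, mul_assoc, hu1, mul_one]
    rwa [this]
  have hA' : ∀ g : Op (L2 ℕ H0), (∀ z ∈ AA (DD τ) (S1 τ n), Commute g z) →
      ∀ a ∈ AA (DD τ) (S0 n), Commute (star u * g * u) a := fun g hg a ha => by
    have h := hg _ ((hAB _).2 ⟨a, ha, rfl⟩)
    have ha' : star u * (u * a * star u) * u = a := by
      rw [← mul_assoc, ← mul_assoc, hu1, one_mul, mul_assoc, hu1, mul_one]
    rw [← ha']
    change _ * _ = _ * _
    rw [hmul, hmul, h.eq]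
  have hsm := sm_tt h0 h1
  set X := (two ℂ).X (tt τ) with hX
  set d := (two ℂ).d with hd
  set L := (two ℂ).L (tt τ) with hL
  let a : ℕ → Op (L2 ℕ H0) := fun j => star u * amp ℕ (X j) * u
  let v : ℕ → Op (L2 ℕ H0) := fun j => star u * amp ℕ (d j) * u
  let y : ℕ → Op (L2 ℕ H0) := fun k => star u * eu k k * u
  have ha : ∀ j < n, a j ∈ AA (DD τ) (S0 n) := fun j hj =>
    have hx : X j ∈ S1 τ n := StarAlgebra.subset_adjoin ℂ _ ⟨j, hj, rfl⟩
    hA _ (amp_mem_AA (S1_le τ n hx) hx)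
  have hv : ∀ j, ∀ x ∈ AA (DD τ) (S0 n), Commute (v j) x := fun j =>
    hA' _ fun z hz => commute_of_blk (blk_amp _) (fun _ x hx => commute_d_DD h0 h1 j hx) hz
  have hy : ∀ k, y k ∈ AA (DD τ) (S0 n) := fun k => hA _ (eu_mem_AA k)
  have hy' : ∀ k, ∀ x ∈ AA (DD τ) (S0 n), Commute (y k) x := fun k =>
    hA' _ fun z hz => commute_of_blk (blk_eu k) (fun m x _ => by
      split_ifs
      exacts [Commute.one_left _, Commute.zero_left _]) hz
  choose c hc using fun k => blk_scalar h0 h1 (hy k) (hy' k)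
  have ho : ∀ k k', k ≠ k' → y k * y k' = 0 := fun k k' h => by
    rw [hmul, eu_mul_eu, if_neg h, mul_zero, zero_mul]
  -- approximation
  have hκ : 0 < τ / 8 := by positivity
  have happ : ∀ j, ∃ (a' : Op (L2 ℕ H0)) (e : ℕ → Op H0) (b : Op H1) (M : ℕ), j < n →
      ‖a j - a'‖ ≤ τ / 8 ∧ Blk a' e ∧ ∀ k, M ≤ k → e k = amp (List ℕ) b := fun j => by
    by_cases hj : j < n
    · obtain ⟨a', e, x, M, h1, h2, -, h4, h5⟩ := exists_approx (ha j hj) hκ
      obtain ⟨b, rfl⟩ := exists_amp_of_mem_S0 h4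
      exact ⟨a', e, b, M, fun _ => ⟨h1, h2, h5⟩⟩
    · exact ⟨0, 0, 0, 0, fun h => absurd h hj⟩
  choose a' e b Mj hab using happ
  set M := (range n).sup Mj with hM
  have hMj : ∀ j < n, Mj j ≤ M := fun j hj => Finset.le_sup (f := Mj) (mem_range.2 hj)
  obtain ⟨k, hk⟩ := exists_far hc ho M
  let Φ : Op H1 →⋆ₐ[ℂ] Op (L2 ℕ H0) := (amp ℕ).comp (amp (List ℕ))
  have hΦ : ∀ z, Φ z = amp ℕ (amp (List ℕ) z) := fun _ => rfl
  have hΦn : ∀ z, ‖Φ z‖ ≤ ‖z‖ := fun z => (norm_amp_le _).trans (norm_amp_le _)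
  let ι : H1 →L[ℂ] L2 ℕ H0 := sg M ∘L sg []
  let ε : L2 ℕ H0 →L[ℂ] H1 := ev [] ∘L ev M
  have hι : ‖ι‖ ≤ 1 := ContinuousLinearMap.opNorm_le_bound _ zero_le_one fun x => by simp [ι]
  have hε : ‖ε‖ ≤ 1 := ContinuousLinearMap.opNorm_le_bound _ zero_le_one fun x => by
    rw [one_mul]; exact (norm_ev_apply_le _ _).trans (norm_ev_apply_le _ _)
  have hcomp : ∀ z : Op (L2 ℕ H0), ‖(ε ∘L z ∘L ι : Op H1)‖ ≤ ‖z‖ := fun z =>
    calc ‖(ε ∘L z ∘L ι : Op H1)‖ ≤ ‖ε‖ * (‖z‖ * ‖ι‖) :=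
          (ContinuousLinearMap.opNorm_comp_le _ _).trans
            (by gcongr; exact ContinuousLinearMap.opNorm_comp_le _ _)
      _ ≤ 1 * (‖z‖ * 1) := by gcongr
      _ = _ := by ring
  have hstar : ∀ z : Op (L2 ℕ H0), star (ε ∘L z ∘L ι : Op H1) = ε ∘L star z ∘L ι := fun z => by
    simp only [ε, ι, ContinuousLinearMap.star_eq_adjoint, ContinuousLinearMap.adjoint_comp,
      adjoint_sg, adjoint_ev, ContinuousLinearMap.comp_assoc]
  let r : ℕ → Op (L2 ℕ H0) := fun j => star u * amp ℕ (L j) * u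
  have hr : Row n r := row_of_orth fun i j => by
    have : star (r i) = star u * star (amp ℕ (L i)) * u := by
      simp only [r, star_mul, star_star, mul_assoc]
    rw [this, hmul, ← map_star, ← map_mul, (two ℂ).L_orth hsm (cm_tt τ)]
    split_ifs <;> simp [hu1]
  let R : ℕ → Op H1 := fun j => ε ∘L r j ∘L ι
  have hR : Row n (fun j => Φ (R j)) := (hr.compress ε ι hε hι).map Φ
  have hyn : ‖y k‖ ≤ 1 := (hconj _).trans (norm_eu_le _ _)
  have hub := upper_bound (y := y k) (a := a) (v := v) (p := fun j => Φ (b j)) (κ := τ / 8) hyn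
    (fun j _ => (hconj _).trans ((norm_amp_le _).trans ((two ℂ).norm_d_le j)))
    (fun j hj => by
      obtain ⟨h1, h2, h3⟩ := hab j hj
      have : y k * a' j = y k * Φ (b j) := by
        refine ((hc k).mul h2).unique (((hc k).mul (blk_amp _)).congr fun m => ?_)
        by_cases hm : m < M
        · simp [hk m hm]
        · simp only [Pi.mul_apply]
          rw [h3 m ((hMj j hj).trans (not_lt.1 hm))]
          rfl
      rw [← this, ← mul_sub]
      calc _ ≤ ‖y k‖ * ‖a j - a' j‖ := norm_mul_le _ _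
        _ ≤ 1 * (τ / 8) := by gcongr
        _ = _ := one_mul _)
    (fun j hj => by
      obtain ⟨h1, h2, h3⟩ := hab j hj
      have e1 : b j = ε ∘L a' j ∘L ι := by
        ext1 x
        simp only [ε, ι, ContinuousLinearMap.comp_apply]
        rw [h2 M, h3 M (hMj j hj)]
        simp
      have e2 : R j + star (R j) = ε ∘L a j ∘L ι := by
        have : a j = r j + star (r j) := by
          simp only [a, r, hX, Two.X, hL, map_add, map_star, star_mul, star_star, mul_add, add_mul,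
            mul_assoc]
        rw [this, hstar, ContinuousLinearMap.add_comp, ContinuousLinearMap.comp_add]
      rw [← map_star, ← map_add, ← map_sub, e1, e2]
      refine (hΦn _).trans ?_
      rw [← ContinuousLinearMap.comp_sub, ← ContinuousLinearMap.sub_comp]
      refine (hcomp _).trans ?_
      rwa [norm_sub_rev]) hR
    (fun j _ => by rw [← map_star, hΦ]; exact commute_amp_amp (hv j) _)
  have hlb := lower_bound h0 h1 n
  have hsum : y k * ∑ j ∈ range n, a j * v j =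
      star u * (eu k k * amp ℕ (∑ j ∈ range n, X j * d j)) * u := by
    have : ∑ j ∈ range n, a j * v j = star u * amp ℕ (∑ j ∈ range n, X j * d j) * u := by
      rw [map_sum, Finset.mul_sum, Finset.sum_mul]
      exact Finset.sum_congr rfl fun j _ => by rw [hmul, map_mul]
    rw [this, hmul]
  have hblk := ((blk_eu k).mul (blk_amp (ι := ℕ) (∑ j ∈ range n, X j * d j))).norm_blk_le k
  simp only [Pi.mul_apply, if_true, one_mul] at hblk
  have hfin : n * τ - 4 * √n ≤ 4 * n * (τ / 8) + 4 * √n := by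
    rw [hsum] at hub
    exact hlb.trans (hblk.trans ((hconj' _).trans hub))
  have hsq : √(n : ℝ) * √n = n := Real.mul_self_sqrt (Nat.cast_nonneg n)
  have hpos : 0 < √(n : ℝ) := lt_trans (by positivity) hn
  rw [div_lt_iff₀ h0] at hn
  nlinarith

theorem main5 (ε : ℝ) (hε : 0 < ε) :
    ∃ (H : Type) (_ : NormedAddCommGroup H) (_ : InnerProductSpace ℂ H) (_ : CompleteSpace H)
      (_ : TopologicalSpace.SeparableSpace H) (A B : StarSubalgebra ℂ (H →L[ℂ] H)),
      IsClosed (A : Set (H →L[ℂ] H)) ∧ IsClosed (B : Set (H →L[ℂ] H)) ∧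
      TopologicalSpace.IsSeparable (A : Set (H →L[ℂ] H)) ∧
      TopologicalSpace.IsSeparable (B : Set (H →L[ℂ] H)) ∧
      (∀ a ∈ A, ‖a‖ ≤ 1 → ∃ b ∈ B, ‖b‖ ≤ 1 ∧ ‖a - b‖ < ε) ∧
      (∀ b ∈ B, ‖b‖ ≤ 1 → ∃ a ∈ A, ‖a‖ ≤ 1 ∧ ‖b - a‖ < ε) ∧
      Set.centralizer (Set.centralizer (A : Set (H →L[ℂ] H))) =
        Set.centralizer (Set.centralizer (B : Set (H →L[ℂ] H))) ∧
      ¬ ∃ u : H →L[ℂ] H, u ∈ unitary (H →L[ℂ] H) ∧
          ∀ y : H →L[ℂ] H, y ∈ B ↔ ∃ x ∈ A, y = u * x * star u := by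
  obtain ⟨τ, h0, h1, h2⟩ : ∃ τ : ℝ, 0 < τ ∧ τ ≤ 1 / 20 ∧ 4 * (40 * τ) < ε :=
    ⟨min (1 / 20) (ε / 200), by positivity, min_le_left _ _, by
      have := min_le_right (1 / 20) (ε / 200); linarith⟩
  obtain ⟨n, hn⟩ : ∃ n : ℕ, 16 / τ < √n := by
    obtain ⟨n, hn⟩ := exists_nat_gt ((16 / τ) ^ 2)
    exact ⟨n, Real.lt_sqrt_of_sq_lt hn⟩
  have hD := isSeparable_adjoin (countable_genD τ)
  refine ⟨L2 ℕ H0, inferInstance, inferInstance, inferInstance, inferInstance,
    AA (DD τ) (S0 n), AA (DD τ) (S1 τ n), isClosed_AA, isClosed_AA, isSeparable_AA hD,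
    isSeparable_AA hD,
    fun a ha ha1 => close_AA (S1_le τ n) (by positivity) h2 (close_S0 h0 h1 n) ha ha1,
    fun a ha ha1 => close_AA (S0_le τ n) (by positivity) h2 (close_S1 h0 h1 n) ha ha1, ?_,
    not_conj h0 h1 hn⟩
  rw [centralizer_AA (S' := S1 τ n)]

end

end Crest.Agent.R78F
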