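import Crest.Agent.R78F.Est

/-!
# Row 78 (S0104): the obstruction (algebraic part)
-/

set_option autoImplicit false
set_option linter.unusedSectionVars false

open Complex Finset

namespace Crest.Agent.R78F

noncomputable section

variable {A : Type*} [CStarAlgebra A]

/-- `τ (γ + Re T)` with `τ = 1/1000`, `γ = 16`. -/
def tre (T : A) : A := (1 / 1000 : ℂ) • ((16 : ℂ) • (1 : A) + (1 / 2 : ℂ) • (T + star T))

/-- `τ (γ + Im T)`. -/
def tim (T : A) : A := (1 / 1000 : ℂ) • ((16 : ℂ) • (1 : A) + (-I / 2) • (T - star T))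

theorem obs_norm {c : ℂ} {S : A} (hc : ‖c‖ = 1 / 2) (h : ‖S‖ ≤ 4) :
    ‖(1 / 1000 : ℂ) • ((16 : ℂ) • (1 : A) + c • S)‖ ≤ 18 / 1000 := by
  have h1 := norm_add_le ((16 : ℂ) • (1 : A)) (c • S)
  rw [norm_smul, norm_smul, hc, Complex.norm_ofNat] at h1
  rw [norm_smul, norm_div, norm_one, Complex.norm_ofNat]
  linarith [norm_one_le' (A := A)]

theorem obs_dev {c : ℂ} {J S S' : A} {η : ℝ} (hc : ‖c‖ = 1 / 2) (h : dev J S S' ≤ η + η) :
    dev J ((1 / 1000 : ℂ) • ((16 : ℂ) • (1 : A) + c • S))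
      ((1 / 1000 : ℂ) • ((16 : ℂ) • (1 : A) + c • S')) ≤ η / 1000 := by
  have h1 := dev_add J ((16 : ℂ) • (1 : A)) ((16 : ℂ) • (1 : A)) (c • S) (c • S')
  rw [dev_smul, dev_smul, dev_of_commute (Commute.one_right J), hc] at h1
  rw [dev_smul, norm_div, norm_one, Complex.norm_ofNat]
  linarith

theorem norm_tre_le {T : A} (h : ‖T‖ ≤ 2) : ‖tre T‖ ≤ 18 / 1000 := by
  exact obs_norm (by simp) ((norm_add_le _ _).trans (by rw [norm_star]; linarith))

theorem norm_tim_le {T : A} (h : ‖T‖ ≤ 2) : ‖tim T‖ ≤ 18 / 1000 := by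
  exact obs_norm (by simp) ((norm_sub_le _ _).trans (by rw [norm_star]; linarith))

theorem sm_tre {T : A} (h : ‖T‖ ≤ 2) : Sm (tre T) := by
  refine ⟨?_, (norm_tre_le h).trans (by norm_num)⟩
  simp [tre, add_comm]

theorem sm_tim {T : A} (h : ‖T‖ ≤ 2) : Sm (tim T) := by
  refine ⟨?_, (norm_tim_le h).trans (by norm_num)⟩
  have e : star ((-I / 2) • (T - star T)) = (-I / 2) • (T - star T) := by
    rw [star_smul, star_sub, star_star, ← neg_sub, smul_neg, ← neg_smul]
    simp [neg_div]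
  rw [tim, star_smul, star_add, e]
  simp

theorem Two.Cm.tre {D : Two A} {T : A} (h : D.Cm T) : D.Cm (tre T) :=
  (((Two.Cm.one D).smul _).add ((h.add h.star).smul _)).smul _

theorem Two.Cm.tim {D : Two A} {T : A} (h : D.Cm T) : D.Cm (tim T) :=
  (((Two.Cm.one D).smul _).add ((h.sub h.star).smul _)).smul _

theorem commute_tre_tim {N : A} (h : IsStarNormal N) : Commute (tre N) (tim N) := by
  have h1 := h.star_comm_self
  have h2 : Commute (N + star N) (N - star N) :=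
    ((Commute.refl N).sub_right h1.symm).add_left (h1.sub_right (Commute.refl _))
  exact ((((Commute.one_left _).smul_left _).add_left ((((Commute.one_right _).smul_right _).add_right
    (h2.smul_right _)).smul_left _)).smul_left _).smul_right _

theorem dev_tre {J N T : A} {η : ℝ} (h : dev J N T ≤ η) (h' : dev J (star N) (star T) ≤ η) :
    dev J (tre N) (tre T) ≤ η / 1000 := by
  exact obs_dev (by simp) ((dev_add ..).trans (add_le_add h h'))

theorem dev_tim {J N T : A} {η : ℝ} (h : dev J N T ≤ η) (h' : dev J (star N) (star T) ≤ η) :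
    dev J (tim N) (tim T) ≤ η / 1000 := by
  exact obs_dev (by simp) ((dev_sub ..).trans (add_le_add h h'))

theorem obs_conj {u a : A} (hu : u ∈ unitary A) {ε : ℝ} (hε : ‖u - 1‖ ≤ ε) (ha : ‖a‖ ≤ 2) :
    ‖u * a * star u - a‖ ≤ 4 * ε := by
  have e : u * a * star u - a = ((u - 1) * a - a * (u - 1)) * star u := by
    have := Unitary.mul_star_self_of_mem hu
    rw [sub_mul, sub_mul, sub_mul, mul_sub, sub_mul, mul_assoc a u, this]
    simp
  rw [e, CStarRing.norm_mul_mem_unitary _ (Unitary.star_mem hu)]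
  linarith [norm_sub_le ((u - 1) * a) (a * (u - 1)), norm_mul_le_of_le hε ha, norm_mul_le_of_le ha hε]

theorem obs_sa {n : ℕ} {y : ℕ → A} (h : ∀ j < n, star (y j) = y j) :
    star ((n : ℂ)⁻¹ • ∑ j ∈ range n, y j) = (n : ℂ)⁻¹ • ∑ j ∈ range n, y j := by
  rw [star_smul, star_sum, sum_congr rfl fun j hj => h j (mem_range.1 hj)]
  simp

theorem obs_near (D : Two A) {t : A} (ht : Sm t) (hc : D.Cm t) {n : ℕ} (hn : 0 < n) {y : ℕ → A}
    {η : ℝ} (h : ∀ j, ‖y j - D.X t j * D.d j‖ ≤ η) :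
    ‖(n : ℂ)⁻¹ • ∑ j ∈ range n, y j - 2 * t * D.E‖ ≤ η + 4 / √n + 3 * ‖t‖ ^ 3 := by
  have hn' : (0 : ℝ) < n := by exact_mod_cast hn
  have e : (n : ℂ)⁻¹ • ∑ j ∈ range n, y j - 2 * t * D.E =
      (n : ℂ)⁻¹ • ∑ j ∈ range n, (y j - D.X t j * D.d j) +
        (n : ℂ)⁻¹ • (∑ j ∈ range n, D.X t j * D.d j - (n : ℂ) • (ss t * D.E)) +
        (ss t - 2 * t) * D.E := by
    rw [sum_sub_distrib, smul_sub, smul_sub, inv_smul_smul₀ (Nat.cast_ne_zero.2 hn.ne'), sub_mul]
    abel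
  rw [e]
  refine norm_add_le_of_le (norm_add_le_of_le ?_ ?_)
    ((norm_mul_le_of_le ht.norm_ss_sub_le D.norm_E_le).trans_eq (mul_one _))
  · rw [norm_smul, norm_inv, Complex.norm_natCast, inv_mul_le_iff₀ hn']
    simpa using norm_sum_le_of_le (range n) fun j _ => h j
  · rw [norm_smul, norm_inv, Complex.norm_natCast, inv_mul_le_iff₀ hn', ← mul_div_assoc,
      mul_comm (n : ℝ), mul_div_assoc, Real.div_sqrt]
    exact D.norm_sum_X_d ht hc n

/-- If a unitary near `1` implements the inclusion, `W = Y + i Z` with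
`Y = n⁻¹ ∑ X¹_j (u d¹_j u⋆)` and `Z = n⁻¹ ∑ (u X²_j u⋆) d²_j` (commuting self-adjoint elements)
is a normal element near `2 t₁ E₁ + 2 i t₂ E₂`. -/
theorem exists_normal_near {D D' : Two A} (hI : D.Ind D') {t₁ t₂ u : A}
    (s₁ : Sm t₁) (s₂ : Sm t₂) (c₁ : D.Cm t₁) (c₁' : D'.Cm t₁) (c₂ : D.Cm t₂) (c₂' : D'.Cm t₂)
    {n : ℕ} (hn : 0 < n) (hu : u ∈ unitary A) {ε : ℝ} (hε : ‖u - 1‖ ≤ ε)
    (h₁ : ∀ j < n, ∀ k < n, Commute (u * D.d j * star u) (D.X t₁ k) ∧
      Commute (u * D.d j * star u) (D'.d k))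
    (h₂ : ∀ j < n, ∀ k < n, Commute (u * D'.X t₂ j * star u) (D.X t₁ k) ∧
      Commute (u * D'.X t₂ j * star u) (D'.d k)) :
    ∃ W : A, IsStarNormal W ∧ ‖W - (2 * t₁ * D.E + I • (2 * t₂ * D'.E))‖ ≤
      16 * ε + 8 / √n + 3 * ‖t₁‖ ^ 3 + 3 * ‖t₂‖ ^ 3 := by
  have hsa : ∀ a : A, star a = a → star (u * a * star u) = u * a * star u := fun a ha => by
    rw [star_mul, star_mul, star_star, ha, mul_assoc]
  set Y := (n : ℂ)⁻¹ • ∑ j ∈ range n, D.X t₁ j * (u * D.d j * star u) with hY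
  set Z := (n : ℂ)⁻¹ • ∑ j ∈ range n, u * D'.X t₂ j * star u * D'.d j with hZ
  have hYs : star Y = Y := obs_sa fun j hj => by
    rw [star_mul, hsa _ (D.star_d j), D.star_X, (h₁ j hj j hj).1.eq]
  have hZs : star Z = Z := obs_sa fun j hj => by
    rw [star_mul, hsa _ (D'.star_X _ j), D'.star_d, (h₂ j hj j hj).2.eq]
  have hYZ : Commute Y Z := by
    refine ((Commute.sum_left _ _ _ fun j hj => Commute.sum_right _ _ _ fun k hk => ?_).smul_left
      _).smul_right _
    rw [mem_range] at hj hk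
    refine ((h₂ k hk j hj).1.symm.mul_right ((hI.X c₁' j).d k)).mul_left
      (Commute.mul_right ?_ (h₁ j hj k hk).2)
    have h3 := ((hI.d j).X s₂.sa (c₂.d j).symm k).eq
    have h4 : ∀ a : A, star u * (u * a) = a := fun a => by
      rw [← mul_assoc, Unitary.star_mul_self_of_mem hu, one_mul]
    change _ * _ = _ * _
    simp only [mul_assoc, h4]
    rw [← mul_assoc (D.d j), h3, mul_assoc]
  refine ⟨Y + I • Z, ⟨?_⟩, ?_⟩
  · rw [star_add, hYs, star_smul, hZs]
    exact ((Commute.refl Y).add_right (hYZ.smul_right _)).add_left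
      ((hYZ.symm.add_right ((Commute.refl Z).smul_right _)).smul_left _)
  · have e1 := obs_near D s₁ c₁ hn (y := fun j => D.X t₁ j * (u * D.d j * star u)) (η := 8 * ε)
      fun j => by
        rw [← mul_sub]
        refine (norm_mul_le_of_le (D.norm_X_le s₁ c₁ j) (obs_conj hu hε (D.norm_d_le j))).trans_eq ?_
        ring
    have e2 := obs_near D' s₂ c₂' hn (y := fun j => u * D'.X t₂ j * star u * D'.d j) (η := 8 * ε)
      fun j => by
        rw [← sub_mul]
        refine (norm_mul_le_of_le (obs_conj hu hε (D'.norm_X_le s₂ c₂' j)) (D'.norm_d_le j)).trans_eq ?_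
        ring
    rw [add_sub_add_comm, ← smul_sub]
    refine (norm_add_le _ _).trans ?_
    rw [norm_smul, norm_I, one_mul, show 8 / √n = 4 / √n + 4 / √n by ring]
    linarith

end

end Crest.Agent.R78F
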