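import Crest.Agent.R78F.Row

/-!
# Row 78 (S0104, S0105): the algebraic relations of the deformation

Notation of the paper proof: `s = ss t`, `c = cc t`, `μ_j = P λ_j`, `T = ∑_{i<n} r_i λ_i⋆`,
`L_j = l_j (1 - P) + c l_j P + s μ_j`, `B = (1 - s T⋆)⁻¹`, `C = c + (1 - c) P`,
`V = -s T + c C B`.
-/

set_option autoImplicit false
set_option linter.unusedSectionVars false

open Finset

namespace Crest.Agent.R78F

noncomputable section

variable {A : Type*} [CStarAlgebra A]

theorem Sm.isUnit {t : A} (ht : Sm t) : IsUnit (1 + t * t) := by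
  have h : ‖-(t * t)‖ < 1 := by
    rw [norm_neg]
    nlinarith [norm_mul_le t t, ht.le, norm_nonneg t]
  simpa using (Units.oneSub _ h).isUnit

theorem Sm.hh_mul {t : A} (ht : Sm t) : hh t * (1 + t * t) = 1 :=
  Ring.inverse_mul_cancel _ ht.isUnit

theorem Sm.star_hh {t : A} (ht : Sm t) : star (hh t) = hh t := by
  rw [hh, ← Ring.inverse_star, star_add, star_one, star_mul, ht.sa]

theorem Sm.star_ss {t : A} (ht : Sm t) : star (ss t) = ss t := by
  rw [ss, star_mul, star_mul, ht.star_hh, ht.sa, star_ofNat, ← (commute_hh (Commute.refl t)).eq,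
    (commute_two _).eq]

theorem Sm.star_cc {t : A} (ht : Sm t) : star (cc t) = cc t := by
  rw [cc, star_sub, star_mul, ht.star_hh, star_ofNat, star_one, (commute_two _).eq]

theorem commute_ss_cc (t : A) : Commute (ss t) (cc t) := by
  exact commute_cc (commute_ss (Commute.refl t)).symm

theorem Sm.sq_add_sq {t : A} (ht : Sm t) : cc t * cc t + ss t * ss t = 1 := by
  have h1 := ht.hh_mul
  have hc := (commute_hh (Commute.refl t)).eq
  unfold cc ss
  generalize hh t = h at h1 hc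
  have e : t * (h * (t * h)) = h * (h * (t * t)) := by
    rw [hc, ← mul_assoc, hc, mul_assoc, ← mul_assoc t h t, hc, mul_assoc]
  calc (2 * h - 1) * (2 * h - 1) + 2 * (t * h) * (2 * (t * h))
      = 4 * (h * h) - 4 * h + 1 + 4 * (t * (h * (t * h))) := by noncomm_ring
    _ = 4 * (h * (h * (1 + t * t))) - 4 * h + 1 := by rw [e]; noncomm_ring
    _ = 1 := by rw [h1, mul_one, sub_self, zero_add]

namespace Two

variable (D : Two A) {t : A} {n : ℕ}

theorem T_mul_l (n j : ℕ) : D.T n * D.S.l j = D.S.l j * D.T n := by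
  rw [T, sum_mul, mul_sum]
  refine sum_congr rfl fun i _ => ?_
  rw [mul_assoc, ← ((D.ind.l j).ls i).eq, ← mul_assoc, ← D.S.lr, mul_assoc]

theorem star_T_eq (n : ℕ) : star (D.T n) = ∑ i ∈ range n, D.S'.l i * star (D.S.r i) := by
  simp only [T, star_sum, star_mul, star_star]

theorem star_T_mul_l {j : ℕ} (hj : j < n) :
    star (D.T n) * D.S.l j = D.S.l j * star (D.T n) + D.μ j := by
  have e : D.μ j = ∑ i ∈ range n, D.S'.l i * if i = j then D.S.P else 0 := by
    simp only [mul_ite, mul_zero, sum_ite_eq', mem_range, hj, if_true]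
    exact (D.ind.P.l j).eq
  rw [star_T_eq, sum_mul, mul_sum, e, ← sum_add_distrib]
  refine sum_congr rfl fun i _ => ?_
  rw [mul_assoc, D.S.rl, mul_add, ← mul_assoc, ← ((D.ind.l j).l i).eq, mul_assoc]

theorem P_mul_T (n : ℕ) : D.S.P * D.T n = 0 := by
  simp only [T, mul_sum, ← mul_assoc, D.S.Pr, zero_mul, sum_const_zero]

theorem star_μ_eq (j : ℕ) : star (D.μ j) = D.S.P * star (D.S'.l j) := by
  rw [μ, star_mul, D.S.Pstar, (D.ind.P.ls j).eq]

theorem star_μ_mul_star_T {j : ℕ} (hj : j < n) :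
    star (D.μ j) * star (D.T n) = D.S.P * star (D.S.l j) := by
  rw [star_μ_eq, star_T_eq, mul_assoc, mul_sum, ← D.S.Prl]
  simp only [← mul_assoc, D.S'.ll, ite_mul, one_mul, zero_mul, sum_ite_eq, mem_range, hj, if_true]

/-- `T⋆ T = ∑ λ_i λ_i⋆`. -/
theorem norm_T_le (n : ℕ) : ‖D.T n‖ ≤ 1 := by
  have h := norm_sum_mul_le (range n) D.S.r fun i => star (D.S'.l i)
  simp only [star_star] at h
  refine h.trans (mul_le_one₀ (Real.sqrt_le_one.2 (row_of_orth D.S.rr)) (Real.sqrt_nonneg _)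
    (Real.sqrt_le_one.2 (row_of_orth D.S'.ll)))

theorem norm_E_le : ‖D.E‖ ≤ 1 := norm_le_one_of_proj D.star_E D.E_mul_E

theorem L_eq (hc : D.Cm t) (j : ℕ) :
    D.L t j = D.S.l j * (1 - D.S.P + cc t * D.S.P) + ss t * D.μ j := by
  rw [L, mul_add, ← mul_assoc (D.S.l j), ← (hc.1.cc.l j).eq, mul_assoc]

theorem star_L_eq (ht : Sm t) (hc : D.Cm t) (j : ℕ) :
    star (D.L t j) = (1 - D.S.P + cc t * D.S.P) * star (D.S.l j) +
      ss t * (D.S.P * star (D.S'.l j)) := by
  rw [L_eq D hc, star_add, star_mul, star_mul, star_add, star_sub, star_mul, star_one, D.S.Pstar,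
    ht.star_cc, ht.star_ss, star_μ_eq, ← hc.1.cc.P.eq,
    ← (hc.1.ss.P.mul_right (hc.2.ss.ls j)).eq]

/-- The `L j` are isometries with orthogonal ranges. -/
theorem L_orth (ht : Sm t) (hc : D.Cm t) (i j : ℕ) :
    star (D.L t i) * D.L t j = if i = j then 1 else 0 := by
  have h1 : star (D.S.l i) * D.S.P = 0 := by
    rw [← D.S.Pstar, ← star_mul, D.S.Pl, star_zero]
  have e1 : star (D.S.l i) * (ss t * D.μ j) = 0 := by
    rw [μ, ← mul_assoc, ← (hc.1.ss.ls i).eq, mul_assoc, ← mul_assoc _ D.S.P, h1, zero_mul, mul_zero]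
  have e2 : D.S.P * star (D.S'.l i) * D.S.l j = 0 := by
    rw [(D.ind.P.ls i).eq, mul_assoc, D.S.Pl, mul_zero]
  have e3 : D.S.P * star (D.S'.l i) * (ss t * D.μ j) =
      ss t * D.S.P * (star (D.S'.l i) * D.S'.l j) := by
    have h3 : star (D.S'.l i) * (D.S.P * D.S'.l j) = D.S.P * (star (D.S'.l i) * D.S'.l j) := by
      rw [← mul_assoc, ← (D.ind.P.ls i).eq, mul_assoc]
    rw [μ, ← mul_assoc, ← (hc.1.ss.P.mul_right (hc.2.ss.ls i)).eq, mul_assoc, mul_assoc, h3,
      ← mul_assoc D.S.P D.S.P, D.S.PP, mul_assoc]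
  have e4 : (1 - D.S.P + cc t * D.S.P) * (1 - D.S.P + cc t * D.S.P) + ss t * (ss t * D.S.P) = 1 := by
    have h2 : D.S.P * (cc t * D.S.P) = cc t * D.S.P := by
      rw [← mul_assoc, ← hc.1.cc.P.eq, mul_assoc, D.S.PP]
    calc (1 - D.S.P + cc t * D.S.P) * (1 - D.S.P + cc t * D.S.P) + ss t * (ss t * D.S.P)
        = 1 - D.S.P - D.S.P + D.S.P * D.S.P + cc t * D.S.P + cc t * D.S.P
          - D.S.P * (cc t * D.S.P) - cc t * (D.S.P * D.S.P) + cc t * (D.S.P * (cc t * D.S.P))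
          + ss t * (ss t * D.S.P) := by noncomm_ring
      _ = 1 - D.S.P + (cc t * cc t + ss t * ss t) * D.S.P := by rw [h2, D.S.PP]; noncomm_ring
      _ = 1 := by rw [ht.sq_add_sq, one_mul, sub_add_cancel]
  rw [star_L_eq D ht hc, L_eq D hc]
  generalize 1 - D.S.P + cc t * D.S.P = q at e4 ⊢
  rw [add_mul, mul_add, mul_assoc q, mul_assoc q, e1, mul_assoc (ss t), mul_add, e3,
    ← mul_assoc _ (D.S.l j), ← mul_assoc _ (D.S.l j), e2, D.S.ll, D.S'.ll]
  split_ifs
  · rw [one_mul, mul_one, mul_zero, zero_mul, add_zero, zero_add, e4]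
  · simp

theorem row_L (ht : Sm t) (hc : D.Cm t) (n : ℕ) : Row n (D.L t) := row_of_orth (D.L_orth ht hc)

theorem norm_X_le (ht : Sm t) (hc : D.Cm t) (j : ℕ) : ‖D.X t j‖ ≤ 2 := by
  have h : ‖D.L t j‖ ≤ 1 := norm_le_one_of_isom (by simp [D.L_orth ht hc])
  have := norm_add_le (D.L t j) (star (D.L t j))
  rw [norm_star] at this
  unfold X
  linarith

theorem norm_d_le (j : ℕ) : ‖D.d j‖ ≤ 2 := D.S'.norm_d_le j

/-- `(L j)⋆ d i = d i (L j)⋆ + δ s P P'`. -/
theorem star_L_mul_d (ht : Sm t) (hc : D.Cm t) (i j : ℕ) :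
    star (D.L t j) * D.d i = D.d i * star (D.L t j) + if i = j then ss t * D.E else 0 := by
  have h1 : star (D.S'.l j) * D.d i = D.d i * star (D.S'.l j) + if i = j then D.S'.P else 0 := by
    have h2 := congrArg star (D.S'.lr i j)
    rw [star_mul, star_mul] at h2
    rw [d, Sys.d, mul_add, add_mul, D.S'.lr_star, ← h2, add_right_comm]
  have h2 : Commute ((1 - D.S.P + cc t * D.S.P) * star (D.S.l j)) (D.d i) :=
    ((((Sys.Cm.one _).sub D.ind.P).add (hc.2.cc.mul D.ind.P)).mul (D.ind.l j).star).d i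
  have h3 : Commute (ss t * D.S.P) (D.d i) := (hc.2.ss.mul D.ind.P).d i
  rw [star_L_eq D ht hc, add_mul, mul_add, h2.eq, ← mul_assoc (ss t), mul_assoc (ss t * _), h1,
    mul_add, ← mul_assoc (ss t * _), h3.eq, mul_assoc (D.d i), add_assoc]
  congr 2
  split_ifs
  · rw [E, mul_assoc]
  · rw [mul_zero]

theorem commute_X_d (ht : Sm t) (hc : D.Cm t) (j i : ℕ) : Commute (D.X t j) (D.d i) := by
  have h1 := D.star_L_mul_d ht hc i j
  have h2 := congrArg star h1
  have h3 : star (if i = j then ss t * D.E else 0) = if i = j then ss t * D.E else 0 := by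
    split_ifs
    · rw [star_mul, D.star_E, ht.star_ss, (Cm.E ⟨hc.1.ss, hc.2.ss⟩).eq]
    · exact star_zero _
  rw [star_add, star_mul, star_mul, star_star, D.star_d, h3] at h2
  rw [Commute, SemiconjBy, X, add_mul, mul_add, h1, h2]
  abel

theorem norm_sum_X_d (ht : Sm t) (hc : D.Cm t) (n : ℕ) :
    ‖∑ j ∈ range n, D.X t j * D.d j - (n : ℂ) • (ss t * D.E)‖ ≤ 4 * √n := by
  exact norm_sum_sub_le (D.row_L ht hc n) (fun j _ => D.norm_d_le j) fun j _ => by
    rw [D.star_L_mul_d ht hc, if_pos rfl]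

end Two

end

end Crest.Agent.R78F
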