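import Crest.Agent.R78F.Rel

/-!
# Row 78 (S0104, S0105): `V` intertwines `l_j` with `L_j` and `l_j⋆` with `L_j⋆`
-/

set_option autoImplicit false
set_option linter.unusedSectionVars false

open Finset

namespace Crest.Agent.R78F

noncomputable section

variable {A : Type*} [CStarAlgebra A]

theorem relv_aux₁ {R : Type*} [Ring R] {s c l m P T U B : R}
    (sl : Commute s l) (sm : Commute s m) (sP : Commute s P) (sB : Commute s B)
    (cl : Commute c l) (cm : Commute c m) (cP : Commute c P) (sc : Commute s c)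
    (B1 : B * (1 - s * U) = 1) (B2 : (1 - s * U) * B = 1)
    (Tl : T * l = l * T) (Ul : U * l = l * U + m) (PT : P * T = 0) (Um : U * m = 0)
    (mT : m * T = 0) (Pl : P * l = 0) (Pm : P * m = m) (mP : m * P = m) (PP : P * P = P) :
    (-(s * T) + c * ((c + (1 - c) * P) * B)) * l =
      (l * (1 - P) + c * (l * P) + s * m) * (-(s * T) + c * ((c + (1 - c) * P) * B)) := by
  have hBm : B * m = m := by
    conv_rhs => rw [← one_mul m, ← B1, mul_assoc, sub_mul, one_mul, mul_assoc, Um, mul_zero, sub_zero]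
  have h1 : l * (1 - s * U) = (1 - s * U) * l + s * m := by
    rw [mul_sub, sub_mul, mul_assoc, Ul, sl.symm.left_comm, mul_add, mul_one, one_mul]
    abel
  have hBl : B * l = (l + s * m) * B := by
    calc B * l = B * (l * (1 - s * U)) * B := by
          rw [mul_assoc, mul_assoc, B2, mul_one]
      _ = (l + s * m) * B := by
          rw [h1, mul_add, ← mul_assoc B, B1, one_mul, sB.symm.left_comm, hBm]
  set C := c + (1 - c) * P with hC
  set L := l * (1 - P) + c * (l * P) + s * m with hL
  have sC : Commute s C := sc.add_right (((Commute.one_right s).sub_right sc).mul_right sP)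
  have sL : Commute s L := ((sl.mul_right ((Commute.one_right s).sub_right sP)).add_right
    (sc.mul_right (sl.mul_right sP))).add_right ((Commute.refl s).mul_right sm)
  have cL : Commute c L := ((cl.mul_right ((Commute.one_right c).sub_right cP)).add_right
    ((Commute.refl c).mul_right (cl.mul_right cP))).add_right (sc.symm.mul_right cm)
  have Cl : C * l = c * l := by rw [hC, add_mul, mul_assoc, Pl, mul_zero, add_zero]
  have Cm : C * m = m := by rw [hC, add_mul, mul_assoc, Pm, sub_mul, one_mul]; abel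
  have PC : P * C = P := by
    rw [hC, mul_add, ((Commute.one_right P).sub_right cP.symm).left_comm, PP, ← cP.eq, sub_mul,
      one_mul]
    abel
  have mC : m * C = m := by
    rw [hC, mul_add, ((Commute.one_right m).sub_right cm.symm).left_comm, mP, ← cm.eq, sub_mul,
      one_mul]
    abel
  have LT : L * T = l * T := by
    simp only [hL, add_mul, mul_assoc, sub_mul, one_mul, PT, mT, mul_zero, sub_zero, add_zero]
  have LC : L * C = c * l + s * m := by
    have : l * (C - P) = c * l - c * (l * P) := by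
      rw [hC, sub_mul, one_mul, cl.left_comm, cl.eq, ← mul_sub]
      congr 1
      abel
    simp only [hL, add_mul, mul_assoc, sub_mul, one_mul, PC, mC, this]
    abel
  rw [add_mul, neg_mul, mul_assoc, mul_assoc, mul_assoc, hBl, ← mul_assoc C, mul_add C, Cl,
    sC.symm.left_comm, Cm, mul_add L, mul_neg, sL.symm.left_comm, LT, cL.symm.left_comm,
    ← mul_assoc L, LC, Tl]

theorem relv_aux₂ {R : Type*} [Ring R] {s c l m P T U B : R}
    (sl : Commute s l) (sm : Commute s m) (sP : Commute s P)
    (cl : Commute c l) (cm : Commute c m) (cP : Commute c P) (sc : Commute s c)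
    (hsc : c * c + s * s = 1)
    (B1 : B * (1 - s * U) = 1) (B2 : (1 - s * U) * B = 1)
    (Ul : U * l = l * U) (lT : l * T = T * l + m) (PT : P * T = 0) (mU : m * U = P * l)
    (mT : m * T = 0) (lP : l * P = 0) (Pm : P * m = m) (mP : m * P = m) :
    (-(s * T) + c * ((c + (1 - c) * P) * B)) * l =
      ((1 - P) * l + c * (P * l) + s * m) * (-(s * T) + c * ((c + (1 - c) * P) * B)) := by
  have h1 : l * (1 - s * U) = (1 - s * U) * l := by
    rw [mul_sub, sub_mul, mul_assoc, Ul, sl.symm.left_comm, mul_one, one_mul]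
  have hBl : B * l = l * B := by
    calc B * l = B * (l * (1 - s * U)) * B := by
          rw [mul_assoc, mul_assoc, B2, mul_one]
      _ = l * B := by rw [h1, ← mul_assoc B, B1, one_mul]
  have hmB : m * B = m + s * (P * (l * B)) := by
    conv_rhs => rw [← mul_assoc P, ← mU, mul_assoc, sm.left_comm, ← mul_assoc s]
    nth_rewrite 2 [← mul_one m]
    rw [← mul_add, ← B2, sub_mul, one_mul, sub_add_cancel]
  set C := c + (1 - c) * P with hC
  set L := (1 - P) * l + c * (P * l) + s * m with hL
  have sL : Commute s L := ((((Commute.one_right s).sub_right sP).mul_right sl).add_right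
    (sc.mul_right (sP.mul_right sl))).add_right ((Commute.refl s).mul_right sm)
  have cL : Commute c L := ((((Commute.one_right c).sub_right cP).mul_right cl).add_right
    ((Commute.refl c).mul_right (cP.mul_right cl))).add_right (sc.symm.mul_right cm)
  have lC : l * C = c * l := by
    rw [hC, mul_add, ((Commute.one_right l).sub_right cl.symm).left_comm, lP, mul_zero, add_zero,
      cl.eq]
  have mC : m * C = m := by
    rw [hC, mul_add, ((Commute.one_right m).sub_right cm.symm).left_comm, mP, ← cm.eq, sub_mul,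
      one_mul]
    abel
  have LT : L * T = T * l + c * m := by
    have : P * (T * l) = 0 := by rw [← mul_assoc, PT, zero_mul]
    simp only [hL, add_mul, mul_assoc, sub_mul, one_mul, lT, mul_add, this, Pm, mT, mul_zero,
      zero_add, add_zero]
    abel
  have LC : L * C = c * l - c * (P * l) + c * (c * (P * l)) + s * m := by
    simp only [hL, add_mul, mul_assoc, sub_mul, one_mul, lC, mC, cP.symm.left_comm]
  have key : c * (c * (P * (l * B))) + s * (s * (P * (l * B))) = P * (l * B) := by
    rw [← mul_assoc c c, ← mul_assoc s s, ← add_mul, hsc, one_mul]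
  rw [add_mul, neg_mul, mul_assoc, mul_assoc, mul_assoc, hBl, mul_add L, mul_neg,
    sL.symm.left_comm, LT, cL.symm.left_comm, ← mul_assoc L, LC, mul_add s, sc.left_comm, neg_add,
    add_assoc, ← mul_neg c, ← mul_add c]
  congr 2
  simp only [hC, add_mul, sub_mul, one_mul, mul_assoc, hmB, mul_add]
  rw [eq_sub_of_add_eq key]
  abel

namespace Two

variable (D : Two A) {t : A} {n : ℕ}

theorem relv_P_μ (j : ℕ) : D.S.P * D.μ j = D.μ j := by rw [μ, ← mul_assoc, D.S.PP]

theorem relv_μ_P (j : ℕ) : D.μ j * D.S.P = D.μ j := by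
  rw [μ, mul_assoc, ← (D.ind.P.l j).eq, ← mul_assoc, D.S.PP]

theorem relv_P_star_μ (j : ℕ) : D.S.P * star (D.μ j) = star (D.μ j) := by
  simpa [D.S.Pstar] using congrArg star (D.relv_μ_P j)

theorem relv_star_μ_P (j : ℕ) : star (D.μ j) * D.S.P = star (D.μ j) := by
  simpa [D.S.Pstar] using congrArg star (D.relv_P_μ j)

/-- `V l_j = L_j V`.  (`B l_j = (l_j + s μ_j) B`, `L_j T = l_j T`, `L_j C = c l_j + s μ_j`.) -/
theorem V_mul_l (ht : Sm t) (hc : D.Cm t) (hB : IsUnit (1 - ss t * star (D.T n))) {j : ℕ}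
    (hj : j < n) : D.V n t * D.S.l j = D.L t j * D.V n t := by
  have hs : D.Cm (ss t) := ⟨hc.1.ss, hc.2.ss⟩
  have hcc : D.Cm (cc t) := ⟨hc.1.cc, hc.2.cc⟩
  have hUP : star (D.T n) * D.S.P = 0 := by simpa [D.S.Pstar] using congrArg star (D.P_mul_T n)
  refine relv_aux₁ (U := star (D.T n)) (hs.1.l j) (hs.μ j) hs.1.P
    (commute_ringInverse ((Commute.one_right _).sub_right
      ((Commute.refl _).mul_right (hs.star_T n))))
    (hcc.1.l j) (hcc.μ j) hcc.1.P (commute_ss_cc t) (Ring.inverse_mul_cancel _ hB)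
    (Ring.mul_inverse_cancel _ hB) (D.T_mul_l n j) (D.star_T_mul_l hj) (D.P_mul_T n) ?_ ?_
    (D.S.Pl j) (D.relv_P_μ j) (D.relv_μ_P j) D.S.PP
  · rw [← D.relv_P_μ j, ← mul_assoc, hUP, zero_mul]
  · rw [← D.relv_μ_P j, mul_assoc, D.P_mul_T, mul_zero]

/-- `V l_j⋆ = L_j⋆ V`.  (`B l_j⋆ = l_j⋆ B`, `L_j⋆ T = T l_j⋆ + c μ_j⋆`,
`L_j⋆ C = c ((1 - P) + c P) l_j⋆ + s μ_j⋆`, `B = 1 + s T⋆ B`, `μ_j⋆ T⋆ = P l_j⋆`.) -/
theorem V_mul_star_l (ht : Sm t) (hc : D.Cm t) (hB : IsUnit (1 - ss t * star (D.T n))) {j : ℕ}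
    (hj : j < n) : D.V n t * star (D.S.l j) = star (D.L t j) * D.V n t := by
  have hs : D.Cm (ss t) := ⟨hc.1.ss, hc.2.ss⟩
  have hcc : D.Cm (cc t) := ⟨hc.1.cc, hc.2.cc⟩
  have sm : Commute (ss t) (star (D.μ j)) := by simpa [ht.star_ss] using (hs.μ j).star_star
  have cm : Commute (cc t) (star (D.μ j)) := by simpa [ht.star_cc] using (hcc.μ j).star_star
  have hL : star (D.L t j) = (1 - D.S.P) * star (D.S.l j) + cc t * (D.S.P * star (D.S.l j)) +
      ss t * star (D.μ j) := by
    rw [(hcc.1.P.mul_right (hcc.1.ls j)).eq, sm.eq]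
    simp only [L, star_add, star_mul, star_sub, star_one, D.S.Pstar, ht.star_ss, ht.star_cc]
  rw [hL]
  refine relv_aux₂ (U := star (D.T n)) (hs.1.ls j) sm hs.1.P (hcc.1.ls j) cm hcc.1.P
    (commute_ss_cc t) ht.sq_add_sq (Ring.inverse_mul_cancel _ hB)
    (Ring.mul_inverse_cancel _ hB) ?_ ?_ (D.P_mul_T n) (D.star_μ_mul_star_T hj) ?_ ?_
    (D.relv_P_star_μ j) (D.relv_star_μ_P j)
  · simpa using (congrArg star (D.T_mul_l n j)).symm
  · simpa using congrArg star (D.star_T_mul_l hj)
  · rw [← D.relv_star_μ_P j, mul_assoc, D.P_mul_T, mul_zero]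
  · simpa [D.S.Pstar] using congrArg star (D.S.Pl j)

end Two

end

end Crest.Agent.R78F
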