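import Crest.Agent.R78F.Lp

/-!
# Row 78 (S0105): algebras of eventually constant sequences

For star subalgebras `D`, `S` of `B(K)`, `A0 D S` consists of the block diagonal operators on
`ℓ²(ℕ; K)` with blocks in `D` that are eventually equal to an element of `S`; `AA D S` is its norm
closure.
-/

set_option autoImplicit false
set_option linter.unusedSectionVars false

open Filter TopologicalSpace

namespace Crest.Agent.R78F

noncomputable section

variable {K : Type*} [NormedAddCommGroup K] [InnerProductSpace ℂ K] [CompleteSpace K]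

/-- Eventually constant sequences in `D` with limit in `S`. -/
def A0 (D S : StarSubalgebra ℂ (Op K)) : StarSubalgebra ℂ (Op (L2 ℕ K)) where
  carrier := {a | ∃ d : ℕ → Op K, Blk a d ∧ (∀ k, d k ∈ D) ∧ ∃ x ∈ S, ∀ᶠ k in atTop, d k = x}
  mul_mem' := by
    rintro a b ⟨d, ha, hd, x, hx, hdx⟩ ⟨e, hb, he, y, hy, hey⟩
    refine ⟨d * e, ha.mul hb, fun k => mul_mem (hd k) (he k), x * y, mul_mem hx hy, ?_⟩
    filter_upwards [hdx, hey] with k h1 h2
    rw [Pi.mul_apply, h1, h2]
  add_mem' := by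
    rintro a b ⟨d, ha, hd, x, hx, hdx⟩ ⟨e, hb, he, y, hy, hey⟩
    refine ⟨d + e, ha.add hb, fun k => add_mem (hd k) (he k), x + y, add_mem hx hy, ?_⟩
    filter_upwards [hdx, hey] with k h1 h2
    rw [Pi.add_apply, h1, h2]
  algebraMap_mem' c := by
    refine ⟨fun _ => algebraMap ℂ _ c, ?_, fun _ => algebraMap_mem D c, _, algebraMap_mem S c,
      Eventually.of_forall fun _ => rfl⟩
    rw [Algebra.algebraMap_eq_smul_one, Algebra.algebraMap_eq_smul_one]
    exact Blk.one.smul c
  star_mem' := by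
    rintro a ⟨d, ha, hd, x, hx, hdx⟩
    refine ⟨star d, ha.star, fun k => star_mem (hd k), star x, star_mem hx, ?_⟩
    filter_upwards [hdx] with k h1
    rw [Pi.star_apply, h1]

theorem mem_A0 {D S : StarSubalgebra ℂ (Op K)} {a : Op (L2 ℕ K)} :
    a ∈ A0 D S ↔
      ∃ d : ℕ → Op K, Blk a d ∧ (∀ k, d k ∈ D) ∧ ∃ x ∈ S, ∀ᶠ k in atTop, d k = x := Iff.rfl

/-- The norm closure of `A0 D S`. -/
def AA (D S : StarSubalgebra ℂ (Op K)) : StarSubalgebra ℂ (Op (L2 ℕ K)) :=
  (A0 D S).topologicalClosure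

variable {D S S' : StarSubalgebra ℂ (Op K)}

theorem coe_AA : (AA D S : Set (Op (L2 ℕ K))) = closure (A0 D S : Set (Op (L2 ℕ K))) := rfl

theorem isClosed_AA : IsClosed (AA D S : Set (Op (L2 ℕ K))) := isClosed_closure

theorem seq_blk (k : ℕ) (x : Op K) : Blk (eu k k * amp ℕ x) fun j => if j = k then x else 0 :=
  ((blk_eu k).mul (blk_amp x)).congr fun j => by
    rw [Pi.mul_apply, ite_mul, one_mul, zero_mul]

theorem seq_blk_sum (y : ℕ → Op K) (M : ℕ) :
    Blk (∑ k ∈ Finset.range M, eu k k * amp ℕ (y k)) fun j => if j < M then y j else 0 := by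
  induction M with
  | zero => exact Blk.zero
  | succ M ih =>
    rw [Finset.sum_range_succ]
    refine (ih.add (seq_blk M (y M))).congr fun j => ?_
    rw [Pi.add_apply]
    rcases lt_trichotomy j M with h | rfl | h
    · rw [if_pos h, if_neg h.ne, if_pos (h.trans M.lt_succ_self), add_zero]
    · rw [if_neg (lt_irrefl j), if_pos rfl, if_pos j.lt_succ_self, zero_add]
    · rw [if_neg h.not_gt, if_neg h.ne', if_neg (by omega), add_zero]

theorem amp_mem_AA {x : Op K} (hD : x ∈ D) (hS : x ∈ S) : amp ℕ x ∈ AA D S := by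
  exact subset_closure ⟨fun _ => x, blk_amp x, fun _ => hD, x, hS, .of_forall fun _ => rfl⟩

theorem eu_mul_amp_mem_AA (k : ℕ) {x : Op K} (hD : x ∈ D) : eu k k * amp ℕ x ∈ AA D S := by
  refine subset_closure ⟨_, seq_blk k x, fun j => ?_, 0, zero_mem S,
    (eventually_gt_atTop k).mono fun j hj => if_neg hj.ne'⟩
  split_ifs
  exacts [hD, zero_mem D]

theorem eu_mem_AA (k : ℕ) : (eu k k : Op (L2 ℕ K)) ∈ AA D S := by
  simpa only [map_one, mul_one] using eu_mul_amp_mem_AA (S := S) k (one_mem D)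

/-- Elements of `AA D S` can be approximated by eventually constant sequences. -/
theorem exists_approx {a : Op (L2 ℕ K)} (ha : a ∈ AA D S) {κ : ℝ} (hκ : 0 < κ) :
    ∃ (a' : Op (L2 ℕ K)) (d : ℕ → Op K) (x : Op K) (M : ℕ), ‖a - a'‖ ≤ κ ∧ Blk a' d ∧
      (∀ k, d k ∈ D) ∧ x ∈ S ∧ ∀ k, M ≤ k → d k = x := by
  obtain ⟨a', ⟨d, h1, h2, x, h3, h4⟩, h5⟩ := Metric.mem_closure_iff.1 ha κ hκ
  obtain ⟨M, hM⟩ := eventually_atTop.1 h4
  exact ⟨a', d, x, M, (dist_eq_norm a a').ge.trans h5.le, h1, h2, h3, hM⟩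

/-- A block diagonal operator whose blocks commute with `D` commutes with `AA D S`. -/
theorem commute_of_blk {g : Op (L2 ℕ K)} {e : ℕ → Op K} (hg : Blk g e)
    (he : ∀ k, ∀ x ∈ D, Commute (e k) x) {a : Op (L2 ℕ K)} (ha : a ∈ AA D S) : Commute g a := by
  refine closure_minimal (t := {a | g * a = a * g}) ?_ (isClosed_eq (by fun_prop) (by fun_prop)) ha
  rintro a ⟨d, h1, h2, -⟩
  exact hg.commute h1 fun k => he k _ (h2 k)

/-- An operator commuting with `AA D S` is block diagonal with blocks commuting with `D`. -/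
theorem blk_of_commute {g : Op (L2 ℕ K)} (hg : ∀ a ∈ AA D S, Commute g a) :
    ∃ e : ℕ → Op K, Blk g e ∧ ∀ k, ∀ x ∈ D, Commute (e k) x := by
  have hb := blk_of_commute_eu fun k => hg _ (eu_mem_AA k)
  refine ⟨_, hb, fun k x hx => ?_⟩
  simpa only [if_true] using hb.commute_blk (seq_blk k x) (hg _ (eu_mul_amp_mem_AA k hx)) k

/-- The commutant does not depend on `S`. -/
theorem centralizer_AA :
    Set.centralizer (AA D S : Set (Op (L2 ℕ K))) = Set.centralizer (AA D S' : Set _) := by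
  have key : ∀ S S' : StarSubalgebra ℂ (Op K), Set.centralizer (AA D S : Set (Op (L2 ℕ K))) ⊆
      Set.centralizer (AA D S' : Set _) := fun S S' g hg a ha => by
    obtain ⟨e, h1, h2⟩ := blk_of_commute fun a ha => (hg a ha).symm
    exact (commute_of_blk h1 h2 ha).symm
  exact (key S S').antisymm (key S' S)

/-- `A0 D S` lies in the span of the `amp x` and `eu k k * amp x`, `x ∈ D`. -/
theorem isSeparable_AA (hD : IsSeparable (D : Set (Op K))) :
    IsSeparable (AA D S : Set (Op (L2 ℕ K))) := by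
  have hc : Continuous (amp ℕ : Op K → Op (L2 ℕ K)) :=
    AddMonoidHomClass.continuous_of_bound (amp ℕ) 1 fun a => by
      rw [one_mul]
      exact norm_amp_le a
  have h1 : IsSeparable ((amp ℕ '' (D : Set (Op K))) ∪
      ⋃ k : ℕ, (fun x => eu k k * amp ℕ x) '' (D : Set (Op K))) :=
    (hD.image hc).union (.iUnion fun k => hD.image (continuous_const.mul hc))
  refine ((h1.span (R := ℂ)).mono ?_).closure
  rintro a ⟨d, h2, h3, x, -, h4⟩
  obtain ⟨M, hM⟩ := eventually_atTop.1 h4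
  have hx : x ∈ D := hM M le_rfl ▸ h3 M
  rw [h2.unique (((blk_amp x).add (seq_blk_sum (fun k => d k - x) M)).congr fun j => by
    rw [Pi.add_apply]
    split_ifs with h
    · exact add_sub_cancel _ _
    · rw [add_zero, hM j (not_lt.1 h)])]
  exact add_mem (Submodule.subset_span (Or.inl ⟨x, hx, rfl⟩)) (sum_mem fun k _ =>
    Submodule.subset_span (Or.inr (Set.mem_iUnion.2 ⟨k, _, sub_mem (h3 k) hx, rfl⟩)))

theorem seq_normalise {A : StarSubalgebra ℂ (Op K)} {a b : Op K} (hb : b ∈ A) (ha : ‖a‖ ≤ 1)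
    {ρ : ℝ} (h : ‖a - b‖ ≤ ρ) : ∃ c ∈ A, ‖c‖ ≤ 1 ∧ ‖a - c‖ ≤ 2 * ρ := by
  have h0 : 0 ≤ ρ := (norm_nonneg _).trans h
  have h1 : 0 < 1 + ρ := by positivity
  have h2 : ‖(1 + ρ)⁻¹ • b‖ ≤ 1 := by
    rw [norm_smul, norm_inv, Real.norm_of_nonneg h1.le, inv_mul_le_iff₀ h1, mul_one]
    linarith [norm_le_norm_add_norm_sub a b]
  refine ⟨(1 + ρ)⁻¹ • b, ?_, h2, ?_⟩
  · rw [← Complex.coe_smul]
    exact A.smul_mem hb _
  · have h3 : b - (1 + ρ)⁻¹ • b = ρ • (1 + ρ)⁻¹ • b := by
      rw [sub_eq_iff_eq_add']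
      conv_lhs => rw [← smul_inv_smul₀ h1.ne' b, add_smul, one_smul]
    have h4 := norm_sub_le_norm_sub_add_norm_sub a b ((1 + ρ)⁻¹ • b)
    rw [h3, norm_smul, Real.norm_of_nonneg h0] at h4
    linarith [mul_le_of_le_one_right h0 h2]

/-- If `S` is nearly contained in `S'` then `AA D S` is nearly contained in `AA D S'`: replace the
blocks `d k = x`, `k ≥ M`, by `x'`, and normalise. -/
theorem close_AA (hS' : S' ≤ D) {κ ε : ℝ} (hκ : 0 ≤ κ) (hκε : 4 * κ < ε)
    (h : ∀ x ∈ S, ∃ x' ∈ S', ‖x - x'‖ ≤ κ * ‖x‖) {a : Op (L2 ℕ K)} (ha : a ∈ AA D S)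
    (ha1 : ‖a‖ ≤ 1) : ∃ b ∈ AA D S', ‖b‖ ≤ 1 ∧ ‖a - b‖ < ε := by
  have h1 : 0 < 1 + κ := by positivity
  obtain ⟨η, hη, hη'⟩ : ∃ η : ℝ, 0 < η ∧ η * (4 * (1 + κ)) = ε - 4 * κ :=
    ⟨(ε - 4 * κ) / (4 * (1 + κ)), div_pos (by linarith) (by positivity),
      div_mul_cancel₀ _ (by positivity)⟩
  obtain ⟨a', d, x, M, a1, a2, a3, a4, a5⟩ := exists_approx ha hη
  obtain ⟨x', b1, b2⟩ := h x a4
  have b3 : ‖x‖ ≤ 1 + η := by
    have := a2.norm_blk_le M
    rw [a5 M le_rfl] at this
    linarith [norm_le_norm_add_norm_sub a a']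
  have b4 : ∀ k, ‖if k < M then 0 else x - x'‖ ≤ κ * (1 + η) := fun k => by
    split_ifs
    · rw [norm_zero]
      positivity
    · exact b2.trans (mul_le_mul_of_nonneg_left b3 hκ)
  have b5 := blk_diag b4
  have b6 := b5.norm_le (by positivity) b4
  have b7 : a' - diag (fun k => if k < M then 0 else x - x') ∈ AA D S' := by
    refine subset_closure ⟨fun k => if k < M then d k else x', (a2.sub b5).congr fun k => ?_,
      fun k => ?_, x', b1, (eventually_ge_atTop M).mono fun k hk => if_neg hk.not_gt⟩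
    · rw [Pi.sub_apply]
      split_ifs with hk
      · exact sub_zero _
      · rw [a5 k (not_lt.1 hk), sub_sub_cancel]
    · beta_reduce
      split_ifs
      exacts [a3 k, hS' b1]
  obtain ⟨b, c1, c2, c3⟩ := seq_normalise b7 ha1 (ρ := η + κ * (1 + η)) (by
    rw [← sub_add]
    exact (norm_add_le _ _).trans (add_le_add a1 b6))
  exact ⟨b, c1, c2, by linarith⟩

open Pointwise in
theorem seq_monoid {s : Set (Op K)} (hs : s.Countable) :
    (Submonoid.closure s : Set (Op K)).Countable := by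
  have h1 : ∀ n : ℕ, (s ^ n).Countable := fun n => by
    induction n with
    | zero => exact Set.countable_singleton 1
    | succ n ih =>
      rw [pow_succ, ← Set.image_mul_prod]
      exact (ih.prod hs).image _
  refine (Set.countable_iUnion h1).mono fun x hx => ?_
  induction hx using Submonoid.closure_induction with
  | mem x hx => exact Set.mem_iUnion.2 ⟨1, by rwa [pow_one]⟩
  | one => exact Set.mem_iUnion.2 ⟨0, rfl⟩
  | mul x y _ _ hx hy =>
    obtain ⟨m, hm⟩ := Set.mem_iUnion.1 hx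
    obtain ⟨n, hn⟩ := Set.mem_iUnion.1 hy
    exact Set.mem_iUnion.2 ⟨m + n, by rw [pow_add]; exact Set.mul_mem_mul hm hn⟩

/-- The star algebra generated by a countable set is separable (`StarAlgebra.adjoin_toSubalgebra`,
`Algebra.adjoin_eq_span`, the generated submonoid is countable). -/
theorem isSeparable_adjoin {s : Set (Op K)} (hs : s.Countable) :
    IsSeparable (StarAlgebra.adjoin ℂ s : Set (Op K)) := by
  have h1 : (s ∪ star s).Countable := hs.union (by
    rw [← Set.image_star]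
    exact hs.image _)
  have h2 := (seq_monoid h1).isSeparable.span (R := ℂ)
  rwa [← StarAlgebra.adjoin_eq_span] at h2

/-- A similarity carrying self-adjoint generators to self-adjoint generators carries the generated
star algebras into each other. -/
theorem conj_mem_adjoin {s s' : Set (Op K)} (hs : ∀ a ∈ s, star a = a) {v v' : Op K}
    (h1 : v * v' = 1) (h2 : v' * v = 1) (h : ∀ a ∈ s, v * a * v' ∈ s') {x : Op K}
    (hx : x ∈ StarAlgebra.adjoin ℂ s) : v * x * v' ∈ StarAlgebra.adjoin ℂ s' := by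
  rw [← StarSubalgebra.mem_toSubalgebra, StarAlgebra.adjoin_toSubalgebra] at hx
  induction hx using Algebra.adjoin_induction with
  | mem a ha =>
    refine StarAlgebra.subset_adjoin ℂ s' (h a (ha.elim id fun ha => ?_))
    have h3 := hs _ ha
    rw [star_star] at h3
    rw [h3]
    exact ha
  | algebraMap r =>
    rw [← Algebra.commutes, mul_assoc, h1, mul_one]
    exact algebraMap_mem _ r
  | add x y _ _ hx hy =>
    rw [mul_add, add_mul]
    exact add_mem hx hy
  | mul x y _ _ hx hy =>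
    have h3 := mul_mem hx hy
    rwa [mul_assoc v y, ← mul_assoc _ v, mul_assoc _ v' v, h2, mul_one, ← mul_assoc,
      mul_assoc v] at h3

end

end Crest.Agent.R78F
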